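import Crest.Agent.Lib.Row168.Defs

/-!
Balls around an edge in a graph on `ℕ`.
-/

set_option autoImplicit false
open MeasureTheory Filter Topology
open Crest.ProbabilityR Crest.ProbabilityR.GraphTables

namespace Crest.Agent.Lib.Row168

/-- vertices within graph distance `R` of the edge `e` (iterated neighbourhoods) -/
def vball (G : SimpleGraph ℕ) (e : Sym2 ℕ) : ℕ → Set ℕ
  | 0 => {v | v ∈ e}
  | R + 1 => {v | v ∈ vball G e R ∨ ∃ w ∈ vball G e R, G.Adj w v}

/-- edges of `G` with both endpoints in the ball -/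
def eball (G : SimpleGraph ℕ) (e : Sym2 ℕ) (R : ℕ) : Set (Sym2 ℕ) :=
  {f | f ∈ G.edgeSet ∧ ∀ v ∈ f, v ∈ vball G e R}

lemma mem_vball_succ {G : SimpleGraph ℕ} {e : Sym2 ℕ} {R v : ℕ} :
    v ∈ vball G e (R + 1) ↔ v ∈ vball G e R ∨ ∃ w ∈ vball G e R, G.Adj w v := Iff.rfl

lemma measurableSet_adj (i j : ℕ) :
    MeasurableSet {A : ℕ → ℕ → Bool | (graphOfTable A).Adj i j} := by
  have h : ∀ i j : ℕ, MeasurableSet {A : ℕ → ℕ → Bool | A i j = true} := by
    intro i j
    have hm : Measurable fun A : ℕ → ℕ → Bool => A i j := by fun_prop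
    exact hm (measurableSet_singleton true)
  have : {A : ℕ → ℕ → Bool | (graphOfTable A).Adj i j} =
      {_A : ℕ → ℕ → Bool | i ≠ j} ∩
        ({A : ℕ → ℕ → Bool | A i j = true} ∪ {A : ℕ → ℕ → Bool | A j i = true}) := by
    ext A
    simp [graphOfTable, SimpleGraph.fromRel_adj]
  rw [this]
  exact (MeasurableSet.const _).inter ((h i j).union (h j i))

lemma measurableSet_mem_edgeSet (f : Sym2 ℕ) :
    MeasurableSet {A : ℕ → ℕ → Bool | f ∈ (graphOfTable A).edgeSet} := by
  induction f with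
  | _ i j => exact measurableSet_adj i j

lemma measurableSet_mem_vball (e : Sym2 ℕ) (R v : ℕ) :
    MeasurableSet {A : ℕ → ℕ → Bool | v ∈ vball (graphOfTable A) e R} := by
  induction R generalizing v with
  | zero => exact MeasurableSet.const _
  | succ R ih =>
    have : {A : ℕ → ℕ → Bool | v ∈ vball (graphOfTable A) e (R + 1)} =
        {A : ℕ → ℕ → Bool | v ∈ vball (graphOfTable A) e R} ∪
        ⋃ w : ℕ, ({A : ℕ → ℕ → Bool | w ∈ vball (graphOfTable A) e R} ∩
          {A : ℕ → ℕ → Bool | (graphOfTable A).Adj w v}) := by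
      ext A
      simp only [Set.mem_ofPred_eq, mem_vball_succ, Set.mem_union, Set.mem_iUnion,
        Set.mem_inter_iff]
    rw [this]
    exact (ih v).union (MeasurableSet.iUnion fun w => (ih w).inter (measurableSet_adj w v))

lemma measurableSet_mem_eball (e f : Sym2 ℕ) (R : ℕ) :
    MeasurableSet {A : ℕ → ℕ → Bool | f ∈ eball (graphOfTable A) e R} := by
  induction f with
  | _ i j =>
    have : {A : ℕ → ℕ → Bool | s(i, j) ∈ eball (graphOfTable A) e R} =
        {A | s(i, j) ∈ (graphOfTable A).edgeSet} ∩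
        ({A | i ∈ vball (graphOfTable A) e R} ∩ {A | j ∈ vball (graphOfTable A) e R}) := by
      ext A
      simp only [eball, Set.mem_ofPred_eq, Sym2.ball, Set.mem_inter_iff]
    rw [this]
    exact (measurableSet_mem_edgeSet _).inter
      ((measurableSet_mem_vball _ _ _).inter (measurableSet_mem_vball _ _ _))

lemma vball_mono {G : SimpleGraph ℕ} {e : Sym2 ℕ} {R R' : ℕ} (h : R ≤ R') :
    vball G e R ⊆ vball G e R' := by
  induction R', h using Nat.le_induction with
  | base => exact subset_rfl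
  | succ n _ ih => exact fun v hv => Or.inl (ih hv)

lemma eball_mono {G : SimpleGraph ℕ} {e : Sym2 ℕ} {R R' : ℕ} (h : R ≤ R') :
    eball G e R ⊆ eball G e R' := fun _ hf => ⟨hf.1, fun v hv => vball_mono h (hf.2 v hv)⟩

lemma vball_finite {G : SimpleGraph ℕ} (hlf : ∀ v : ℕ, (G.neighborSet v).Finite) (e : Sym2 ℕ)
    (R : ℕ) : (vball G e R).Finite := by
  induction R with
  | zero =>
    induction e with
    | _ a b =>
      refine (Set.toFinite ({a, b} : Set ℕ)).subset fun v hv => ?_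
      have : v = a ∨ v = b := Sym2.mem_iff.1 hv
      simpa using this
  | succ R ih =>
    refine (ih.union (ih.biUnion fun w _ => hlf w)).subset fun v hv => ?_
    rcases hv with hv | ⟨w, hw, hadj⟩
    · exact Or.inl hv
    · exact Or.inr (Set.mem_biUnion hw hadj)

lemma eball_finite {G : SimpleGraph ℕ} (hlf : ∀ v : ℕ, (G.neighborSet v).Finite) (e : Sym2 ℕ)
    (R : ℕ) : (eball G e R).Finite := by
  have hV := vball_finite hlf e R
  refine ((hV.prod hV).image fun p : ℕ × ℕ => s(p.1, p.2)).subset fun f hf => ?_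
  induction f with
  | _ i j =>
    refine ⟨(i, j), ⟨?_, ?_⟩, rfl⟩
    · exact hf.2 i (Sym2.mem_mk_left _ _)
    · exact hf.2 j (Sym2.mem_mk_right _ _)

lemma mem_eball_self {G : SimpleGraph ℕ} {e : Sym2 ℕ} (he : e ∈ G.edgeSet) (R : ℕ) :
    e ∈ eball G e R :=
  ⟨he, fun _ hv => vball_mono (Nat.zero_le R) hv⟩

lemma exists_mem_vball {G : SimpleGraph ℕ} (hG : G.Connected) (e : Sym2 ℕ) (v : ℕ) :
    ∃ R, v ∈ vball G e R := by
  induction e with
  | _ a b =>
    have hr : G.Reachable a v := hG.preconnected a v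
    have key : ∀ (x y : ℕ) (p : G.Walk x y), (∃ R, x ∈ vball G s(a, b) R) →
        ∃ R, y ∈ vball G s(a, b) R := by
      intro x y p
      induction p with
      | nil => exact id
      | cons h _ ih =>
        rintro ⟨R, hR⟩
        exact ih ⟨R + 1, Or.inr ⟨_, hR, h⟩⟩
    obtain ⟨p⟩ := hr
    exact key a v p ⟨0, Sym2.mem_mk_left _ _⟩

lemma eball_exhaust {G : SimpleGraph ℕ} (hG : G.Connected) (e : Sym2 ℕ) (Λ : Finset (Sym2 ℕ))
    (hΛ : (Λ : Set (Sym2 ℕ)) ⊆ G.edgeSet) : ∃ R, (Λ : Set (Sym2 ℕ)) ⊆ eball G e R := by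
  classical
  induction Λ using Finset.induction_on with
  | empty => exact ⟨0, by simp⟩
  | insert f Λ _ ih =>
    rw [Finset.coe_insert, Set.insert_subset_iff] at hΛ
    obtain ⟨R₁, h₁⟩ := ih hΛ.2
    obtain ⟨R₂, h₂⟩ : ∃ R, f ∈ eball G e R := by
      have hf := hΛ.1
      clear h₁ hΛ ih
      induction f with
      | _ i j =>
        obtain ⟨Ri, hi⟩ := exists_mem_vball hG e i
        obtain ⟨Rj, hj⟩ := exists_mem_vball hG e j
        refine ⟨max Ri Rj, hf, ?_⟩
        rw [Sym2.ball]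
        exact ⟨vball_mono (le_max_left _ _) hi, vball_mono (le_max_right _ _) hj⟩
    refine ⟨max R₁ R₂, ?_⟩
    rw [Finset.coe_insert, Set.insert_subset_iff]
    exact ⟨eball_mono (le_max_right _ _) h₂, h₁.trans (eball_mono (le_max_left _ _))⟩

lemma mem_vball_comap (σ : Equiv.Perm ℕ) (G : SimpleGraph ℕ) (e : Sym2 ℕ) (R v : ℕ) :
    v ∈ vball (G.comap ⇑σ) e R ↔ σ v ∈ vball G (Sym2.map ⇑σ e) R := by
  induction R generalizing v with
  | zero =>
    change v ∈ e ↔ σ v ∈ Sym2.map ⇑σ e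
    rw [Sym2.mem_map]
    constructor
    · intro h; exact ⟨v, h, rfl⟩
    · rintro ⟨a, ha, hav⟩
      rwa [← σ.injective hav]
  | succ R ih =>
    rw [mem_vball_succ, mem_vball_succ, ih]
    refine or_congr Iff.rfl ?_
    constructor
    · rintro ⟨w, hw, hadj⟩
      exact ⟨σ w, (ih w).1 hw, hadj⟩
    · rintro ⟨w, hw, hadj⟩
      refine ⟨σ.symm w, (ih _).2 (by rwa [Equiv.apply_symm_apply]), ?_⟩
      rw [SimpleGraph.comap_adj, Equiv.apply_symm_apply]
      exact hadj

lemma mem_edgeSet_comap (σ : Equiv.Perm ℕ) (G : SimpleGraph ℕ) (f : Sym2 ℕ) :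
    f ∈ (G.comap ⇑σ).edgeSet ↔ Sym2.map ⇑σ f ∈ G.edgeSet := by
  induction f with
  | _ i j => rfl

lemma mem_eball_comap (σ : Equiv.Perm ℕ) (G : SimpleGraph ℕ) (e f : Sym2 ℕ) (R : ℕ) :
    f ∈ eball (G.comap ⇑σ) e R ↔ Sym2.map ⇑σ f ∈ eball G (Sym2.map ⇑σ e) R := by
  induction f with
  | _ i j =>
    simp only [eball, Set.mem_ofPred_eq, mem_edgeSet_comap, Sym2.ball, mem_vball_comap,
      Sym2.map_mk]

end Crest.Agent.Lib.Row168
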