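import Crest.Agent.Lib.Row168.LawW

/-!
The finite-window flows are Cauchy in the window.
-/

set_option autoImplicit false
open MeasureTheory Filter Topology ProbabilityTheory
open scoped ENNReal

namespace Crest.Agent.Lib.Row168

variable {ι : Type*}

/-- the class of laws we treat -/
def Good (ν : Measure (ι → Bool)) (C : ℝ) : Prop := ∀ Λ : Finset ι, Valid (winW ν Λ) Λ C

variable (ν : Measure (ι → Bool)) [IsProbabilityMeasure ν]

/-- conditional second moment -/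
noncomputable def secMom (t : ℝ) (u : ι) (B : Finset ι) : ℝ :=
  ∫ p, (dr (winW ν B) B t (Y t p) u) ^ 2 ∂(ν.prod (PL ι))

lemma dr_mem (B : Finset ι) (t : ℝ) (w : ι → ℝ) (u : ι) :
    0 ≤ dr (winW ν B) B t w u ∧ dr (winW ν B) B t w u ≤ 1 :=
  ⟨mf_nonneg (fun S _ => winW_nonneg ν B S) _ _,
    mf_le_one (fun S _ => winW_nonneg ν B S) (winW_sum ν B) _ _⟩

omit [IsProbabilityMeasure ν] in
lemma measurable_drY (B : Finset ι) (t : ℝ) (u : ι) :
    Measurable fun p : (ι → Bool) × (ι → ℝ) => dr (winW ν B) B t (Y t p) u :=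
  (measurable_dr' (winW ν B) B t u).comp (measurable_Y t)

lemma integrable_drY_mul (B B' : Finset ι) (t : ℝ) (u : ι) :
    Integrable (fun p => dr (winW ν B) B t (Y t p) u * dr (winW ν B') B' t (Y t p) u)
      (ν.prod (PL ι)) := by
  refine integrable_bdd _ _ ((measurable_drY ν B t u).mul (measurable_drY ν B' t u)) 1 fun p => ?_
  have h1 := dr_mem ν B t (Y t p) u
  have h2 := dr_mem ν B' t (Y t p) u
  rw [abs_mul, abs_of_nonneg h1.1, abs_of_nonneg h2.1]
  exact mul_le_one₀ h1.2 h2.1 h2.2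

lemma cross (t : ℝ) {u : ι} {B Λ : Finset ι} (hu : u ∈ B) (hBΛ : B ⊆ Λ) :
    ∫ p, dr (winW ν Λ) Λ t (Y t p) u * dr (winW ν B) B t (Y t p) u ∂(ν.prod (PL ι)) =
      secMom ν t u B := by
  have hb : ∀ w, |dr (winW ν B) B t w u| ≤ 1 := fun w => by
    have := dr_mem ν B t w u
    rw [abs_of_nonneg this.1]; exact this.2
  have h1 := integral_bayes ν Λ t u (hBΛ hu) (fun w => dr (winW ν B) B t w u)
    (measurable_dr' _ _ _ _) (fun w w' hw => dr_congr t (fun i hi => hw i (hBΛ hi)) u) 1 hb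
  have h2 := integral_bayes ν B t u hu (fun w => dr (winW ν B) B t w u)
    (measurable_dr' _ _ _ _) (fun w w' hw => dr_congr t hw u) 1 hb
  rw [← h1, h2, secMom]
  exact integral_congr_ae (Eventually.of_forall fun p => by simp only [sq])

lemma sq_diff (t : ℝ) {u : ι} {B Λ : Finset ι} (hu : u ∈ B) (hBΛ : B ⊆ Λ) :
    ∫ p, (dr (winW ν Λ) Λ t (Y t p) u - dr (winW ν B) B t (Y t p) u) ^ 2 ∂(ν.prod (PL ι)) =
      secMom ν t u Λ - secMom ν t u B := by
  have h1 := cross ν t hu hBΛ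
  have e : ∀ p : (ι → Bool) × (ι → ℝ),
      (dr (winW ν Λ) Λ t (Y t p) u - dr (winW ν B) B t (Y t p) u) ^ 2 =
      dr (winW ν Λ) Λ t (Y t p) u * dr (winW ν Λ) Λ t (Y t p) u -
        2 * (dr (winW ν Λ) Λ t (Y t p) u * dr (winW ν B) B t (Y t p) u) +
        dr (winW ν B) B t (Y t p) u * dr (winW ν B) B t (Y t p) u := fun p => by ring
  simp_rw [e]
  rw [integral_add, integral_sub, integral_const_mul, h1]
  · simp only [secMom, sq]; ring
  · exact integrable_drY_mul ν Λ Λ t u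
  · exact (integrable_drY_mul ν Λ B t u).const_mul 2
  · exact (integrable_drY_mul ν Λ Λ t u).sub ((integrable_drY_mul ν Λ B t u).const_mul 2)
  · exact integrable_drY_mul ν B B t u

lemma sm_mono (t : ℝ) {u : ι} {B Λ : Finset ι} (hu : u ∈ B) (hBΛ : B ⊆ Λ) :
    secMom ν t u B ≤ secMom ν t u Λ := by
  have h := sq_diff ν t hu hBΛ
  have h2 : 0 ≤ ∫ p, (dr (winW ν Λ) Λ t (Y t p) u - dr (winW ν B) B t (Y t p) u) ^ 2
      ∂(ν.prod (PL ι)) := integral_nonneg fun p => sq_nonneg _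
  linarith

lemma sm_le_one (t : ℝ) (u : ι) (B : Finset ι) : secMom ν t u B ≤ 1 := by
  have : secMom ν t u B ≤ ∫ _p : (ι → Bool) × (ι → ℝ), (1 : ℝ) ∂(ν.prod (PL ι)) := by
    unfold secMom
    refine integral_mono ?_ (integrable_const _) fun p => ?_
    · have := integrable_drY_mul ν B B t u
      simpa only [sq] using this
    · have := dr_mem ν B t (Y t p) u
      exact pow_le_one₀ this.1 this.2
  simpa using this

/-- Key lemma: uniform approximation of the drift by windows. -/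
lemma key_window (t : ℝ) (u : ι) {ε : ℝ} (hε : 0 < ε) :
    ∃ B₀ : Finset ι, u ∈ B₀ ∧ ∀ B : Finset ι, B₀ ⊆ B → ∀ Λ : Finset ι, B ⊆ Λ →
      ∫ p, |dr (winW ν Λ) Λ t (Y t p) u - dr (winW ν B) B t (Y t p) u| ∂(ν.prod (PL ι)) ≤ ε := by
  classical
  set R : Set ℝ := (fun B : Finset ι => secMom ν t u B) '' {B | u ∈ B} with hR
  have hne : R.Nonempty := ⟨_, {u}, by simp, rfl⟩
  have hbdd : BddAbove R := ⟨1, by rintro _ ⟨B, _, rfl⟩; exact sm_le_one ν t u B⟩
  have hlt : sSup R - ε ^ 2 < sSup R := by nlinarith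
  obtain ⟨x, ⟨B₀, hB₀, rfl⟩, hx⟩ := exists_lt_of_lt_csSup hne hlt
  refine ⟨B₀, hB₀, fun B hB Λ hΛ => ?_⟩
  have huB : u ∈ B := hB hB₀
  have h1 := sq_diff ν t huB hΛ
  have h2 : secMom ν t u Λ ≤ sSup R := le_csSup hbdd ⟨Λ, hΛ huB, rfl⟩
  have h3 := sm_mono ν t hB₀ hB
  have h4 : ∫ p, (dr (winW ν Λ) Λ t (Y t p) u - dr (winW ν B) B t (Y t p) u) ^ 2
      ∂(ν.prod (PL ι)) ≤ ε ^ 2 := by
    rw [h1]; simp only at hx; linarith
  have hsqi : Integrable (fun p => (dr (winW ν Λ) Λ t (Y t p) u -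
      dr (winW ν B) B t (Y t p) u) ^ 2) (ν.prod (PL ι)) := by
    refine integrable_bdd _ _ (((measurable_drY ν Λ t u).sub (measurable_drY ν B t u)).pow_const 2) 1
      fun p => ?_
    have a1 := dr_mem ν Λ t (Y t p) u
    have a2 := dr_mem ν B t (Y t p) u
    rw [abs_of_nonneg (sq_nonneg _), sq_le_one_iff_abs_le_one, abs_le]
    constructor <;> linarith [a1.1, a1.2, a2.1, a2.2]
  calc ∫ p, |dr (winW ν Λ) Λ t (Y t p) u - dr (winW ν B) B t (Y t p) u| ∂(ν.prod (PL ι))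
      ≤ ∫ p, ((dr (winW ν Λ) Λ t (Y t p) u - dr (winW ν B) B t (Y t p) u) ^ 2 * (1 / (2 * ε)) +
          ε / 2) ∂(ν.prod (PL ι)) := by
        refine integral_mono_of_nonneg (Eventually.of_forall fun p => abs_nonneg _)
          ((hsqi.mul_const _).add (integrable_const _)) (Eventually.of_forall fun p => ?_)
        simp only
        set x := dr (winW ν Λ) Λ t (Y t p) u - dr (winW ν B) B t (Y t p) u
        have : |x| * (2 * ε) ≤ x ^ 2 + ε ^ 2 := by
          nlinarith [sq_nonneg (|x| - ε), sq_abs x]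
        have e : x ^ 2 * (1 / (2 * ε)) + ε / 2 = (x ^ 2 + ε ^ 2) / (2 * ε) := by
          field_simp
        rw [e, le_div_iff₀ (by positivity)]
        exact this
    _ = (∫ p, (dr (winW ν Λ) Λ t (Y t p) u - dr (winW ν B) B t (Y t p) u) ^ 2
          ∂(ν.prod (PL ι))) * (1 / (2 * ε)) + ε / 2 := by
        rw [integral_add (hsqi.mul_const _) (integrable_const _), integral_mul_const]
        simp
    _ ≤ ε ^ 2 * (1 / (2 * ε)) + ε / 2 := by
        gcongr
    _ = ε := by field_simp; ring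

variable {ν}

/-- nested windows: comparison of two large windows on a grid. -/
lemma nested {C : ℝ} (hG : Good ν C) (i : ℕ) (n : ℕ) :
    ∀ (B₀ : Finset ι) (η : ℝ), 0 < η → ∃ Λ₀ : Finset ι, B₀ ⊆ Λ₀ ∧ ∀ Λ Λ' : Finset ι,
      Λ₀ ⊆ Λ → Λ₀ ⊆ Λ' → ∃ D : (ι → ℝ) → ℝ, Integrable D (PL ι) ∧
        (∀ g, 0 ≤ D g) ∧
        (∀ g, ∀ u ∈ B₀, |W (winW ν Λ) Λ i n g u - W (winW ν Λ') Λ' i n g u| ≤ D g) ∧
        ∫ g, D g ∂(PL ι) ≤ (1 + 2 * C * (1 / 2 : ℝ) ^ i) ^ n *
          (n * (6 * C * ((1 / 2 : ℝ) ^ i) ^ 2)) + η := by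
  classical
  set h : ℝ := (1 / 2 : ℝ) ^ i with hh
  have hC := (hG ∅).C_nonneg
  have hh0 : 0 ≤ h := by positivity
  have hh1 : h ≤ 1 := pow_le_one₀ (by norm_num) (by norm_num)
  induction n with
  | zero =>
    intro B₀ η hη
    refine ⟨B₀, subset_rfl, fun Λ Λ' _ _ => ⟨fun _ => 0, integrable_zero _ _ _, fun _ => le_rfl,
      fun g u _ => ?_, ?_⟩⟩
    · rw [(hG Λ).W_zero, (hG Λ').W_zero, sub_self, abs_zero]
    · simp [hη.le]
  | succ n ih =>
    intro B₀ η hη
    set t : ℝ := n * h with ht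
    set ε : ℝ := η / (4 * (B₀.card + 1)) with hε
    have hεpos : 0 < ε := by positivity
    choose Bu hBu1 hBu2 using fun u : ι => key_window ν t u hεpos
    set B₁ : Finset ι := B₀ ∪ B₀.biUnion Bu with hB₁
    have hB₁u : ∀ u ∈ B₀, Bu u ⊆ B₁ := fun u hu =>
      (Finset.subset_biUnion_of_mem Bu hu).trans Finset.subset_union_right
    set r : ℝ := 1 + 2 * C * h with hr
    have hr1 : 1 ≤ r := by
      have : 0 ≤ 2 * C * h := by positivity
      linarith
    have hr0 : 0 < r := by linarith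
    obtain ⟨Λ₀, hΛ₀, hIH⟩ := ih B₁ (η / (2 * r)) (by positivity)
    refine ⟨Λ₀, (Finset.subset_union_left.trans hΛ₀), fun Λ Λ' hΛ hΛ' => ?_⟩
    obtain ⟨D, hDi, hD0, hDb, hDint⟩ := hIH Λ Λ' hΛ hΛ'
    -- error functions
    set err : Finset ι → ι → (ι → ℝ) → ℝ := fun Λ u w =>
      |dr (winW ν Λ) Λ t w u - dr (winW ν B₁) B₁ t w u| with herr
    have herrm : ∀ Λ u, Measurable (err Λ u) := fun Λ u =>
      ((measurable_dr' _ _ _ _).sub (measurable_dr' _ _ _ _)).norm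
    have herrb : ∀ Λ u w, |err Λ u w| ≤ 1 := by
      intro Λ u w
      simp only [herr, abs_abs]
      have a1 := dr_mem ν Λ t w u
      have a2 := dr_mem ν B₁ t w u
      rw [abs_le]
      constructor <;> linarith [a1.1, a1.2, a2.1, a2.2]
    have hWm : ∀ Λ : Finset ι, Measurable (fun g : ι → ℝ => (W (winW ν Λ) Λ i n g : ι → ℝ)) :=
      fun Λ => measurable_pi_lambda _ fun v => measurable_W' _ Λ i n v
    have herri : ∀ Λ u, Integrable (fun g => err Λ u (W (winW ν Λ) Λ i n g)) (PL ι) := fun Λ u =>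
      integrable_bdd _ _ ((herrm Λ u).comp (hWm Λ)) 1 fun g => herrb _ _ _
    have herrint : ∀ Λ : Finset ι, Λ₀ ⊆ Λ → ∀ u ∈ B₀,
        ∫ g, err Λ u (W (winW ν Λ) Λ i n g) ∂(PL ι) ≤ ε := by
      intro Λ hΛ u hu
      rw [integral_W_eq ν Λ (hG Λ) i n (herrm Λ u) (by
        intro w w' hw
        simp only [herr]
        rw [dr_congr t hw u, dr_congr t (fun i hi => hw i (hΛ (hΛ₀ hi))) u])]
      exact hBu2 u B₁ (hB₁u u hu) Λ (hΛ₀.trans hΛ)
    refine ⟨fun g => r * D g + h * (∑ u ∈ B₀, (err Λ u (W (winW ν Λ) Λ i n g) +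
      err Λ' u (W (winW ν Λ') Λ' i n g))) + 6 * C * h ^ 2, ?_, ?_, ?_, ?_⟩
    · refine ((hDi.const_mul r).add (Integrable.const_mul ?_ h)).add (integrable_const _)
      exact integrable_finsetSum _ fun u _ => (herri Λ u).add (herri Λ' u)
    · intro g
      have : 0 ≤ ∑ u ∈ B₀, (err Λ u (W (winW ν Λ) Λ i n g) + err Λ' u (W (winW ν Λ') Λ' i n g)) :=
        Finset.sum_nonneg fun u _ => add_nonneg (abs_nonneg _) (abs_nonneg _)
      have := hD0 g
      positivity
    · intro g u hu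
      have s1 := (hG Λ).W_step i n g u
      have s2 := (hG Λ').W_step i n g u
      rw [← hh, ← ht] at s1 s2
      have s3 := hDb g u (Finset.mem_union_left _ hu)
      have s4 := (hG B₁).dr_lip (t := t) (t' := t) (hD0 g) (fun v hv => hDb g v hv) u
      rw [sub_self, abs_zero, zero_add] at s4
      set w := W (winW ν Λ) Λ i n g
      set w' := W (winW ν Λ') Λ' i n g
      set a := dr (winW ν Λ) Λ t w u
      set a' := dr (winW ν Λ') Λ' t w' u
      set b := dr (winW ν B₁) B₁ t w u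
      set b' := dr (winW ν B₁) B₁ t w' u
      set x := W (winW ν Λ) Λ i (n + 1) g u
      set x' := W (winW ν Λ') Λ' i (n + 1) g u
      have e : x - x' = (x - w u - h * a) - (x' - w' u - h * a') + (w u - w' u) +
          h * (a - b) - h * (a' - b') + h * (b - b') := by ring
      have hab : |a - b| + |a' - b'| ≤ ∑ u ∈ B₀, (err Λ u w + err Λ' u w') := by
        have := Finset.single_le_sum (f := fun u => err Λ u w + err Λ' u w')
          (fun v _ => add_nonneg (abs_nonneg _) (abs_nonneg _)) hu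
        exact this
      rw [e]
      have t1 := abs_add_le ((x - w u - h * a) - (x' - w' u - h * a') + (w u - w' u) +
          h * (a - b) - h * (a' - b')) (h * (b - b'))
      have t2 := abs_sub ((x - w u - h * a) - (x' - w' u - h * a') + (w u - w' u) +
          h * (a - b)) (h * (a' - b'))
      have t3 := abs_add_le ((x - w u - h * a) - (x' - w' u - h * a') + (w u - w' u)) (h * (a - b))
      have t4 := abs_add_le ((x - w u - h * a) - (x' - w' u - h * a')) (w u - w' u)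
      have t5 := abs_sub (x - w u - h * a) (x' - w' u - h * a')
      rw [abs_mul, abs_of_nonneg hh0] at t1 t2 t3
      have m1 := mul_le_mul_of_nonneg_left hab hh0
      have m2 := mul_le_mul_of_nonneg_left s4 hh0
      simp only [hr]
      nlinarith
    · have hint : ∫ g, (r * D g + h * (∑ u ∈ B₀, (err Λ u (W (winW ν Λ) Λ i n g) +
          err Λ' u (W (winW ν Λ') Λ' i n g))) + 6 * C * h ^ 2) ∂(PL ι) =
          r * ∫ g, D g ∂(PL ι) + h * (∑ u ∈ B₀, (∫ g, err Λ u (W (winW ν Λ) Λ i n g) ∂(PL ι) +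
          ∫ g, err Λ' u (W (winW ν Λ') Λ' i n g) ∂(PL ι))) + 6 * C * h ^ 2 := by
        have i1 : Integrable (fun g => r * D g) (PL ι) := hDi.const_mul r
        have i2 : Integrable (fun g => h * (∑ u ∈ B₀, (err Λ u (W (winW ν Λ) Λ i n g) +
          err Λ' u (W (winW ν Λ') Λ' i n g)))) (PL ι) :=
          Integrable.const_mul (integrable_finsetSum _ fun u _ => (herri Λ u).add (herri Λ' u)) h
        have i12 : Integrable (fun g => r * D g + h * (∑ u ∈ B₀,
          (err Λ u (W (winW ν Λ) Λ i n g) + err Λ' u (W (winW ν Λ') Λ' i n g)))) (PL ι) := i1.add i2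
        have hsumi : ∫ g, (∑ u ∈ B₀, (err Λ u (W (winW ν Λ) Λ i n g) +
            err Λ' u (W (winW ν Λ') Λ' i n g))) ∂(PL ι) =
            ∑ u ∈ B₀, (∫ g, err Λ u (W (winW ν Λ) Λ i n g) ∂(PL ι) +
            ∫ g, err Λ' u (W (winW ν Λ') Λ' i n g) ∂(PL ι)) := by
          have hadd : ∀ u ∈ B₀, Integrable (fun g => err Λ u (W (winW ν Λ) Λ i n g) +
              err Λ' u (W (winW ν Λ') Λ' i n g)) (PL ι) := fun u _ => (herri Λ u).add (herri Λ' u)
          rw [integral_finsetSum _ hadd]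
          refine Finset.sum_congr rfl fun u _ => ?_
          exact integral_add (herri Λ u) (herri Λ' u)
        rw [integral_add i12 (integrable_const _), integral_add i1 i2, integral_const_mul,
          integral_const_mul, hsumi]
        simp only [integral_const, probReal_univ, one_smul]
      rw [hint]
      have hsum : ∑ u ∈ B₀, (∫ g, err Λ u (W (winW ν Λ) Λ i n g) ∂(PL ι) +
          ∫ g, err Λ' u (W (winW ν Λ') Λ' i n g) ∂(PL ι)) ≤ η / 2 := by
        calc _ ≤ ∑ _u ∈ B₀, (ε + ε) := Finset.sum_le_sum fun u hu =>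
              add_le_add (herrint Λ hΛ u hu) (herrint Λ' hΛ' u hu)
          _ = B₀.card * (2 * ε) := by simp; ring
          _ ≤ (B₀.card + 1) * (2 * ε) := by gcongr; linarith
          _ = η / 2 := by rw [hε]; field_simp; ring
      have hsum0 : 0 ≤ ∑ u ∈ B₀, (∫ g, err Λ u (W (winW ν Λ) Λ i n g) ∂(PL ι) +
          ∫ g, err Λ' u (W (winW ν Λ') Λ' i n g) ∂(PL ι)) :=
        Finset.sum_nonneg fun u _ => add_nonneg (integral_nonneg fun _ => abs_nonneg _)
          (integral_nonneg fun _ => abs_nonneg _)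
      have m1 : h * (∑ u ∈ B₀, (∫ g, err Λ u (W (winW ν Λ) Λ i n g) ∂(PL ι) +
          ∫ g, err Λ' u (W (winW ν Λ') Λ' i n g) ∂(PL ι))) ≤ 1 * (η / 2) :=
        mul_le_mul hh1 hsum hsum0 zero_le_one
      have m2 := mul_le_mul_of_nonneg_left hDint hr0.le
      have e1 : r * (r ^ n * (n * (6 * C * h ^ 2)) + η / (2 * r)) =
          r ^ (n + 1) * (n * (6 * C * h ^ 2)) + η / 2 := by field_simp; ring
      rw [e1] at m2
      have hrn : (1 : ℝ) ≤ r ^ (n + 1) := one_le_pow₀ hr1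
      have h6 : 0 ≤ 6 * C * h ^ 2 := by positivity
      have m3 : 6 * C * h ^ 2 ≤ r ^ (n + 1) * (6 * C * h ^ 2) := by nlinarith
      push_cast
      nlinarith

/-- Cauchy property at integer times. -/
theorem W_cauchy {C : ℝ} (hG : Good ν C) (T : ℕ) (B₀ : Finset ι) {δ : ℝ} (hδ : 0 < δ) :
    ∃ Λ₀ : Finset ι, B₀ ⊆ Λ₀ ∧ ∀ Λ Λ' : Finset ι, Λ₀ ⊆ Λ → Λ₀ ⊆ Λ' → ∀ u ∈ B₀,
      ∫ g, |W (winW ν Λ) Λ 0 T g u - W (winW ν Λ') Λ' 0 T g u| ∂(PL ι) ≤ δ := by
  have hC := (hG ∅).C_nonneg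
  set K : ℝ := Real.exp (2 * C * T) * (T * (6 * C)) with hK
  have hK0 : 0 ≤ K := by positivity
  obtain ⟨i, hi⟩ : ∃ i : ℕ, K * (1 / 2 : ℝ) ^ i ≤ δ / 2 := by
    have h1 := (tendsto_pow_atTop_nhds_zero_of_lt_one (r := (1 / 2 : ℝ)) (by norm_num)
      (by norm_num)).const_mul K
    rw [mul_zero] at h1
    obtain ⟨i, hi⟩ := (h1.eventually (gt_mem_nhds (half_pos hδ))).exists
    exact ⟨i, hi.le⟩
  obtain ⟨Λ₀, hΛ₀, hmain⟩ := nested hG i (T * 2 ^ i) B₀ (δ / 2) (half_pos hδ)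
  refine ⟨Λ₀, hΛ₀, fun Λ Λ' hΛ hΛ' u hu => ?_⟩
  obtain ⟨D, hDi, hD0, hDb, hDint⟩ := hmain Λ Λ' hΛ hΛ'
  have e1 : ∀ g, |W (winW ν Λ) Λ 0 T g u - W (winW ν Λ') Λ' 0 T g u| ≤ D g := by
    intro g
    have := hDb g u hu
    rwa [(hG Λ).W_refine', (hG Λ').W_refine'] at this
  calc ∫ g, |W (winW ν Λ) Λ 0 T g u - W (winW ν Λ') Λ' 0 T g u| ∂(PL ι) ≤ ∫ g, D g ∂(PL ι) :=
        integral_mono_of_nonneg (Eventually.of_forall fun g => abs_nonneg _) hDi
          (Eventually.of_forall e1)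
    _ ≤ _ := hDint
    _ ≤ δ / 2 + δ / 2 := by
        gcongr
        refine le_trans ?_ hi
        set h : ℝ := (1 / 2 : ℝ) ^ i with hh
        have hh0 : 0 ≤ h := by positivity
        have hTh : ((T * 2 ^ i : ℕ) : ℝ) * h = T := by
          rw [hh]; push_cast
          rw [mul_assoc, ← mul_pow]; norm_num
        have h4 : (1 + 2 * C * h) ^ (T * 2 ^ i) ≤ Real.exp (2 * C * T) := by
          have : 1 + 2 * C * h ≤ Real.exp (2 * C * h) := by
            have := Real.add_one_le_exp (2 * C * h); linarith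
          calc (1 + 2 * C * h) ^ (T * 2 ^ i) ≤ (Real.exp (2 * C * h)) ^ (T * 2 ^ i) := by
                gcongr
            _ = Real.exp (2 * C * (((T * 2 ^ i : ℕ) : ℝ) * h)) := by
                rw [← Real.exp_nat_mul]; ring_nf
            _ = _ := by rw [hTh]
        calc (1 + 2 * C * h) ^ (T * 2 ^ i) * (((T * 2 ^ i : ℕ) : ℝ) * (6 * C * h ^ 2))
            = (1 + 2 * C * h) ^ (T * 2 ^ i) * (((T * 2 ^ i : ℕ) : ℝ) * h * (6 * C) * h) := by ring
          _ ≤ Real.exp (2 * C * T) * (((T * 2 ^ i : ℕ) : ℝ) * h * (6 * C) * h) := by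
              gcongr
          _ = K * h := by rw [hTh, hK]; ring
    _ = δ := by ring

end Crest.Agent.Lib.Row168
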