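import Crest.Prelude.Def_SpanningTrees
import Crest.Prelude.Def_StronglyRayleigh
import Crest.Prelude.Def_Labels
import Crest.Prelude.Def_GraphTables
import Mathlib

/-!
Shared definitions for row 168 (S0254, S0255).
-/

set_option autoImplicit false
open MeasureTheory Filter Topology
open Crest.ProbabilityR.SpanningTrees Crest.ProbabilityR.StronglyRayleigh

namespace Crest.Agent.Lib.Row168

open Classical in
/-- weighted sum over the spanning trees `A` of the piece `S` satisfying `P`. -/
noncomputable def treeSum {V : Type*} (G : SimpleGraph V) (S : Finset V) (z : Sym2 V → ℝ)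
    (P : Finset (Sym2 V) → Prop) : ℝ :=
  ∑ A ∈ (edgesIn G S).powerset with (IsSpanningTreeOn G S A ∧ P A), ∏ e ∈ A, z e

/-- partition function of the window `Λ` with weights `q` on subsets of `Λ` and field `y`. -/
noncomputable def zf {ι : Type*} (q : Finset ι → ℝ) (Λ : Finset ι) (y : ι → ℝ) : ℝ :=
  ∑ S ∈ Λ.powerset, q S * Real.exp (∑ i ∈ S, y i)

open Classical in
/-- tilted mean of the window `Λ` with weights `q` on subsets of `Λ` and external field `y`. -/
noncomputable def mf {ι : Type*} (q : Finset ι → ℝ) (Λ : Finset ι) (y : ι → ℝ) (v : ι) : ℝ :=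
  (∑ S ∈ Λ.powerset with v ∈ S, q S * Real.exp (∑ i ∈ S, y i)) / zf q Λ y

/-- window weights of a law. -/
noncomputable def winW {ι : Type*} (ν : Measure (ι → Bool)) (Λ S : Finset ι) : ℝ :=
  (ν {ω | ∀ i ∈ Λ, (ω i = true ↔ i ∈ S)}).toReal

end Crest.Agent.Lib.Row168
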