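import Crest.Agent.Lib.Row168.Defs

/-!
Row 168, chunk B: equivariant i.i.d. edge noise from i.i.d. vertex labels.
-/

set_option autoImplicit false
open MeasureTheory Filter Topology
open Crest.ProbabilityR Crest.ProbabilityR.SpanningTrees Crest.ProbabilityR.StronglyRayleigh

namespace Crest.Agent.Lib.Row168

namespace EdgeNoise

/-- the rank of `b` among the neighbours of `a`, in the order of the labels `T`. -/
noncomputable def rk (G : SimpleGraph ℕ) (T : ℕ → unitInterval) (a b : ℕ) : ℕ :=
  Set.ncard {c | G.Adj a c ∧ T c < T b}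

open Classical in
/-- noise of the edge `a b` if `a` is its smaller end, and `0` otherwise. -/
noncomputable def hnz (G : SimpleGraph ℕ) (T : ℕ → unitInterval) (W : ℕ × ℕ → ℝ) (a b : ℕ) : ℝ :=
  if G.Adj a b ∧ T a < T b then W (a, rk G T a b) else 0

/-- the noise of an edge. -/
noncomputable def enz (G : SimpleGraph ℕ) (T : ℕ → unitInterval) (W : ℕ × ℕ → ℝ) : Sym2 ℕ → ℝ :=
  Sym2.lift ⟨fun a b => hnz G T W a b + hnz G T W b a, fun _ _ => add_comm _ _⟩

@[simp] lemma enz_mk (G : SimpleGraph ℕ) (T : ℕ → unitInterval) (W : ℕ × ℕ → ℝ) (a b : ℕ) :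
    enz G T W s(a, b) = hnz G T W a b + hnz G T W b a := rfl

lemma rk_comap (σ : Equiv.Perm ℕ) (G : SimpleGraph ℕ) (T : ℕ → unitInterval) (a b : ℕ) :
    rk (G.comap ⇑σ) (T ∘ ⇑σ) a b = rk G T (σ a) (σ b) := by
  unfold rk
  have h : {c | (G.comap ⇑σ).Adj a c ∧ (T ∘ ⇑σ) c < (T ∘ ⇑σ) b} =
      ⇑σ ⁻¹' {c | G.Adj (σ a) c ∧ T c < T (σ b)} := by
    ext c; simp [SimpleGraph.comap_adj]
  rw [h]
  exact Set.ncard_preimage_of_injective_subset_range σ.injective (by simp)

lemma hnz_comap (σ : Equiv.Perm ℕ) (G : SimpleGraph ℕ) (T : ℕ → unitInterval) (W : ℕ × ℕ → ℝ)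
    (a b : ℕ) :
    hnz (G.comap ⇑σ) (T ∘ ⇑σ) (fun p => W (σ p.1, p.2)) a b = hnz G T W (σ a) (σ b) := by
  classical
  unfold hnz
  rw [rk_comap]
  by_cases h : G.Adj (σ a) (σ b) ∧ T (σ a) < T (σ b)
  · rw [if_pos h, if_pos (show (G.comap ⇑σ).Adj a b ∧ (T ∘ ⇑σ) a < (T ∘ ⇑σ) b from h)]
  · rw [if_neg h, if_neg (show ¬ ((G.comap ⇑σ).Adj a b ∧ (T ∘ ⇑σ) a < (T ∘ ⇑σ) b) from h)]

lemma enz_comap (σ : Equiv.Perm ℕ) (G : SimpleGraph ℕ) (T : ℕ → unitInterval) (W : ℕ × ℕ → ℝ) :
    enz (G.comap ⇑σ) (T ∘ ⇑σ) (fun p => W (σ p.1, p.2)) = enz G T W ∘ Sym2.map ⇑σ := by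
  funext e
  induction e using Sym2.ind with
  | _ a b => simp [hnz_comap]

lemma enz_support (G : SimpleGraph ℕ) (T : ℕ → unitInterval) (W : ℕ × ℕ → ℝ) (e : Sym2 ℕ)
    (he : e ∉ G.edgeSet) : enz G T W e = 0 := by
  induction e using Sym2.ind with
  | _ a b =>
    have h1 : ¬ G.Adj a b := by simpa using he
    have h2 : ¬ G.Adj b a := fun h => h1 h.symm
    simp [hnz, h1, h2]

lemma rk_lt {G : SimpleGraph ℕ} (hG : ∀ v : ℕ, (G.neighborSet v).Finite) {T : ℕ → unitInterval}
    {a b b' : ℕ} (hab : G.Adj a b) (h : T b < T b') : rk G T a b < rk G T a b' := by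
  unfold rk
  apply Set.ncard_lt_ncard
  · refine ⟨fun c hc => ⟨hc.1, hc.2.trans h⟩, fun hsub => ?_⟩
    have : b ∈ {c | G.Adj a c ∧ T c < T b} := hsub ⟨hab, h⟩
    exact lt_irrefl _ this.2
  · exact (hG a).subset fun c hc => hc.1

/-- for an injective order, the index of the noise variable used by each edge. -/
lemma exists_index {G : SimpleGraph ℕ} (hG : ∀ v : ℕ, (G.neighborSet v).Finite)
    {T : ℕ → unitInterval} (hT : Function.Injective T) :
    ∃ f : G.edgeSet → ℕ × ℕ, Function.Injective f ∧
      ∀ (W : ℕ × ℕ → ℝ) (e : G.edgeSet), enz G T W e = W (f e) := by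
  have key : ∀ e : G.edgeSet, ∃ a b : ℕ, G.Adj a b ∧ T a < T b ∧ (e : Sym2 ℕ) = s(a, b) := by
    rintro ⟨e, he⟩
    induction e using Sym2.ind with
    | _ a b =>
      have hab : G.Adj a b := by simpa using he
      rcases lt_trichotomy (T a) (T b) with h | h | h
      · exact ⟨a, b, hab, h, rfl⟩
      · exact absurd (hT h) hab.ne
      · exact ⟨b, a, hab.symm, h, Sym2.eq_swap⟩
  choose a b hab hlt he using key
  refine ⟨fun e => (a e, rk G T (a e) (b e)), ?_, ?_⟩
  · intro e e' h
    simp only [Prod.mk.injEq] at h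
    obtain ⟨h1, h2⟩ := h
    have hab' := hab e'
    rw [← h1] at hab' h2
    have hb : b e = b e' := by
      apply hT
      rcases lt_trichotomy (T (b e)) (T (b e')) with h | h | h
      · exact absurd h2 (rk_lt hG (hab e) h).ne
      · exact h
      · exact absurd h2 (rk_lt hG hab' h).ne'
    apply Subtype.ext
    rw [he e, he e', h1, hb]
  · intro W e
    rw [he e, enz_mk]
    have h1 : hnz G T W (a e) (b e) = W (a e, rk G T (a e) (b e)) := by
      unfold hnz
      rw [if_pos ⟨hab e, hlt e⟩]
    have h2 : hnz G T W (b e) (a e) = 0 := by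
      unfold hnz
      rw [if_neg]
      rintro ⟨_, h⟩
      exact lt_asymm h (hlt e)
    rw [h1, h2, add_zero]

/-- the product measure on a disjoint union of index sets. -/
lemma infinitePi_sum {α β Ω : Type*} [MeasurableSpace Ω] (μ : Measure Ω) [IsProbabilityMeasure μ] :
    ((Measure.infinitePi fun _ : α => μ).prod (Measure.infinitePi fun _ : β => μ)).map
      (fun p => (Sum.elim p.1 p.2 : α ⊕ β → Ω)) = Measure.infinitePi fun _ : α ⊕ β => μ := by
  classical
  have hm : Measurable (fun p : (α → Ω) × (β → Ω) => (Sum.elim p.1 p.2 : α ⊕ β → Ω)) := by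
    rw [measurable_pi_iff]
    rintro (i | i)
    · simp only [Sum.elim_inl]; fun_prop
    · simp only [Sum.elim_inr]; fun_prop
  apply Measure.eq_infinitePi
  intro s t ht
  rw [Measure.map_apply hm (MeasurableSet.pi s.countable_toSet fun i _ => ht i)]
  have h : (fun p : (α → Ω) × (β → Ω) => (Sum.elim p.1 p.2 : α ⊕ β → Ω)) ⁻¹' (Set.pi ↑s t) =
      (Set.pi (↑s.toLeft) (fun i => t (Sum.inl i))) ×ˢ
        (Set.pi (↑s.toRight) (fun i => t (Sum.inr i))) := by
    ext p
    simp only [Set.mem_preimage, Set.mem_pi, Set.mem_prod, Finset.mem_coe, Finset.mem_toLeft,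
      Finset.mem_toRight]
    constructor
    · intro h
      exact ⟨fun i hi => h _ hi, fun i hi => h _ hi⟩
    · rintro ⟨h1, h2⟩ (i | i) hi
      · exact h1 i hi
      · exact h2 i hi
  rw [h, Measure.prod_prod, Measure.infinitePi_pi _ (fun i _ => ht _),
    Measure.infinitePi_pi _ (fun i _ => ht _)]
  conv_rhs => rw [← Finset.toLeft_disjSum_toRight (u := s)]
  rw [Finset.prod_disjSum]

/-- splitting the labels into an order and a doubly indexed family of noises. -/
lemma exists_split (μ : Measure ℝ) [IsProbabilityMeasure μ] :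
    ∃ (t : unitInterval → unitInterval) (w : unitInterval → ℕ → ℝ), Measurable t ∧ Measurable w ∧
      (Labels.labelMeasure ℕ).map (fun x : ℕ → unitInterval =>
          ((fun v => t (x v) : ℕ → unitInterval), (fun p => w (x p.1) p.2 : ℕ × ℕ → ℝ))) =
        (Measure.infinitePi fun _ : ℕ => (volume : Measure unitInterval)).prod
          (Measure.infinitePi fun _ : ℕ × ℕ => μ) := by
  -- the two standard representations
  obtain ⟨θ', hθ'm, hθ'⟩ := ProbabilityTheory.Kernel.exists_measurable_map_eq_unitInterval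
    (ProbabilityTheory.Kernel.const Unit
      (Measure.infinitePi fun _ : ℕ => (volume : Measure unitInterval)))
  obtain ⟨q', hq'm, hq'⟩ := ProbabilityTheory.Kernel.exists_measurable_map_eq_unitInterval
    (ProbabilityTheory.Kernel.const Unit μ)
  obtain ⟨θ, hθm, hθ⟩ : ∃ θ : unitInterval → (ℕ → unitInterval), Measurable θ ∧
      (volume : Measure unitInterval).map θ =
        Measure.infinitePi fun _ : ℕ => (volume : Measure unitInterval) := by
    refine ⟨θ' (), ?_, ?_⟩
    · exact hθ'm.comp (measurable_const.prodMk measurable_id)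
    · rw [hθ' ()]; rfl
  obtain ⟨q, hqm, hq⟩ : ∃ q : unitInterval → ℝ, Measurable q ∧
      (volume : Measure unitInterval).map q = μ := by
    refine ⟨q' (), ?_, ?_⟩
    · exact hq'm.comp (measurable_const.prodMk measurable_id)
    · rw [hq' ()]; rfl
  clear hθ' hθ'm θ' hq' hq'm q'
  refine ⟨fun u => θ u 0, fun u n => q (θ u (n + 1)), by fun_prop, by fun_prop, ?_⟩
  -- the law of all sub-labels
  set P : Measure unitInterval := volume with hP
  have h1 : (Labels.labelMeasure ℕ).map (fun (x : ℕ → unitInterval) (v : ℕ) => θ (x v)) =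
      Measure.infinitePi fun _ : ℕ => Measure.infinitePi fun _ : ℕ => P := by
    unfold Labels.labelMeasure
    rw [Measure.infinitePi_map_pi (f := fun _ : ℕ => θ) _ (fun _ => hθm)]
    simp only [← hP, hθ]
  have h2 : (Labels.labelMeasure ℕ).map
      (fun (x : ℕ → unitInterval) (p : ℕ × ℕ) => θ (x p.1) p.2) =
      Measure.infinitePi fun _ : ℕ × ℕ => P := by
    have h3 := Measure.infinitePi_map_curry_symm (fun (_ : ℕ) (_ : ℕ) => P)
    rw [← h3, ← h1, Measure.map_map (by fun_prop) (by fun_prop)]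
    rfl
  -- reindex
  let f : ℕ ⊕ (ℕ × ℕ) → ℕ × ℕ := Sum.elim (fun v => (v, 0)) (fun p => (p.1, p.2 + 1))
  have hf : Function.Injective f := by
    rintro (v | p) (v' | p') h
    · simp only [f, Sum.elim_inl, Prod.mk.injEq] at h
      rw [h.1]
    · simp [f] at h
    · simp [f] at h
    · simp only [f, Sum.elim_inr, Prod.mk.injEq, Nat.add_right_cancel_iff] at h
      rw [Prod.ext h.1 h.2]
  have h3 : (Labels.labelMeasure ℕ).map
      (fun (x : ℕ → unitInterval) (i : ℕ ⊕ (ℕ × ℕ)) => θ (x (f i).1) (f i).2) =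
      Measure.infinitePi fun _ : ℕ ⊕ (ℕ × ℕ) => P := by
    have h4 := Measure.map_infinitePi_infinitePi_of_inj (P := fun _ : ℕ × ℕ => P) hf
    rw [← h4, ← h2, Measure.map_map (by fun_prop) (by fun_prop)]
    rfl
  -- split
  have h5 : (Labels.labelMeasure ℕ).map (fun x : ℕ → unitInterval =>
          ((fun v => θ (x v) 0 : ℕ → unitInterval),
            (fun p => θ (x p.1) (p.2 + 1) : ℕ × ℕ → unitInterval))) =
        (Measure.infinitePi fun _ : ℕ => P).prod (Measure.infinitePi fun _ : ℕ × ℕ => P) := by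
    have hS : Measurable (fun z : ℕ ⊕ (ℕ × ℕ) → unitInterval =>
        ((fun v => z (Sum.inl v) : ℕ → unitInterval),
          (fun p => z (Sum.inr p) : ℕ × ℕ → unitInterval))) := by fun_prop
    have hE : Measurable (fun p : (ℕ → unitInterval) × (ℕ × ℕ → unitInterval) =>
        (Sum.elim p.1 p.2 : ℕ ⊕ (ℕ × ℕ) → unitInterval)) := by
      rw [measurable_pi_iff]
      rintro (i | i)
      · simp only [Sum.elim_inl]; fun_prop
      · simp only [Sum.elim_inr]; fun_prop
    have h6 := congrArg (Measure.map (fun z : ℕ ⊕ (ℕ × ℕ) → unitInterval =>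
        ((fun v => z (Sum.inl v) : ℕ → unitInterval),
          (fun p => z (Sum.inr p) : ℕ × ℕ → unitInterval)))) h3
    rw [Measure.map_map hS (by fun_prop), ← infinitePi_sum P, Measure.map_map hS hE] at h6
    refine Eq.trans ?_ (h6.trans ?_)
    · rfl
    · exact Measure.map_id
  have h7 := congrArg (Measure.map (Prod.map (id : (ℕ → unitInterval) → (ℕ → unitInterval))
    (fun (y : ℕ × ℕ → unitInterval) (p : ℕ × ℕ) => q (y p)))) h5
  rw [Measure.map_map (by fun_prop) (by fun_prop), ← Measure.map_prod_map _ _ (by fun_prop)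
    (by fun_prop), Measure.map_id, Measure.infinitePi_map_pi (f := fun _ : ℕ × ℕ => q) _
      (fun _ => hqm), hq] at h7
  exact h7

/-- joint measurability of the edge noise. -/
lemma measurable_enz {Z : Type*} [MeasurableSpace Z] {G : Z → SimpleGraph ℕ}
    (hG : ∀ a b, MeasurableSet {z | (G z).Adj a b}) {T : Z → ℕ → unitInterval}
    (hT : Measurable T) {W : Z → ℕ × ℕ → ℝ} (hW : Measurable W) :
    Measurable (fun z => enz (G z) (T z) (W z)) := by
  classical
  have hTlt : ∀ a b, MeasurableSet {z | T z a < T z b} := fun a b =>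
    measurableSet_lt (by fun_prop) (by fun_prop)
  have hrk : ∀ a b, Measurable (fun z => rk (G z) (T z) a b) := by
    intro a b
    refine measurable_ncard.comp ?_
    rw [measurable_set_iff]
    intro c
    exact measurableSet_setOfPred.1 ((hG a c).inter (hTlt c b))
  have hev : Measurable (fun p : (ℕ × ℕ → ℝ) × (ℕ × ℕ) => p.1 p.2) :=
    measurable_from_prod_countable_left fun i => by fun_prop
  have hh : ∀ a b, Measurable (fun z => hnz (G z) (T z) (W z) a b) := by
    intro a b
    unfold hnz
    refine Measurable.ite ((hG a b).inter (hTlt a b)) ?_ measurable_const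
    exact hev.comp (hW.prodMk (measurable_const.prodMk (hrk a b)))
  rw [measurable_pi_iff]
  intro e
  induction e using Sym2.ind with
  | _ a b =>
    simp only [enz_mk]
    exact (hh a b).add (hh b a)

lemma measurableSet_graphOfTable (a b : ℕ) :
    MeasurableSet {A : ℕ → ℕ → Bool | (GraphTables.graphOfTable A).Adj a b} := by
  have : {A : ℕ → ℕ → Bool | (GraphTables.graphOfTable A).Adj a b} =
      {A | a ≠ b} ∩ ({A | A a b = true} ∪ {A | A b a = true}) := by
    ext A
    simp [GraphTables.graphOfTable, SimpleGraph.fromRel_adj]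
  rw [this]
  refine (MeasurableSet.const _).inter (MeasurableSet.union ?_ ?_)
  · exact (measurableSet_singleton true).preimage (by fun_prop : Measurable fun A : ℕ → ℕ → Bool => A a b)
  · exact (measurableSet_singleton true).preimage (by fun_prop : Measurable fun A : ℕ → ℕ → Bool => A b a)

/-- i.i.d. uniform labels are a.s. distinct. -/
lemma ae_injective :
    ∀ᵐ T ∂(Measure.infinitePi fun _ : ℕ => (volume : Measure unitInterval)),
      Function.Injective T := by
  have h : ∀ a b : ℕ, a ≠ b →
      ∀ᵐ T ∂(Measure.infinitePi fun _ : ℕ => (volume : Measure unitInterval)), T a ≠ T b := by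
    intro a b hab
    have h1 := Measure.infinitePi_map_eval_prod
      (P := fun _ : ℕ => (volume : Measure unitInterval)) hab
    have hD : MeasurableSet {p : unitInterval × unitInterval | p.1 = p.2} :=
      measurableSet_eq_fun measurable_fst measurable_snd
    rw [ae_iff]
    have h2 : {T : ℕ → unitInterval | ¬ T a ≠ T b} =
        (fun T : ℕ → unitInterval => (T a, T b)) ⁻¹' {p | p.1 = p.2} := by
      ext T; simp
    rw [h2, ← Measure.map_apply (by fun_prop) hD, h1, Measure.prod_apply hD]
    have h3 : ∀ x : unitInterval, Prod.mk x ⁻¹' {p : unitInterval × unitInterval | p.1 = p.2} =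
        {x} := by
      intro x; ext y; simp [eq_comm]
    simp [h3]
  have h4 : ∀ᵐ T ∂(Measure.infinitePi fun _ : ℕ => (volume : Measure unitInterval)),
      ∀ a b : ℕ, a ≠ b → T a ≠ T b := by
    rw [ae_all_iff]; intro a
    rw [ae_all_iff]; intro b
    by_cases hab : a = b
    · simp [hab]
    · filter_upwards [h a b hab] with T hT _ using hT
  filter_upwards [h4] with T hT a b hab
  by_contra hne
  exact hT a b hne hab

end EdgeNoise

open EdgeNoise in
/-- CHUNK B: equivariant i.i.d. edge noise from vertex labels. -/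
theorem exists_edge_noise (μ : Measure ℝ) [IsProbabilityMeasure μ] :
    ∃ nz : SimpleGraph ℕ → (ℕ → unitInterval) → (Sym2 ℕ → ℝ),
      Measurable (fun p : (ℕ → ℕ → Bool) × (ℕ → unitInterval) =>
          nz (GraphTables.graphOfTable p.1) p.2) ∧
      (∀ (σ : Equiv.Perm ℕ) (G : SimpleGraph ℕ) (x : ℕ → unitInterval),
          nz (G.comap ⇑σ) (x ∘ ⇑σ) = nz G x ∘ Sym2.map ⇑σ) ∧
      (∀ (G : SimpleGraph ℕ) (x : ℕ → unitInterval) (e : Sym2 ℕ), e ∉ G.edgeSet → nz G x e = 0) ∧
      (∀ G : SimpleGraph ℕ, (∀ v : ℕ, (G.neighborSet v).Finite) →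
        (Labels.labelMeasure ℕ).map (fun (x : ℕ → unitInterval) (e : G.edgeSet) => nz G x e) =
          Measure.infinitePi (fun _ : G.edgeSet => μ)) := by
  obtain ⟨t, w, ht, hw, hlaw⟩ := exists_split μ
  refine ⟨fun G x => enz G (fun v => t (x v)) (fun p => w (x p.1) p.2), ?_, ?_, ?_, ?_⟩
  · refine measurable_enz (fun a b => ?_) (by fun_prop) (by fun_prop)
    exact (measurableSet_graphOfTable a b).preimage measurable_fst
  · intro σ G x
    exact enz_comap σ G (fun v => t (x v)) (fun p => w (x p.1) p.2)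
  · intro G x e he
    exact enz_support G _ _ e he
  · intro G hG
    -- the law as an image of the product measure
    have hΦ : Measurable (fun z : (ℕ → unitInterval) × (ℕ × ℕ → ℝ) =>
        (fun e : G.edgeSet => enz G z.1 z.2 e)) := by
      have h1 := measurable_enz (Z := (ℕ → unitInterval) × (ℕ × ℕ → ℝ)) (G := fun _ => G)
        (fun a b => MeasurableSet.const _) measurable_fst measurable_snd
      fun_prop
    have h2 : (Labels.labelMeasure ℕ).map (fun (x : ℕ → unitInterval) (e : G.edgeSet) =>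
        enz G (fun v => t (x v)) (fun p => w (x p.1) p.2) e) =
        ((Measure.infinitePi fun _ : ℕ => (volume : Measure unitInterval)).prod
          (Measure.infinitePi fun _ : ℕ × ℕ => μ)).map
          (fun z => (fun e : G.edgeSet => enz G z.1 z.2 e)) := by
      rw [← hlaw, Measure.map_map hΦ (by fun_prop)]
      rfl
    rw [h2]
    ext B hB
    rw [Measure.map_apply hΦ hB, Measure.prod_apply (hΦ hB)]
    have h3 : ∀ᵐ T ∂(Measure.infinitePi fun _ : ℕ => (volume : Measure unitInterval)),
        (Measure.infinitePi fun _ : ℕ × ℕ => μ) (Prod.mk T ⁻¹'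
          ((fun z : (ℕ → unitInterval) × (ℕ × ℕ → ℝ) =>
            (fun e : G.edgeSet => enz G z.1 z.2 e)) ⁻¹' B)) =
        Measure.infinitePi (fun _ : G.edgeSet => μ) B := by
      filter_upwards [ae_injective] with T hT
      obtain ⟨f, hf, hfe⟩ := exists_index hG hT
      rw [← Measure.map_infinitePi_infinitePi_of_inj (P := fun _ : ℕ × ℕ => μ) hf,
        Measure.map_apply (by fun_prop) hB]
      congr 1
      ext W
      simp only [Set.mem_preimage]
      have : (fun e : G.edgeSet => enz G T W e) = fun e => W (f e) := by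
        funext e; exact hfe W e
      rw [this]
    rw [lintegral_congr_ae h3]
    simp

end Crest.Agent.Lib.Row168
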