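import Crest.Agent.Lib.Row168.Noise

/-!
Euler schemes for the finite-window flows and their limits: deterministic estimates.
-/

set_option autoImplicit false
open MeasureTheory Filter Topology

namespace Crest.Agent.Lib.Row168

variable {ι : Type*}

/-- valid weights on the window `Λ`, with Lipschitz constant `C`. -/
structure Valid (q : Finset ι → ℝ) (Λ : Finset ι) (C : ℝ) : Prop where
  nonneg : ∀ S ∈ Λ.powerset, 0 ≤ q S
  sum_one : ∑ S ∈ Λ.powerset, q S = 1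
  C_nonneg : 0 ≤ C
  lip : ∀ (y y' : ι → ℝ) (D : ℝ), (∀ i ∈ Λ, |y i - y' i| ≤ D) → ∀ v ∈ Λ,
    |mf q Λ y v - mf q Λ y' v| ≤ C * D

lemma zf_pos {q : Finset ι → ℝ} {Λ : Finset ι} (h0 : ∀ S ∈ Λ.powerset, 0 ≤ q S)
    (h1 : ∑ S ∈ Λ.powerset, q S = 1) (y : ι → ℝ) : 0 < zf q Λ y := by
  have h2 : ∃ S ∈ Λ.powerset, 0 < q S := by
    by_contra hcon
    push Not at hcon
    have : ∑ S ∈ Λ.powerset, q S ≤ 0 := Finset.sum_nonpos hcon
    linarith
  obtain ⟨S, hS, hq⟩ := h2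
  refine Finset.sum_pos' (fun T hT => mul_nonneg (h0 T hT) (Real.exp_pos _).le) ⟨S, hS, ?_⟩
  exact mul_pos hq (Real.exp_pos _)

lemma mf_nonneg {q : Finset ι → ℝ} {Λ : Finset ι} (h0 : ∀ S ∈ Λ.powerset, 0 ≤ q S)
    (y : ι → ℝ) (v : ι) : 0 ≤ mf q Λ y v := by
  classical
  unfold mf
  refine div_nonneg (Finset.sum_nonneg fun T hT => ?_) (Finset.sum_nonneg fun T hT => ?_)
  · exact mul_nonneg (h0 T (Finset.mem_filter.1 hT).1) (Real.exp_pos _).le
  · exact mul_nonneg (h0 T hT) (Real.exp_pos _).le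

lemma mf_le_one {q : Finset ι → ℝ} {Λ : Finset ι} (h0 : ∀ S ∈ Λ.powerset, 0 ≤ q S)
    (h1 : ∑ S ∈ Λ.powerset, q S = 1) (y : ι → ℝ) (v : ι) : mf q Λ y v ≤ 1 := by
  classical
  unfold mf
  rw [div_le_one (zf_pos h0 h1 y)]
  unfold zf
  refine Finset.sum_le_sum_of_subset_of_nonneg (Finset.filter_subset _ _) ?_
  intro T hT _
  exact mul_nonneg (h0 T hT) (Real.exp_pos _).le

lemma mf_eq_zero {q : Finset ι → ℝ} {Λ : Finset ι} (y : ι → ℝ) {v : ι} (hv : v ∉ Λ) :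
    mf q Λ y v = 0 := by
  classical
  unfold mf
  rw [Finset.filter_false_of_mem, Finset.sum_empty, zero_div]
  intro S hS hvS
  exact hv (Finset.mem_powerset.1 hS hvS)

lemma zf_congr {q : Finset ι → ℝ} {Λ : Finset ι} {y y' : ι → ℝ} (h : ∀ i ∈ Λ, y i = y' i) :
    zf q Λ y = zf q Λ y' := by
  unfold zf
  refine Finset.sum_congr rfl fun S hS => ?_
  rw [Finset.sum_congr rfl fun i hi => h i (Finset.mem_powerset.1 hS hi)]

lemma mf_congr {q : Finset ι → ℝ} {Λ : Finset ι} {y y' : ι → ℝ} (h : ∀ i ∈ Λ, y i = y' i) (v : ι) :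
    mf q Λ y v = mf q Λ y' v := by
  classical
  unfold mf
  rw [zf_congr h]
  congr 1
  refine Finset.sum_congr rfl fun S hS => ?_
  rw [Finset.sum_congr rfl fun i hi => h i (Finset.mem_powerset.1 (Finset.mem_filter.1 hS).1 hi)]

/-- drift -/
noncomputable def dr (q : Finset ι → ℝ) (Λ : Finset ι) (t : ℝ) (w : ι → ℝ) (v : ι) : ℝ :=
  mf q Λ (fun i => psi t (w i)) v

lemma dr_congr {q : Finset ι → ℝ} {Λ : Finset ι} {w w' : ι → ℝ} (t : ℝ)
    (h : ∀ i ∈ Λ, w i = w' i) (v : ι) : dr q Λ t w v = dr q Λ t w' v :=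
  mf_congr (fun i hi => by rw [h i hi]) v

lemma dr_eq_zero {q : Finset ι → ℝ} {Λ : Finset ι} (t : ℝ) (w : ι → ℝ) {v : ι} (hv : v ∉ Λ) :
    dr q Λ t w v = 0 := mf_eq_zero _ hv

lemma Valid.dr_nonneg {q : Finset ι → ℝ} {Λ : Finset ι} {C : ℝ} (hq : Valid q Λ C) (t : ℝ)
    (w : ι → ℝ) (v : ι) : 0 ≤ dr q Λ t w v := mf_nonneg hq.nonneg _ _

lemma Valid.dr_le_one {q : Finset ι → ℝ} {Λ : Finset ι} {C : ℝ} (hq : Valid q Λ C) (t : ℝ)
    (w : ι → ℝ) (v : ι) : dr q Λ t w v ≤ 1 := mf_le_one hq.nonneg hq.sum_one _ _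

lemma Valid.dr_lip {q : Finset ι → ℝ} {Λ : Finset ι} {C : ℝ} (hq : Valid q Λ C) {t t' : ℝ}
    {w w' : ι → ℝ} {D : ℝ} (hD : 0 ≤ D) (h : ∀ i ∈ Λ, |w i - w' i| ≤ D) (v : ι) :
    |dr q Λ t w v - dr q Λ t' w' v| ≤ C * (|t - t'| + 2 * D) := by
  by_cases hv : v ∈ Λ
  · refine hq.lip _ _ _ (fun i hi => ?_) v hv
    have h1 := abs_psi_sub_le t t' (w i) (w' i)
    have h2 := h i hi
    linarith
  · rw [dr_eq_zero t w hv, dr_eq_zero t' w' hv, sub_zero, abs_zero]
    exact mul_nonneg hq.C_nonneg (by positivity)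

/-- Euler scheme with step `h`. -/
noncomputable def eul (q : Finset ι → ℝ) (Λ : Finset ι) (h : ℝ) : ℕ → (ι → ℝ) → ι → ℝ
  | 0, g => g
  | k + 1, g => fun v => eul q Λ h k g v + h * dr q Λ (k * h) (eul q Λ h k g) v

lemma eul_zero (q : Finset ι → ℝ) (Λ : Finset ι) (h : ℝ) (g : ι → ℝ) : eul q Λ h 0 g = g := rfl

lemma eul_succ (q : Finset ι → ℝ) (Λ : Finset ι) (h : ℝ) (k : ℕ) (g : ι → ℝ) (v : ι) :
    eul q Λ h (k + 1) g v = eul q Λ h k g v + h * dr q Λ (k * h) (eul q Λ h k g) v := rfl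

lemma eul_congr {q : Finset ι → ℝ} {Λ : Finset ι} {h : ℝ} {g g' : ι → ℝ}
    (hg : ∀ i ∈ Λ, g i = g' i) (k : ℕ) : ∀ i ∈ Λ, eul q Λ h k g i = eul q Λ h k g' i := by
  induction k with
  | zero => exact hg
  | succ k ih =>
    intro i hi
    rw [eul_succ, eul_succ, ih i hi, dr_congr _ ih]

lemma eul_not_mem {q : Finset ι → ℝ} {Λ : Finset ι} {h : ℝ} {g : ι → ℝ} {v : ι} (hv : v ∉ Λ)
    (k : ℕ) : eul q Λ h k g v = g v := by
  induction k with
  | zero => rfl
  | succ k ih => rw [eul_succ, ih, dr_eq_zero _ _ hv, mul_zero, add_zero]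

lemma Valid.eul_add {q : Finset ι → ℝ} {Λ : Finset ι} {C : ℝ} (hq : Valid q Λ C) {h : ℝ}
    (hh : 0 ≤ h) (g : ι → ℝ) (k l : ℕ) (v : ι) :
    0 ≤ eul q Λ h (k + l) g v - eul q Λ h k g v ∧
      eul q Λ h (k + l) g v - eul q Λ h k g v ≤ l * h := by
  induction l with
  | zero => simp
  | succ l ih =>
    rw [← Nat.add_assoc, eul_succ]
    have h0 := mul_nonneg hh (hq.dr_nonneg ((k + l : ℕ) * h) (eul q Λ h (k + l) g) v)
    have h1 := mul_le_mul_of_nonneg_left (hq.dr_le_one ((k + l : ℕ) * h) (eul q Λ h (k + l) g) v) hh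
    push_cast at *
    constructor
    · linarith [ih.1]
    · linarith [ih.2]

lemma Valid.eul_fine {q : Finset ι → ℝ} {Λ : Finset ι} {C : ℝ} (hq : Valid q Λ C) {h : ℝ}
    (hh : 0 ≤ h) (m : ℕ) (hm : 0 < m) (g : ι → ℝ) (k : ℕ) (v : ι) :
    |eul q Λ (h / m) ((k + 1) * m) g v - eul q Λ (h / m) (k * m) g v -
      h * dr q Λ (k * h) (eul q Λ (h / m) (k * m) g) v| ≤ 3 * C * h ^ 2 := by
  have hm' : (0 : ℝ) < m := by exact_mod_cast hm
  have hhm : 0 ≤ h / m := by positivity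
  have key : ∀ l ≤ m, |eul q Λ (h / m) (k * m + l) g v - eul q Λ (h / m) (k * m) g v -
      (l * (h / m)) * dr q Λ (k * h) (eul q Λ (h / m) (k * m) g) v| ≤ l * (h / m) * (3 * C * h) := by
    intro l
    induction l with
    | zero => intro _; simp
    | succ l ih =>
      intro hl
      have ih' := ih (by omega)
      have hlm : (l : ℝ) * (h / m) ≤ h := by
        have : (l : ℝ) ≤ m := by exact_mod_cast (by omega : l ≤ m)
        calc (l : ℝ) * (h / m) ≤ m * (h / m) := by gcongr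
          _ = h := by field_simp
      have hd := hq.dr_lip (t := ((k * m + l : ℕ) : ℝ) * (h / m)) (t' := k * h)
        (w := eul q Λ (h / m) (k * m + l) g) (w' := eul q Λ (h / m) (k * m) g) hh (fun i _ => by
          have := hq.eul_add hhm g (k * m) l i
          rw [abs_of_nonneg this.1]
          exact this.2.trans hlm) v
      have ht : |((k * m + l : ℕ) : ℝ) * (h / m) - k * h| ≤ h := by
        have e : ((k * m + l : ℕ) : ℝ) * (h / m) - k * h = l * (h / m) := by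
          push_cast; field_simp; ring
        rw [e, abs_of_nonneg (by positivity)]
        exact hlm
      have hd2 : |dr q Λ (((k * m + l : ℕ) : ℝ) * (h / m)) (eul q Λ (h / m) (k * m + l) g) v -
          dr q Λ (k * h) (eul q Λ (h / m) (k * m) g) v| ≤ 3 * C * h := by
        refine hd.trans ?_
        have := hq.C_nonneg
        nlinarith
      rw [← Nat.add_assoc, eul_succ]
      set A := dr q Λ (((k * m + l : ℕ) : ℝ) * (h / m)) (eul q Λ (h / m) (k * m + l) g) v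
      set B := dr q Λ (k * h) (eul q Λ (h / m) (k * m) g) v
      set X := eul q Λ (h / m) (k * m + l) g v
      set Y := eul q Λ (h / m) (k * m) g v
      have e : X + h / m * A - Y - ((l + 1 : ℕ) : ℝ) * (h / m) * B =
          (X - Y - l * (h / m) * B) + (h / m) * (A - B) := by push_cast; ring
      rw [e]
      calc |(X - Y - l * (h / m) * B) + (h / m) * (A - B)|
          ≤ |X - Y - l * (h / m) * B| + |(h / m) * (A - B)| := abs_add_le _ _
        _ ≤ l * (h / m) * (3 * C * h) + (h / m) * (3 * C * h) := by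
            rw [abs_mul, abs_of_nonneg hhm]
            gcongr
        _ = _ := by push_cast; ring
  have h1 := key m le_rfl
  have e1 : k * m + m = (k + 1) * m := by ring
  have e2 : (m : ℝ) * (h / m) = h := by field_simp
  rw [e1, e2] at h1
  calc _ ≤ _ := h1
    _ = _ := by ring

lemma Valid.eul_compare {q : Finset ι → ℝ} {Λ : Finset ι} {C : ℝ} (hq : Valid q Λ C) {h : ℝ}
    (hh : 0 ≤ h) (m : ℕ) (hm : 0 < m) (g : ι → ℝ) (k : ℕ) (v : ι) :
    |eul q Λ (h / m) (k * m) g v - eul q Λ h k g v| ≤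
      3 * C * h ^ 2 * k * (1 + 2 * C * h) ^ k := by
  have hC := hq.C_nonneg
  induction k generalizing v with
  | zero => simp [eul_zero]
  | succ k ih =>
    have h1 := hq.eul_fine hh m hm g k v
    set D := 3 * C * h ^ 2 * k * (1 + 2 * C * h) ^ k with hDdef
    have hD : 0 ≤ D := by positivity
    have h2 := hq.dr_lip (t := k * h) (t' := k * h) (w := eul q Λ (h / m) (k * m) g)
      (w' := eul q Λ h k g) hD (fun i _ => ih i) v
    rw [sub_self, abs_zero, zero_add] at h2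
    rw [eul_succ]
    have h3 := ih v
    set A := dr q Λ (k * h) (eul q Λ (h / m) (k * m) g) v
    set B := dr q Λ (k * h) (eul q Λ h k g) v
    set X := eul q Λ (h / m) ((k + 1) * m) g v
    set Y := eul q Λ (h / m) (k * m) g v
    set Z := eul q Λ h k g v
    have e : X - (Z + h * B) = (X - Y - h * A) + (Y - Z) + h * (A - B) := by ring
    rw [e]
    have hpow : (1 : ℝ) ≤ (1 + 2 * C * h) ^ (k + 1) := one_le_pow₀ (by nlinarith [mul_nonneg hC hh])
    calc |(X - Y - h * A) + (Y - Z) + h * (A - B)|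
        ≤ |X - Y - h * A| + |Y - Z| + |h * (A - B)| := by
          refine (abs_add_le _ _).trans ?_
          gcongr
          exact abs_add_le _ _
      _ ≤ 3 * C * h ^ 2 + D + h * (C * (2 * D)) := by
          rw [abs_mul, abs_of_nonneg hh]
          gcongr
      _ = 3 * C * h ^ 2 * 1 + 3 * C * h ^ 2 * k * (1 + 2 * C * h) ^ (k + 1) := by
          rw [hDdef]; ring
      _ ≤ 3 * C * h ^ 2 * (1 + 2 * C * h) ^ (k + 1) + 3 * C * h ^ 2 * k * (1 + 2 * C * h) ^ (k + 1) := by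
          gcongr
      _ = _ := by push_cast; ring

lemma Valid.eul_compare' {q : Finset ι → ℝ} {Λ : Finset ι} {C : ℝ} (hq : Valid q Λ C) {h : ℝ}
    (hh : 0 ≤ h) (m : ℕ) (hm : 0 < m) (g : ι → ℝ) (k : ℕ) (v : ι) :
    |eul q Λ (h / m) (k * m) g v - eul q Λ h k g v| ≤
      3 * C * (k * h) * Real.exp (2 * C * (k * h)) * h := by
  have hC := hq.C_nonneg
  refine (hq.eul_compare hh m hm g k v).trans ?_
  have h1 : (1 + 2 * C * h) ^ k ≤ Real.exp (2 * C * (k * h)) := by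
    have : 1 + 2 * C * h ≤ Real.exp (2 * C * h) := by
      have := Real.add_one_le_exp (2 * C * h); linarith
    calc (1 + 2 * C * h) ^ k ≤ (Real.exp (2 * C * h)) ^ k := by
          gcongr
      _ = Real.exp (2 * C * (k * h)) := by rw [← Real.exp_nat_mul]; ring_nf
  calc 3 * C * h ^ 2 * k * (1 + 2 * C * h) ^ k ≤ 3 * C * h ^ 2 * k * Real.exp (2 * C * (k * h)) := by
        gcongr
    _ = _ := by ring

/-- the flow at time `k / 2 ^ i`. -/
noncomputable def W (q : Finset ι → ℝ) (Λ : Finset ι) (i k : ℕ) (g : ι → ℝ) (v : ι) : ℝ :=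
  limsup (fun j : ℕ => eul q Λ (((1 / 2 : ℝ) ^ i) / (2 ^ j : ℕ)) (k * 2 ^ j) g v) atTop

lemma Valid.W_tendsto {q : Finset ι → ℝ} {Λ : Finset ι} {C : ℝ} (hq : Valid q Λ C) (i k : ℕ)
    (g : ι → ℝ) (v : ι) :
    Tendsto (fun j : ℕ => eul q Λ (((1 / 2 : ℝ) ^ i) / (2 ^ j : ℕ)) (k * 2 ^ j) g v) atTop
      (𝓝 (W q Λ i k g v)) := by
  set h : ℝ := (1 / 2 : ℝ) ^ i with hh
  have hpos : 0 < h := by positivity
  have hC := hq.C_nonneg
  set a : ℕ → ℝ := fun j : ℕ => eul q Λ (h / (2 ^ j : ℕ)) (k * 2 ^ j) g v with ha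
  set K : ℝ := 3 * C * (k * h) * Real.exp (2 * C * (k * h)) * h with hK
  have hK0 : 0 ≤ K := by positivity
  have hcau : CauchySeq a := by
    refine cauchySeq_of_le_geometric_two (C := 2 * K) fun j => ?_
    have h1 := hq.eul_compare' (h := h / (2 ^ j : ℕ)) (by positivity) 2 (by norm_num) g (k * 2 ^ j) v
    have e1 : h / (2 ^ j : ℕ) / (2 : ℕ) = h / (2 ^ (j + 1) : ℕ) := by
      push_cast; rw [pow_succ]; field_simp
    have e2 : k * 2 ^ j * 2 = k * 2 ^ (j + 1) := by rw [pow_succ]; ring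
    have e3 : ((k * 2 ^ j : ℕ) : ℝ) * (h / (2 ^ j : ℕ)) = k * h := by
      push_cast; field_simp
    rw [e1, e2, e3] at h1
    rw [Real.dist_eq, abs_sub_comm]
    refine h1.trans (le_of_eq ?_)
    rw [hK]; push_cast; field_simp
  obtain ⟨l, hl⟩ := cauchySeq_tendsto_of_complete hcau
  have : W q Λ i k g v = l := hl.limsup_eq
  rw [this]
  exact hl

lemma Valid.W_zero {q : Finset ι → ℝ} {Λ : Finset ι} {C : ℝ} (hq : Valid q Λ C) (i : ℕ)
    (g : ι → ℝ) (v : ι) : W q Λ i 0 g v = g v := by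
  have h1 := hq.W_tendsto i 0 g v
  simp only [zero_mul, eul_zero] at h1
  exact tendsto_nhds_unique h1 tendsto_const_nhds

lemma Valid.dr_tendsto {q : Finset ι → ℝ} {Λ : Finset ι} {C : ℝ} (hq : Valid q Λ C) (t : ℝ)
    {w : ℕ → ι → ℝ} {w' : ι → ℝ} (hw : ∀ i ∈ Λ, Tendsto (fun j => w j i) atTop (𝓝 (w' i))) (v : ι) :
    Tendsto (fun j => dr q Λ t (w j) v) atTop (𝓝 (dr q Λ t w' v)) := by
  have hC := hq.C_nonneg
  have h1 : Tendsto (fun j => ∑ i ∈ Λ, |w j i - w' i|) atTop (𝓝 0) := by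
    rw [← Finset.sum_const_zero (s := Λ)]
    refine tendsto_finsetSum _ fun i hi => ?_
    have := ((hw i hi).sub_const (w' i)).abs
    simpa using this
  rw [tendsto_iff_dist_tendsto_zero]
  have h2 : Tendsto (fun j => C * (|t - t| + 2 * ∑ i ∈ Λ, |w j i - w' i|)) atTop (𝓝 0) := by
    have := (h1.const_mul 2).const_mul C
    simpa using this
  refine squeeze_zero (fun j => dist_nonneg) (fun j => ?_) h2
  rw [Real.dist_eq]
  refine hq.dr_lip (Finset.sum_nonneg fun _ _ => abs_nonneg _) (fun i hi => ?_) v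
  exact Finset.single_le_sum (f := fun i => |w j i - w' i|) (fun _ _ => abs_nonneg _) hi

lemma Valid.W_step {q : Finset ι → ℝ} {Λ : Finset ι} {C : ℝ} (hq : Valid q Λ C) (i k : ℕ)
    (g : ι → ℝ) (v : ι) :
    |W q Λ i (k + 1) g v - W q Λ i k g v -
      (1 / 2 : ℝ) ^ i * dr q Λ (k * (1 / 2 : ℝ) ^ i) (W q Λ i k g) v| ≤
      3 * C * ((1 / 2 : ℝ) ^ i) ^ 2 := by
  have h1 := hq.W_tendsto i (k + 1) g v
  have h2 := hq.W_tendsto i k g v
  have h3 := hq.dr_tendsto (k * (1 / 2 : ℝ) ^ i) (fun u _ => hq.W_tendsto i k g u) v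
  have h4 := ((h1.sub h2).sub (h3.const_mul ((1 / 2 : ℝ) ^ i))).abs
  refine le_of_tendsto h4 (Eventually.of_forall fun j => ?_)
  exact hq.eul_fine (by positivity) (2 ^ j) (by positivity) g k v

lemma Valid.W_succ_sub {q : Finset ι → ℝ} {Λ : Finset ι} {C : ℝ} (hq : Valid q Λ C) (i k : ℕ)
    (g : ι → ℝ) (v : ι) :
    0 ≤ W q Λ i (k + 1) g v - W q Λ i k g v ∧
    W q Λ i (k + 1) g v - W q Λ i k g v ≤ (1 / 2 : ℝ) ^ i := by
  have h1 := hq.W_tendsto i (k + 1) g v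
  have h2 := hq.W_tendsto i k g v
  have h4 := h1.sub h2
  have key : ∀ j : ℕ, 0 ≤ eul q Λ (((1 / 2 : ℝ) ^ i) / (2 ^ j : ℕ)) ((k + 1) * 2 ^ j) g v -
      eul q Λ (((1 / 2 : ℝ) ^ i) / (2 ^ j : ℕ)) (k * 2 ^ j) g v ∧
      eul q Λ (((1 / 2 : ℝ) ^ i) / (2 ^ j : ℕ)) ((k + 1) * 2 ^ j) g v -
      eul q Λ (((1 / 2 : ℝ) ^ i) / (2 ^ j : ℕ)) (k * 2 ^ j) g v ≤ (1 / 2 : ℝ) ^ i := by
    intro j
    have := hq.eul_add (h := ((1 / 2 : ℝ) ^ i) / (2 ^ j : ℕ)) (by positivity) g (k * 2 ^ j) (2 ^ j) v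
    have e : k * 2 ^ j + 2 ^ j = (k + 1) * 2 ^ j := by ring
    have e2 : ((2 ^ j : ℕ) : ℝ) * (((1 / 2 : ℝ) ^ i) / (2 ^ j : ℕ)) = (1 / 2 : ℝ) ^ i := by
      field_simp
    rw [e, e2] at this
    exact this
  exact ⟨ge_of_tendsto h4 (Eventually.of_forall fun j => (key j).1),
    le_of_tendsto h4 (Eventually.of_forall fun j => (key j).2)⟩

lemma Valid.W_refine {q : Finset ι → ℝ} {Λ : Finset ι} {C : ℝ} (hq : Valid q Λ C) (i k : ℕ)
    (g : ι → ℝ) (v : ι) : W q Λ (i + 1) (k * 2) g v = W q Λ i k g v := by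
  have h1 := hq.W_tendsto (i + 1) (k * 2) g v
  have h2 := (hq.W_tendsto i k g v).comp (tendsto_add_atTop_nat 1)
  refine tendsto_nhds_unique h1 (h2.congr fun j => ?_)
  have e1 : ((1 / 2 : ℝ) ^ i) / (2 ^ (j + 1) : ℕ) = ((1 / 2 : ℝ) ^ (i + 1)) / (2 ^ j : ℕ) := by
    push_cast; rw [pow_succ, pow_succ]; field_simp
  have e2 : k * 2 ^ (j + 1) = k * 2 * 2 ^ j := by rw [pow_succ]; ring
  simp only [Function.comp]
  rw [e1, e2]

lemma Valid.W_refine' {q : Finset ι → ℝ} {Λ : Finset ι} {C : ℝ} (hq : Valid q Λ C) (i k : ℕ)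
    (g : ι → ℝ) (v : ι) : W q Λ i (k * 2 ^ i) g v = W q Λ 0 k g v := by
  induction i with
  | zero => simp
  | succ i ih =>
    rw [← ih, pow_succ, ← mul_assoc, hq.W_refine]

lemma W_congr {q : Finset ι → ℝ} {Λ : Finset ι} {i k : ℕ} {g g' : ι → ℝ}
    (hg : ∀ v ∈ Λ, g v = g' v) {v : ι} (hv : v ∈ Λ) : W q Λ i k g v = W q Λ i k g' v := by
  unfold W
  congr 1
  ext j
  exact eul_congr hg _ v hv

/-- measurability in all parameters -/
lemma measurable_zf (Λ : Finset ι) :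
    Measurable fun p : (Finset ι → ℝ) × (ι → ℝ) => zf p.1 Λ p.2 := by
  unfold zf
  fun_prop

lemma measurable_mf (Λ : Finset ι) (v : ι) :
    Measurable fun p : (Finset ι → ℝ) × (ι → ℝ) => mf p.1 Λ p.2 v := by
  unfold mf
  refine Measurable.div ?_ (measurable_zf Λ)
  fun_prop

lemma measurable_dr (Λ : Finset ι) (t : ℝ) (v : ι) :
    Measurable fun p : (Finset ι → ℝ) × (ι → ℝ) => dr p.1 Λ t p.2 v := by
  have h0 : Measurable fun p : (Finset ι → ℝ) × (ι → ℝ) => (p.1, fun i => psi t (p.2 i)) := by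
    refine Measurable.prodMk measurable_fst ?_
    refine measurable_pi_lambda _ fun i => ?_
    exact (measurable_psi t).comp ((measurable_pi_apply i).comp measurable_snd)
  exact (measurable_mf Λ v).comp h0

lemma measurable_eul (Λ : Finset ι) (h : ℝ) (k : ℕ) (v : ι) :
    Measurable fun p : (Finset ι → ℝ) × (ι → ℝ) => eul p.1 Λ h k p.2 v := by
  induction k generalizing v with
  | zero => simp only [eul_zero]; fun_prop
  | succ k ih =>
    simp only [eul_succ]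
    refine (ih v).add (Measurable.const_mul ?_ h)
    have h0 : Measurable fun p : (Finset ι → ℝ) × (ι → ℝ) => (p.1, fun i => eul p.1 Λ h k p.2 i) :=
      Measurable.prodMk measurable_fst (measurable_pi_lambda _ fun i => ih i)
    exact (measurable_dr Λ (k * h) v).comp h0

lemma measurable_W (Λ : Finset ι) (i k : ℕ) (v : ι) :
    Measurable fun p : (Finset ι → ℝ) × (ι → ℝ) => W p.1 Λ i k p.2 v := by
  have h : ∀ j : ℕ, Measurable fun p : (Finset ι → ℝ) × (ι → ℝ) =>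
      eul p.1 Λ (((1 / 2 : ℝ) ^ i) / (2 ^ j : ℕ)) (k * 2 ^ j) p.2 v :=
    fun j => measurable_eul Λ (((1 / 2 : ℝ) ^ i) / (2 ^ j : ℕ)) (k * 2 ^ j) v
  exact Measurable.limsup h

lemma measurable_W' (q : Finset ι → ℝ) (Λ : Finset ι) (i k : ℕ) (v : ι) :
    Measurable fun g : ι → ℝ => W q Λ i k g v := by
  have h : Measurable fun g : ι → ℝ => (q, g) := by fun_prop
  have h2 := (measurable_W Λ i k v).comp h
  simp only [Function.comp_def] at h2
  exact h2

lemma measurable_dr' (q : Finset ι → ℝ) (Λ : Finset ι) (t : ℝ) (v : ι) :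
    Measurable fun g : ι → ℝ => dr q Λ t g v := by
  have h : Measurable fun g : ι → ℝ => (q, g) := by fun_prop
  have h2 := (measurable_dr Λ t v).comp h
  simp only [Function.comp_def] at h2
  exact h2

lemma measurable_eul' (q : Finset ι → ℝ) (Λ : Finset ι) (h : ℝ) (k : ℕ) (v : ι) :
    Measurable fun g : ι → ℝ => eul q Λ h k g v := by
  have h' : Measurable fun g : ι → ℝ => (q, g) := by fun_prop
  have h2 := (measurable_eul Λ h k v).comp h'
  simp only [Function.comp_def] at h2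
  exact h2

end Crest.Agent.Lib.Row168
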