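import Crest.Agent.Lib.Row168.Euler

/-!
Laws: quasi-invariance of the logistic product law, Bayes formula in a finite window.
-/

set_option autoImplicit false
open MeasureTheory Filter Topology ProbabilityTheory
open scoped ENNReal

namespace Crest.Agent.Lib.Row168

variable {ι : Type*}

/-- the product logistic law -/
noncomputable def PL (ι : Type*) : Measure (ι → ℝ) := Measure.infinitePi fun _ : ι => logis

instance : IsProbabilityMeasure (PL ι) := by unfold PL; infer_instance

open Classical in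
/-- shift by `t` on `S`. -/
noncomputable def shf (t : ℝ) (S : Finset ι) (g : ι → ℝ) (v : ι) : ℝ := g v + if v ∈ S then t else 0

lemma measurable_shf (t : ℝ) (S : Finset ι) : Measurable (shf t S) := by
  unfold shf
  fun_prop

lemma lintegral_exp_psi (t : ℝ) : ∫⁻ w, ENNReal.ofReal (Real.exp (psi t w)) ∂logis = 1 := by
  have h := logis_map_add t
  have h1 : (logis.map fun g => g + t) Set.univ = 1 := by
    rw [Measure.map_apply (measurable_add_const t) MeasurableSet.univ]
    simp
  rw [h, withDensity_apply _ MeasurableSet.univ, Measure.restrict_univ] at h1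
  exact h1

lemma PL_map_shf (t : ℝ) (S : Finset ι) :
    (PL ι).map (shf t S) =
      (PL ι).withDensity fun g => ENNReal.ofReal (Real.exp (∑ i ∈ S, psi t (g i))) := by
  classical
  have hf : ∀ i : ι, Measurable fun w : ℝ => w + (if i ∈ S then t else 0) := fun i => by fun_prop
  have h1 : (PL ι).map (shf t S) =
      Measure.infinitePi (fun i : ι => logis.map fun w : ℝ => w + (if i ∈ S then t else 0)) := by
    rw [PL, ← Measure.infinitePi_map_pi (μ := fun _ : ι => logis) hf]
    rfl
  have hprob : ∀ i : ι, IsProbabilityMeasure (logis.map fun w : ℝ => w + (if i ∈ S then t else 0)) :=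
    fun i => Measure.isProbabilityMeasure_map (hf i).aemeasurable
  rw [h1]
  symm
  refine Measure.eq_infinitePi _ fun s u hu => ?_
  rw [withDensity_apply _ (MeasurableSet.pi s.countable_toSet fun i _ => hu i),
    ← lintegral_indicator (MeasurableSet.pi s.countable_toSet fun i _ => hu i)]
  -- product form
  set hfun : ι → ℝ → ℝ≥0∞ := fun i w =>
    (if i ∈ s then (u i).indicator 1 w else 1) * (if i ∈ S then ENNReal.ofReal (Real.exp (psi t w)) else 1)
    with hfun_def
  have hmeas : ∀ i, Measurable (hfun i) := by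
    intro i
    refine Measurable.mul ?_ ?_
    · split_ifs
      · exact measurable_one.indicator (hu i)
      · exact measurable_const
    · split_ifs
      · exact (Real.measurable_exp.comp (measurable_psi t)).ennreal_ofReal
      · exact measurable_const
  have e1 : ∀ g : ι → ℝ, ((s : Set ι).pi u).indicator
      (fun g : ι → ℝ => ENNReal.ofReal (Real.exp (∑ i ∈ S, psi t (g i)))) g =
      ∏ i ∈ s ∪ S, hfun i (g i) := by
    intro g
    simp only [hfun_def, Finset.prod_mul_distrib]
    have p1 : ∏ i ∈ s ∪ S, (if i ∈ s then (u i).indicator (1 : ℝ → ℝ≥0∞) (g i) else 1) =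
        ((s : Set ι).pi u).indicator 1 g := by
      rw [Finset.prod_ite_mem, Finset.union_inter_cancel_left]
      by_cases hg : g ∈ (s : Set ι).pi u
      · rw [Set.indicator_of_mem hg, Finset.prod_eq_one]
        · rfl
        · intro i hi
          rw [Set.indicator_of_mem (hg i hi)]; rfl
      · rw [Set.indicator_of_notMem hg]
        simp only [Set.mem_pi, not_forall] at hg
        obtain ⟨i, hi, hgi⟩ := hg
        exact Finset.prod_eq_zero hi (Set.indicator_of_notMem hgi _)
    have p2 : ∏ i ∈ s ∪ S, (if i ∈ S then ENNReal.ofReal (Real.exp (psi t (g i))) else 1) =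
        ENNReal.ofReal (Real.exp (∑ i ∈ S, psi t (g i))) := by
      rw [Finset.prod_ite_mem, Finset.union_inter_cancel_right, Real.exp_sum,
        ENNReal.ofReal_prod_of_nonneg fun i _ => (Real.exp_pos _).le]
    rw [p1, p2]
    by_cases hg : g ∈ (s : Set ι).pi u
    · simp [Set.indicator_of_mem hg]
    · simp [Set.indicator_of_notMem hg]
  rw [lintegral_congr e1]
  have hind : iIndepFun (fun i (g : ι → ℝ) => hfun i (g i)) (PL ι) :=
    iIndepFun_infinitePi hmeas
  rw [lintegral_prod_eq_prod_lintegral_of_indepFun (s ∪ S) _ hind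
    (fun i => (hmeas i).comp (measurable_pi_apply i))]
  have e2 : ∀ i, ∫⁻ g, hfun i (g i) ∂(PL ι) = ∫⁻ w, hfun i w ∂logis := by
    intro i
    have := (measurePreserving_eval_infinitePi (fun _ : ι => logis) i).lintegral_comp (hmeas i)
    exact this
  simp only [e2]
  have e3 : ∀ i, ∫⁻ w, hfun i w ∂logis =
      if i ∈ s then (logis.map fun w : ℝ => w + (if i ∈ S then t else 0)) (u i) else 1 := by
    intro i
    simp only [hfun_def]
    split_ifs with h1 h2 h2
    · rw [logis_map_add, withDensity_apply _ (hu i), ← lintegral_indicator (hu i)]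
      refine lintegral_congr fun w => ?_
      by_cases hw : w ∈ u i
      · simp [Set.indicator_of_mem hw]
      · simp [Set.indicator_of_notMem hw]
    · simp only [mul_one, add_zero, Measure.map_id']
      rw [lintegral_indicator_one (hu i)]
    · simp only [one_mul]; exact lintegral_exp_psi t
    · simp
  simp only [e3]
  rw [Finset.prod_ite_mem, Finset.union_inter_cancel_left]

lemma integral_shf (t : ℝ) (S : Finset ι) (Φ : (ι → ℝ) → ℝ) (hΦ : Measurable Φ) :
    ∫ g, Φ (shf t S g) ∂(PL ι) = ∫ g, Real.exp (∑ i ∈ S, psi t (g i)) * Φ g ∂(PL ι) := by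
  have hm : Measurable fun g : ι → ℝ => Real.exp (∑ i ∈ S, psi t (g i)) := by
    refine Real.measurable_exp.comp (Finset.measurable_sum _ fun i _ => ?_)
    exact (measurable_psi t).comp (measurable_pi_apply i)
  rw [← integral_map (measurable_shf t S).aemeasurable hΦ.aestronglyMeasurable, PL_map_shf]
  have h1 : (fun g : ι → ℝ => ENNReal.ofReal (Real.exp (∑ i ∈ S, psi t (g i)))) =
      fun g => ((Real.toNNReal (Real.exp (∑ i ∈ S, psi t (g i))) : NNReal) : ℝ≥0∞) := rfl
  rw [h1, integral_withDensity_eq_integral_smul hm.real_toNNReal]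
  refine integral_congr_ae (Eventually.of_forall fun g => ?_)
  simp only [NNReal.smul_def, smul_eq_mul, Real.coe_toNNReal _ (Real.exp_pos _).le]

/-- function depending only on the window -/
def DepOn (Λ : Finset ι) {E : Type*} (Φ : (ι → ℝ) → E) : Prop :=
  ∀ w w' : ι → ℝ, (∀ i ∈ Λ, w i = w' i) → Φ w = Φ w'

/-- the observation process -/
noncomputable def Y (t : ℝ) (p : (ι → Bool) × (ι → ℝ)) (v : ι) : ℝ :=
  p.2 v + if p.1 v = true then t else 0

lemma measurable_Y (t : ℝ) : Measurable (Y (ι := ι) t) := by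
  refine measurable_pi_lambda _ fun v => ?_
  unfold Y
  refine ((measurable_pi_apply v).comp measurable_snd).add ?_
  refine Measurable.ite ?_ measurable_const measurable_const
  have h : Measurable fun p : (ι → Bool) × (ι → ℝ) => p.1 v :=
    (measurable_pi_apply v).comp measurable_fst
  exact h (measurableSet_singleton true)

/-- the window event -/
def wev (Λ S : Finset ι) : Set (ι → Bool) := {ω | ∀ i ∈ Λ, (ω i = true ↔ i ∈ S)}

lemma measurableSet_wev (Λ S : Finset ι) : MeasurableSet (wev Λ S) := by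
  have : wev Λ S = ⋂ i ∈ Λ, {ω : ι → Bool | (ω i = true ↔ i ∈ S)} := by
    ext ω; simp [wev]
  rw [this]
  refine Finset.measurableSet_biInter _ fun i _ => ?_
  by_cases h : i ∈ S
  · simp only [h, iff_true]
    have h' : Measurable fun ω : ι → Bool => ω i := measurable_pi_apply i
    exact h' (measurableSet_singleton true)
  · simp only [h, iff_false]
    have h' : Measurable fun ω : ι → Bool => ω i := measurable_pi_apply i
    exact (h' (measurableSet_singleton true)).compl

lemma winW_eq (ν : Measure (ι → Bool)) (Λ S : Finset ι) : winW ν Λ S = (ν (wev Λ S)).toReal := rfl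

lemma wev_cover (Λ : Finset ι) (ω : ι → Bool) : ∃ S ∈ Λ.powerset, ω ∈ wev Λ S := by
  classical
  refine ⟨Λ.filter fun i => ω i = true, Finset.mem_powerset.2 (Finset.filter_subset _ _), ?_⟩
  intro i hi
  simp [hi]

lemma wev_disj (Λ : Finset ι) {S T : Finset ι} (hS : S ∈ Λ.powerset) (hT : T ∈ Λ.powerset)
    {ω : ι → Bool} (h1 : ω ∈ wev Λ S) (h2 : ω ∈ wev Λ T) : S = T := by
  ext i
  constructor
  · intro hi
    have hΛ := Finset.mem_powerset.1 hS hi
    exact (h2 i hΛ).1 ((h1 i hΛ).2 hi)
  · intro hi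
    have hΛ := Finset.mem_powerset.1 hT hi
    exact (h1 i hΛ).1 ((h2 i hΛ).2 hi)

lemma sum_indicator_wev (Λ : Finset ι) (ω : ι → Bool) (f : Finset ι → ℝ) (S : Finset ι)
    (hS : S ∈ Λ.powerset) (hω : ω ∈ wev Λ S) :
    ∑ T ∈ Λ.powerset, (wev Λ T).indicator (fun _ => f T) ω = f S := by
  rw [Finset.sum_eq_single S]
  · rw [Set.indicator_of_mem hω]
  · intro T hT hne
    refine Set.indicator_of_notMem (fun h => hne (wev_disj Λ hT hS h hω)) _
  · intro h; exact absurd hS h

lemma winW_nonneg (ν : Measure (ι → Bool)) (Λ S : Finset ι) : 0 ≤ winW ν Λ S :=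
  ENNReal.toReal_nonneg

lemma winW_sum (ν : Measure (ι → Bool)) [IsProbabilityMeasure ν] (Λ : Finset ι) :
    ∑ S ∈ Λ.powerset, winW ν Λ S = 1 := by
  have h1 : ∀ S, winW ν Λ S = ∫ ω, (wev Λ S).indicator (fun _ => (1 : ℝ)) ω ∂ν := by
    intro S
    rw [integral_indicator (measurableSet_wev Λ S)]
    simp [winW_eq, Measure.real]
  simp_rw [h1]
  rw [← integral_finsetSum _ fun S _ => ?_]
  · have : ∀ ω, ∑ S ∈ Λ.powerset, (wev Λ S).indicator (fun _ => (1 : ℝ)) ω = 1 := by
      intro ω
      obtain ⟨S, hS, hω⟩ := wev_cover Λ ω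
      exact sum_indicator_wev Λ ω (fun _ => 1) S hS hω
    simp [this]
  · exact (integrable_const (1 : ℝ)).indicator (measurableSet_wev Λ S)

variable (ν : Measure (ι → Bool)) [IsProbabilityMeasure ν]

/-- integral over a window event -/
lemma integral_wev (Λ S : Finset ι) (t : ℝ) (Φ : (ι → ℝ) → ℝ)
    (hdep : DepOn Λ Φ) :
    ∫ p, (wev Λ S).indicator (fun _ => (1 : ℝ)) p.1 * Φ (Y t p) ∂(ν.prod (PL ι)) =
      winW ν Λ S * ∫ g, Φ (shf t S g) ∂(PL ι) := by
  have h1 : ∀ p : (ι → Bool) × (ι → ℝ), (wev Λ S).indicator (fun _ => (1 : ℝ)) p.1 * Φ (Y t p) =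
      (wev Λ S).indicator (fun _ => (1 : ℝ)) p.1 * Φ (shf t S p.2) := by
    intro p
    by_cases hp : p.1 ∈ wev Λ S
    · congr 1
      refine hdep _ _ fun i hi => ?_
      simp only [Y, shf]
      congr 1
      have := hp i hi
      by_cases h : i ∈ S
      · simp [h, this.2 h]
      · have h' : ¬ (p.1 i = true) := fun h'' => h (this.1 h'')
        rw [if_neg h, if_neg h']
    · rw [Set.indicator_of_notMem hp, zero_mul, zero_mul]
  simp_rw [h1]
  rw [integral_prod_mul (fun ω => (wev Λ S).indicator (fun _ => (1 : ℝ)) ω)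
    (fun g => Φ (shf t S g))]
  congr 1
  rw [integral_indicator (measurableSet_wev Λ S)]
  simp [winW_eq, Measure.real]

lemma integrable_bdd {Ω : Type*} [MeasurableSpace Ω] (μ : Measure Ω) [IsFiniteMeasure μ] (f : Ω → ℝ)
    (hf : Measurable f) (M : ℝ) (hM : ∀ x, |f x| ≤ M) : Integrable f μ :=
  Integrable.of_bound hf.aestronglyMeasurable M (Eventually.of_forall hM)

lemma integrable_exp_mul (t : ℝ) (S : Finset ι) (Φ : (ι → ℝ) → ℝ) (hΦ : Measurable Φ) (M : ℝ)
    (hM : ∀ w, |Φ w| ≤ M) :
    Integrable (fun g => Real.exp (∑ i ∈ S, psi t (g i)) * Φ g) (PL ι) := by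
  have hb : ∀ w, |psi t w| ≤ |t| := by
    intro w
    have := abs_psi_sub_le t 0 w w
    simpa [psi_zero] using this
  have hm : Measurable fun g : ι → ℝ => Real.exp (∑ i ∈ S, psi t (g i)) := by
    refine Real.measurable_exp.comp (Finset.measurable_sum _ fun i _ => ?_)
    exact (measurable_psi t).comp (measurable_pi_apply i)
  refine integrable_bdd _ _ (hm.mul hΦ) (Real.exp (S.card * |t|) * M) fun g => ?_
  rw [abs_mul, abs_of_pos (Real.exp_pos _)]
  gcongr
  · calc ∑ i ∈ S, psi t (g i) ≤ ∑ _i ∈ S, |t| :=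
        Finset.sum_le_sum fun i _ => (le_abs_self _).trans (hb _)
      _ = S.card * |t| := by simp
  · exact hM g

/-- master formula: integrate window-dependent observables of the observation process. -/
lemma integral_master (Λ : Finset ι) (t : ℝ) (Φ : Finset ι → (ι → ℝ) → ℝ)
    (hΦ : ∀ S ∈ Λ.powerset, Measurable (Φ S))
    (hdep : ∀ S ∈ Λ.powerset, DepOn Λ (Φ S)) (M : ℝ) (hM : ∀ S ∈ Λ.powerset, ∀ w, |Φ S w| ≤ M) :
    ∫ p, ∑ S ∈ Λ.powerset, (wev Λ S).indicator (fun _ => (1 : ℝ)) p.1 * Φ S (Y t p)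
        ∂(ν.prod (PL ι)) =
      ∫ g, ∑ S ∈ Λ.powerset, winW ν Λ S * (Real.exp (∑ i ∈ S, psi t (g i)) * Φ S g) ∂(PL ι) := by
  rw [integral_finsetSum, integral_finsetSum]
  · refine Finset.sum_congr rfl fun S hS => ?_
    rw [integral_wev ν Λ S t (Φ S) (hdep S hS), integral_shf t S (Φ S) (hΦ S hS),
      integral_const_mul]
  · intro S hS
    exact (integrable_exp_mul t S (Φ S) (hΦ S hS) M (hM S hS)).const_mul _
  · intro S hS
    refine integrable_bdd _ _ ?_ M fun p => ?_
    · refine Measurable.mul ?_ ((hΦ S hS).comp (measurable_Y t))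
      exact (measurable_const.indicator (measurableSet_wev Λ S)).comp measurable_fst
    · rw [abs_mul]
      calc |(wev Λ S).indicator (fun _ => (1 : ℝ)) p.1| * |Φ S (Y t p)| ≤ 1 * M := by
            gcongr
            · by_cases hp : p.1 ∈ wev Λ S
              · rw [Set.indicator_of_mem hp]; simp
              · rw [Set.indicator_of_notMem hp]; simp
            · exact hM S hS _
        _ = M := one_mul M

/-- density formula -/
lemma integral_Y (Λ : Finset ι) (t : ℝ) (Φ : (ι → ℝ) → ℝ) (hΦ : Measurable Φ)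
    (hdep : DepOn Λ Φ) (M : ℝ) (hM : ∀ w, |Φ w| ≤ M) :
    ∫ p, Φ (Y t p) ∂(ν.prod (PL ι)) =
      ∫ g, zf (winW ν Λ) Λ (fun i => psi t (g i)) * Φ g ∂(PL ι) := by
  have h := integral_master ν Λ t (fun _ => Φ) (fun _ _ => hΦ) (fun _ _ => hdep) M (fun _ _ => hM)
  have e1 : ∀ p : (ι → Bool) × (ι → ℝ),
      ∑ S ∈ Λ.powerset, (wev Λ S).indicator (fun _ => (1 : ℝ)) p.1 * Φ (Y t p) = Φ (Y t p) := by
    intro p
    obtain ⟨S, hS, hω⟩ := wev_cover Λ p.1
    rw [← Finset.sum_mul, sum_indicator_wev Λ p.1 (fun _ => 1) S hS hω, one_mul]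
  simp_rw [e1] at h
  rw [h]
  refine integral_congr_ae (Eventually.of_forall fun g => ?_)
  simp only [zf, Finset.sum_mul]
  exact Finset.sum_congr rfl fun S _ => by ring

/-- Bayes formula (tower property) -/
lemma integral_bayes (Λ : Finset ι) (t : ℝ) (v : ι) (hv : v ∈ Λ) (Φ : (ι → ℝ) → ℝ)
    (hΦ : Measurable Φ) (hdep : DepOn Λ Φ) (M : ℝ) (hM : ∀ w, |Φ w| ≤ M) :
    ∫ p, (if p.1 v = true then (1 : ℝ) else 0) * Φ (Y t p) ∂(ν.prod (PL ι)) =
      ∫ p, dr (winW ν Λ) Λ t (Y t p) v * Φ (Y t p) ∂(ν.prod (PL ι)) := by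
  classical
  have hM0 : 0 ≤ M := (abs_nonneg _).trans (hM 0)
  have h := integral_master ν Λ t (fun S w => (if v ∈ S then (1 : ℝ) else 0) * Φ w)
    (fun S _ => hΦ.const_mul _) (fun S _ w w' hw => by simp only [hdep w w' hw]) M
    (fun S _ w => by
      rw [abs_mul]
      split_ifs
      · simpa using hM w
      · simpa using hM0)
  have e1 : ∀ p : (ι → Bool) × (ι → ℝ),
      ∑ S ∈ Λ.powerset, (wev Λ S).indicator (fun _ => (1 : ℝ)) p.1 *
        ((if v ∈ S then (1 : ℝ) else 0) * Φ (Y t p)) =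
      (if p.1 v = true then (1 : ℝ) else 0) * Φ (Y t p) := by
    intro p
    obtain ⟨S, hS, hω⟩ := wev_cover Λ p.1
    have : ∀ T ∈ Λ.powerset, (wev Λ T).indicator (fun _ => (1 : ℝ)) p.1 *
        ((if v ∈ T then (1 : ℝ) else 0) * Φ (Y t p)) =
        (wev Λ T).indicator (fun _ => (if v ∈ T then (1 : ℝ) else 0)) p.1 * Φ (Y t p) := by
      intro T _
      by_cases hp : p.1 ∈ wev Λ T
      · rw [Set.indicator_of_mem hp, Set.indicator_of_mem hp]; ring
      · rw [Set.indicator_of_notMem hp, Set.indicator_of_notMem hp]; ring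
    rw [Finset.sum_congr rfl this, ← Finset.sum_mul,
      sum_indicator_wev Λ p.1 (fun T => if v ∈ T then (1 : ℝ) else 0) S hS hω]
    congr 1
    have := hω v hv
    by_cases h : v ∈ S
    · simp [h, this.2 h]
    · have h' : ¬ (p.1 v = true) := fun h'' => h (this.1 h'')
      rw [if_neg h, if_neg h']
  simp_rw [e1] at h
  rw [h]
  have hdm : Measurable fun w : ι → ℝ => dr (winW ν Λ) Λ t w v * Φ w :=
    (measurable_dr' _ _ _ _).mul hΦ
  rw [integral_Y ν Λ t (fun w => dr (winW ν Λ) Λ t w v * Φ w) hdm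
    (fun w w' hw => by simp only [dr_congr t hw, hdep w w' hw]) M (fun w => ?_)]
  · refine integral_congr_ae (Eventually.of_forall fun g => ?_)
    simp only [dr, mf]
    have hz : zf (winW ν Λ) Λ (fun i => psi t (g i)) ≠ 0 :=
      (zf_pos (fun S _ => winW_nonneg ν Λ S) (winW_sum ν Λ) _).ne'
    rw [← mul_assoc, mul_div_cancel₀ _ hz, Finset.sum_filter, Finset.sum_mul]
    refine Finset.sum_congr rfl fun S _ => ?_
    split_ifs
    · ring
    · ring
  · rw [abs_mul]
    have h0 : 0 ≤ dr (winW ν Λ) Λ t w v := mf_nonneg (fun S _ => winW_nonneg ν Λ S) _ _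
    have h1 : dr (winW ν Λ) Λ t w v ≤ 1 :=
      mf_le_one (fun S _ => winW_nonneg ν Λ S) (winW_sum ν Λ) _ _
    rw [abs_of_nonneg h0]
    calc dr (winW ν Λ) Λ t w v * |Φ w| ≤ 1 * M := by gcongr; exact hM w
      _ = M := one_mul M

end Crest.Agent.Lib.Row168
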