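import Crest.Agent.Lib.Row168.Euler
import Crest.Agent.Lib.Row168.Law

/-!
Reindexing the flow along embeddings, removing null coordinates.
-/

set_option autoImplicit false
open MeasureTheory Filter Topology ProbabilityTheory
open scoped ENNReal

namespace Crest.Agent.Lib.Row168

variable {ι κ : Type*}

section map

variable (e : ι ↪ κ) {q : Finset ι → ℝ} {q' : Finset κ → ℝ} {Λ : Finset ι}

lemma sum_powerset_map (f : Finset κ → ℝ) :
    ∑ S ∈ (Λ.map e).powerset, f S = ∑ S ∈ Λ.powerset, f (S.map e) := by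
  symm
  refine Finset.sum_nbij (fun S => S.map e) ?_ ?_ ?_ ?_
  · intro S hS
    rw [Finset.mem_powerset] at hS ⊢
    exact Finset.map_subset_map.2 hS
  · intro S _ T _ h
    exact Finset.map_injective e h
  · intro T hT
    rw [Finset.mem_coe, Finset.mem_powerset, Finset.subset_map_iff] at hT
    obtain ⟨u, hu, rfl⟩ := hT
    exact ⟨u, Finset.mem_coe.2 (Finset.mem_powerset.2 hu), rfl⟩
  · intro S _
    rfl

lemma zf_map (hq : ∀ S ⊆ Λ, q' (S.map e) = q S) (y : κ → ℝ) :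
    zf q' (Λ.map e) y = zf q Λ (fun i => y (e i)) := by
  unfold zf
  rw [sum_powerset_map]
  refine Finset.sum_congr rfl fun S hS => ?_
  rw [hq S (Finset.mem_powerset.1 hS), Finset.sum_map]

lemma mf_map (hq : ∀ S ⊆ Λ, q' (S.map e) = q S) (y : κ → ℝ) (v : ι) :
    mf q' (Λ.map e) y (e v) = mf q Λ (fun i => y (e i)) v := by
  classical
  unfold mf
  rw [zf_map e hq]
  congr 1
  rw [Finset.sum_filter, Finset.sum_filter, sum_powerset_map]
  refine Finset.sum_congr rfl fun S hS => ?_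
  rw [hq S (Finset.mem_powerset.1 hS), Finset.sum_map]
  simp only [Finset.mem_map']

lemma dr_map (hq : ∀ S ⊆ Λ, q' (S.map e) = q S) (t : ℝ) (w : κ → ℝ) (v : ι) :
    dr q' (Λ.map e) t w (e v) = dr q Λ t (fun i => w (e i)) v :=
  mf_map e hq _ v

lemma eul_map (hq : ∀ S ⊆ Λ, q' (S.map e) = q S) (h : ℝ) (k : ℕ) (g : κ → ℝ) (v : ι) :
    eul q' (Λ.map e) h k g (e v) = eul q Λ h k (fun i => g (e i)) v := by
  induction k generalizing v with
  | zero => rfl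
  | succ k ih =>
    rw [eul_succ, eul_succ, dr_map e hq, ih]
    congr 2
    have : (fun i => eul q' (Λ.map e) h k g (e i)) = eul q Λ h k (fun i => g (e i)) :=
      funext fun i => ih i
    rw [this]

lemma W_map (hq : ∀ S ⊆ Λ, q' (S.map e) = q S) (i k : ℕ) (g : κ → ℝ) (v : ι) :
    W q' (Λ.map e) i k g (e v) = W q Λ i k (fun i => g (e i)) v := by
  unfold W
  congr 1
  ext j
  exact eul_map e hq _ _ g v

end map

section null

variable {q q' : Finset ι → ℝ} {Λ Λ' : Finset ι}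

lemma zf_null (h : Λ ⊆ Λ') (h1 : ∀ S ⊆ Λ, q' S = q S) (h2 : ∀ S ⊆ Λ', ¬ S ⊆ Λ → q' S = 0)
    (y : ι → ℝ) : zf q' Λ' y = zf q Λ y := by
  unfold zf
  rw [← Finset.sum_subset (Finset.powerset_mono.2 h)]
  · refine Finset.sum_congr rfl fun S hS => ?_
    rw [h1 S (Finset.mem_powerset.1 hS)]
  · intro S hS hS'
    rw [Finset.mem_powerset] at hS hS'
    rw [h2 S hS hS', zero_mul]

lemma mf_null (h : Λ ⊆ Λ') (h1 : ∀ S ⊆ Λ, q' S = q S) (h2 : ∀ S ⊆ Λ', ¬ S ⊆ Λ → q' S = 0)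
    (y : ι → ℝ) (v : ι) : mf q' Λ' y v = mf q Λ y v := by
  classical
  unfold mf
  rw [zf_null h h1 h2]
  congr 1
  rw [Finset.sum_filter, Finset.sum_filter, ← Finset.sum_subset (Finset.powerset_mono.2 h)]
  · refine Finset.sum_congr rfl fun S hS => ?_
    rw [h1 S (Finset.mem_powerset.1 hS)]
  · intro S hS hS'
    rw [Finset.mem_powerset] at hS hS'
    rw [h2 S hS hS', zero_mul, ite_self]

lemma dr_null (h : Λ ⊆ Λ') (h1 : ∀ S ⊆ Λ, q' S = q S) (h2 : ∀ S ⊆ Λ', ¬ S ⊆ Λ → q' S = 0)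
    (t : ℝ) (w : ι → ℝ) (v : ι) : dr q' Λ' t w v = dr q Λ t w v := mf_null h h1 h2 _ v

lemma eul_null (h : Λ ⊆ Λ') (h1 : ∀ S ⊆ Λ, q' S = q S) (h2 : ∀ S ⊆ Λ', ¬ S ⊆ Λ → q' S = 0)
    (s : ℝ) (k : ℕ) (g : ι → ℝ) (v : ι) : eul q' Λ' s k g v = eul q Λ s k g v := by
  induction k generalizing v with
  | zero => rfl
  | succ k ih =>
    have : eul q' Λ' s k g = eul q Λ s k g := funext ih
    rw [eul_succ, eul_succ, dr_null h h1 h2, this]

lemma W_null (h : Λ ⊆ Λ') (h1 : ∀ S ⊆ Λ, q' S = q S) (h2 : ∀ S ⊆ Λ', ¬ S ⊆ Λ → q' S = 0)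
    (i k : ℕ) (g : ι → ℝ) (v : ι) : W q' Λ' i k g v = W q Λ i k g v := by
  unfold W
  congr 1
  ext j
  exact eul_null h h1 h2 _ _ g v

end null

/-- window weights when some coordinates are a.s. `false`. -/
lemma winW_null_eq (ν : Measure (ι → Bool)) [IsProbabilityMeasure ν] {Λ Λ' : Finset ι}
    (h : Λ ⊆ Λ') (h0 : ∀ i ∈ Λ', i ∉ Λ → ν {ω | ω i = true} = 0) {S : Finset ι} (hS : S ⊆ Λ) :
    winW ν Λ' S = winW ν Λ S := by
  classical
  rw [winW_eq, winW_eq]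
  congr 1
  refine le_antisymm (measure_mono fun ω hω i hi => hω i (h hi)) ?_
  have hsub : wev Λ S ⊆ wev Λ' S ∪ ⋃ i ∈ Λ' \ Λ, {ω : ι → Bool | ω i = true} := by
    intro ω hω
    by_cases hω' : ω ∈ wev Λ' S
    · exact Or.inl hω'
    · right
      simp only [wev, Set.mem_ofPred_eq, not_forall] at hω'
      obtain ⟨i, hi, hne⟩ := hω'
      have hiΛ : i ∉ Λ := fun hh => hne (hω i hh)
      have hiS : i ∉ S := fun hh => hiΛ (hS hh)
      have : ω i = true := by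
        by_contra hcon
        exact hne ⟨fun hh => absurd hh hcon, fun hh => absurd hh hiS⟩
      simp only [Set.mem_iUnion]
      exact ⟨i, Finset.mem_sdiff.2 ⟨hi, hiΛ⟩, this⟩
  have hz : ν (⋃ i ∈ Λ' \ Λ, {ω : ι → Bool | ω i = true}) = 0 := by
    refine le_antisymm ((measure_biUnion_finset_le _ _).trans (le_of_eq ?_)) bot_le
    refine Finset.sum_eq_zero fun i hi => ?_
    rw [Finset.mem_sdiff] at hi
    exact h0 i hi.1 hi.2
  calc ν (wev Λ S) ≤ ν (wev Λ' S ∪ ⋃ i ∈ Λ' \ Λ, {ω : ι → Bool | ω i = true}) := measure_mono hsub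
    _ ≤ ν (wev Λ' S) + ν (⋃ i ∈ Λ' \ Λ, {ω : ι → Bool | ω i = true}) := measure_union_le _ _
    _ = ν (wev Λ' S) := by rw [hz, add_zero]

lemma winW_null_zero (ν : Measure (ι → Bool)) [IsProbabilityMeasure ν] {Λ Λ' : Finset ι}
    (h0 : ∀ i ∈ Λ', i ∉ Λ → ν {ω | ω i = true} = 0) {S : Finset ι} (hS : S ⊆ Λ')
    (hS' : ¬ S ⊆ Λ) : winW ν Λ' S = 0 := by
  rw [winW_eq]
  obtain ⟨i, hi, hiΛ⟩ := Finset.not_subset.1 hS'
  have : ν (wev Λ' S) = 0 :=
    measure_mono_null (fun ω hω => (hω i (hS hi)).2 hi) (h0 i (hS hi) hiΛ)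
  rw [this]; rfl

/-- the flow does not see coordinates that are a.s. `false`. -/
lemma W_winW_null (ν : Measure (ι → Bool)) [IsProbabilityMeasure ν] {Λ Λ' : Finset ι}
    (h : Λ ⊆ Λ') (h0 : ∀ i ∈ Λ', i ∉ Λ → ν {ω | ω i = true} = 0) (i k : ℕ) (g : ι → ℝ) (v : ι) :
    W (winW ν Λ') Λ' i k g v = W (winW ν Λ) Λ i k g v :=
  W_null h (fun _ hS => winW_null_eq ν h h0 hS) (fun _ hS hS' => winW_null_zero ν h0 hS hS') i k g v

end Crest.Agent.Lib.Row168
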