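import Crest.Agent.Lib.Row168.Cauchy
import Crest.Agent.Lib.Row168.Reindex

/-!
The indicator process and its limit.
-/

set_option autoImplicit false
open MeasureTheory Filter Topology ProbabilityTheory
open scoped ENNReal

namespace Crest.Agent.Lib.Row168

variable {ι : Type*}

/-- the approximate configuration at time `k`. -/
def XX (q : Finset ι → ℝ) (Λ : Finset ι) (k : ℕ) (g : ι → ℝ) (v : ι) : Prop :=
  (k : ℝ) / 2 < W q Λ 0 k g v

lemma measurableSet_XX (Λ : Finset ι) (k : ℕ) (v : ι) :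
    MeasurableSet {p : (Finset ι → ℝ) × (ι → ℝ) | XX p.1 Λ k p.2 v} :=
  measurableSet_lt measurable_const (measurable_W Λ 0 k v)

lemma measurableSet_XX' (q : Finset ι → ℝ) (Λ : Finset ι) (k : ℕ) (v : ι) :
    MeasurableSet {g : ι → ℝ | XX q Λ k g v} :=
  measurableSet_lt measurable_const (measurable_W' q Λ 0 k v)

lemma measurableSet_iff {α : Type*} [MeasurableSpace α] {p q : α → Prop}
    (hp : MeasurableSet {a | p a}) (hq : MeasurableSet {a | q a}) :
    MeasurableSet {a | p a ↔ q a} := by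
  have : {a | p a ↔ q a} = ({a | p a} ∩ {a | q a}) ∪ ({a | p a}ᶜ ∩ {a | q a}ᶜ) := by
    ext a
    simp only [Set.mem_ofPred_eq, Set.mem_union, Set.mem_inter_iff, Set.mem_compl_iff]
    tauto
  rw [this]
  exact (hp.inter hq).union (hp.compl.inter hq.compl)

lemma PL_eval (v : ι) {J : Set ℝ} (hJ : MeasurableSet J) : (PL ι) {g | g v ∈ J} = logis J := by
  have h := Measure.infinitePi_map_eval (fun _ : ι => logis) v
  rw [← h, Measure.map_apply (measurable_pi_apply v) hJ]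
  rfl

variable (ν : Measure (ι → Bool)) [IsProbabilityMeasure ν]

lemma prod_snd (v : ι) {J : Set ℝ} (hJ : MeasurableSet J) :
    (ν.prod (PL ι)) {p | p.2 v ∈ J} = logis J := by
  rw [← PL_eval v hJ]
  have : {p : (ι → Bool) × (ι → ℝ) | p.2 v ∈ J} = Set.univ ×ˢ {g : ι → ℝ | g v ∈ J} := by
    ext p; simp
  rw [this, Measure.prod_prod, measure_univ, one_mul]

/-- one-point law of the flow -/
lemma PL_W_le {C : ℝ} {Λ : Finset ι} (hV : Valid (winW ν Λ) Λ C) (k : ℕ) {v : ι} (hv : v ∈ Λ)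
    {I : Set ℝ} (hI : MeasurableSet I) :
    (PL ι) {g | W (winW ν Λ) Λ 0 k g v ∈ I} ≤ logis I + logis {x | x + k ∈ I} := by
  have hI' : MeasurableSet {x : ℝ | x + k ∈ I} := (measurable_id.add_const _) hI
  have h1 := measure_W_eq ν Λ hV 0 k (A := {w : ι → ℝ | w v ∈ I}) ((measurable_pi_apply v) hI)
    (fun w w' hw => by simp only [Set.mem_ofPred_eq, hw v hv])
  simp only [Set.mem_ofPred_eq, pow_zero, mul_one] at h1
  rw [h1, ← prod_snd ν v hI, ← prod_snd ν v hI']
  refine le_trans (measure_mono ?_) (measure_union_le _ _)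
  intro p hp
  simp only [Set.mem_ofPred_eq, Y] at hp
  by_cases h : p.1 v = true
  · right
    simpa [h] using hp
  · left
    simpa [h] using hp

lemma PL_W_near {C : ℝ} {Λ : Finset ι} (hV : Valid (winW ν Λ) Λ C) (k : ℕ) {v : ι} (hv : v ∈ Λ)
    {δ : ℝ} (hδ : 0 ≤ δ) :
    (PL ι) {g | |W (winW ν Λ) Λ 0 k g v - k / 2| ≤ δ} ≤ ENNReal.ofReal (2 * δ) := by
  have h1 := PL_W_le ν hV k hv (I := Set.Icc ((k : ℝ) / 2 - δ) ((k : ℝ) / 2 + δ)) measurableSet_Icc
  have e1 : {g : ι → ℝ | |W (winW ν Λ) Λ 0 k g v - k / 2| ≤ δ} =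
      {g | W (winW ν Λ) Λ 0 k g v ∈ Set.Icc ((k : ℝ) / 2 - δ) ((k : ℝ) / 2 + δ)} := by
    ext g
    simp only [Set.mem_ofPred_eq, Set.mem_Icc, abs_le]
    constructor <;> rintro ⟨h1, h2⟩ <;> constructor <;> linarith
  have e2 : {x : ℝ | x + k ∈ Set.Icc ((k : ℝ) / 2 - δ) ((k : ℝ) / 2 + δ)} =
      Set.Icc (-(k : ℝ) / 2 - δ) (-(k : ℝ) / 2 + δ) := by
    ext g
    simp only [Set.mem_ofPred_eq, Set.mem_Icc]
    constructor <;> rintro ⟨h1, h2⟩ <;> constructor <;> linarith
  rw [e1]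
  refine h1.trans ?_
  rw [e2, two_mul, ENNReal.ofReal_add hδ hδ]
  exact add_le_add (logis_interval_le _ _ hδ) (logis_interval_le _ _ hδ)

/-- constants for the tail -/
noncomputable def rT : ℝ := Real.exp (-(1 / 2))

lemma rT_pos : 0 < rT := Real.exp_pos _
lemma rT_lt_one : rT < 1 := by
  unfold rT
  rw [Real.exp_lt_one_iff]
  norm_num

lemma rT_pow (k : ℕ) : rT ^ k = Real.exp (-((k : ℝ) / 2)) := by
  unfold rT
  rw [← Real.exp_nat_mul]
  congr 1
  ring

lemma PL_W_tail {C : ℝ} {Λ : Finset ι} (hV : Valid (winW ν Λ) Λ C) (k : ℕ) {v : ι} (hv : v ∈ Λ) :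
    (PL ι) {g | |W (winW ν Λ) Λ 0 k g v - k / 2| ≤ 1 / 2} ≤
      ENNReal.ofReal (4 * Real.exp (1 / 2) * rT ^ k) := by
  rcases Nat.eq_zero_or_pos k with rfl | hk
  · refine prob_le_one.trans ?_
    rw [ENNReal.one_le_ofReal]
    have : (1 : ℝ) ≤ Real.exp (1 / 2) := Real.one_le_exp (by norm_num)
    simp
    linarith
  have hk1 : (1 : ℝ) ≤ k := by exact_mod_cast hk
  have h0 : (0 : ℝ) ≤ (k : ℝ) / 2 - 1 / 2 := by linarith
  have h1 := PL_W_le ν hV k hv (I := Set.Icc ((k : ℝ) / 2 - 1 / 2) ((k : ℝ) / 2 + 1 / 2))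
    measurableSet_Icc
  have e1 : {g : ι → ℝ | |W (winW ν Λ) Λ 0 k g v - k / 2| ≤ 1 / 2} =
      {g | W (winW ν Λ) Λ 0 k g v ∈ Set.Icc ((k : ℝ) / 2 - 1 / 2) ((k : ℝ) / 2 + 1 / 2)} := by
    ext g
    simp only [Set.mem_ofPred_eq, Set.mem_Icc, abs_le]
    constructor <;> rintro ⟨h1, h2⟩ <;> constructor <;> linarith
  rw [e1]
  refine h1.trans ?_
  have t := logis_tail_le _ h0
  have b1 : logis (Set.Icc ((k : ℝ) / 2 - 1 / 2) ((k : ℝ) / 2 + 1 / 2)) ≤
      ENNReal.ofReal (2 * Real.exp (-((k : ℝ) / 2 - 1 / 2))) := by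
    refine le_trans (measure_mono ?_) t
    intro x hx
    simp only [Set.mem_ofPred_eq]
    exact hx.1.trans (le_abs_self x)
  have b2 : logis {x : ℝ | x + k ∈ Set.Icc ((k : ℝ) / 2 - 1 / 2) ((k : ℝ) / 2 + 1 / 2)} ≤
      ENNReal.ofReal (2 * Real.exp (-((k : ℝ) / 2 - 1 / 2))) := by
    refine le_trans (measure_mono ?_) t
    intro x hx
    simp only [Set.mem_ofPred_eq, Set.mem_Icc] at hx ⊢
    have := neg_le_abs x
    linarith [hx.2]
  refine (add_le_add b1 b2).trans ?_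
  rw [← ENNReal.ofReal_add (by positivity) (by positivity)]
  refine ENNReal.ofReal_le_ofReal (le_of_eq ?_)
  rw [rT_pow, mul_assoc, ← Real.exp_add]
  rw [show (1 / 2 + -((k : ℝ) / 2)) = -((k : ℝ) / 2 - 1 / 2) by ring]
  ring

/-- (MT''): the indicator process is Cauchy in probability in the window. -/
theorem XX_cauchy {C : ℝ} (hG : Good ν C) (k : ℕ) (u : ι) {δ : ℝ} (hδ : 0 < δ) :
    ∃ Λ₀ : Finset ι, u ∈ Λ₀ ∧ ∀ Λ Λ' : Finset ι, Λ₀ ⊆ Λ → Λ₀ ⊆ Λ' →
      (PL ι) {g | ¬ (XX (winW ν Λ) Λ k g u ↔ XX (winW ν Λ') Λ' k g u)} ≤ ENNReal.ofReal δ := by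
  set δ' : ℝ := δ / 4 with hδ'
  have hδ'0 : 0 < δ' := by positivity
  obtain ⟨Λ₀, h1, h2⟩ := W_cauchy hG k {u} (δ := δ' * (δ / 2)) (by positivity)
  have hu : u ∈ Λ₀ := h1 (Finset.mem_singleton_self u)
  refine ⟨Λ₀, hu, fun Λ Λ' hΛ hΛ' => ?_⟩
  have h3 := h2 Λ Λ' hΛ hΛ' u (Finset.mem_singleton_self u)
  set a := fun g => W (winW ν Λ) Λ 0 k g u with ha
  set b := fun g => W (winW ν Λ') Λ' 0 k g u with hb
  have ham : Measurable a := measurable_W' _ _ _ _ _
  have hbm : Measurable b := measurable_W' _ _ _ _ _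
  have hsub : {g : ι → ℝ | ¬ (XX (winW ν Λ) Λ k g u ↔ XX (winW ν Λ') Λ' k g u)} ⊆
      {g | |a g - k / 2| ≤ δ'} ∪ {g | δ' ≤ |a g - b g|} := by
    intro g hg
    simp only [Set.mem_ofPred_eq, XX] at hg
    change ¬ ((k : ℝ) / 2 < a g ↔ (k : ℝ) / 2 < b g) at hg
    by_contra hcon
    simp only [Set.mem_union, Set.mem_ofPred_eq, not_or, not_le] at hcon
    obtain ⟨c1, c2⟩ := hcon
    rw [abs_lt] at c2
    rw [lt_abs] at c1
    apply hg
    constructor
    · intro h
      rcases c1 with c1 | c1 <;> linarith [c2.1, c2.2]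
    · intro h
      rcases c1 with c1 | c1 <;> linarith [c2.1, c2.2]
  refine (measure_mono hsub).trans ((measure_union_le _ _).trans ?_)
  have b1 := PL_W_near ν (hG Λ) k (hΛ hu) hδ'0.le
  have hint : Integrable (fun g => |a g - b g|) (PL ι) := by
    have hb0 : ∀ g, |a g - b g| ≤ k := by
      intro g
      have hbd : ∀ (n : ℕ) (Λ : Finset ι), g u ≤ W (winW ν Λ) Λ 0 n g u ∧
          W (winW ν Λ) Λ 0 n g u ≤ g u + n := by
        intro n Λ
        induction n with
        | zero => rw [(hG Λ).W_zero]; simp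
        | succ n ih =>
          have := (hG Λ).W_succ_sub 0 n g u
          rw [pow_zero] at this
          push_cast
          constructor <;> linarith [this.1, this.2, ih.1, ih.2]
      have := hbd k Λ
      have := hbd k Λ'
      simp only [ha, hb]
      rw [abs_le]
      constructor <;> linarith [(hbd k Λ).1, (hbd k Λ).2, (hbd k Λ').1, (hbd k Λ').2]
    exact integrable_bdd _ _ (ham.sub hbm).norm k fun g => by
      rw [abs_abs]; exact hb0 g
  have b2 : (PL ι) {g | δ' ≤ |a g - b g|} ≤ ENNReal.ofReal (δ / 2) := by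
    have hm := mul_meas_ge_le_integral_of_nonneg (μ := PL ι)
      (Eventually.of_forall fun g => abs_nonneg (a g - b g)) hint δ'
    have h4 : δ' * (PL ι).real {g | δ' ≤ |a g - b g|} ≤ δ' * (δ / 2) := hm.trans h3
    have h5 := le_of_mul_le_mul_left h4 hδ'0
    rw [← ENNReal.ofReal_toReal (measure_ne_top (PL ι) {g | δ' ≤ |a g - b g|})]
    exact ENNReal.ofReal_le_ofReal h5
  refine (add_le_add b1 b2).trans ?_
  rw [← ENNReal.ofReal_add (by positivity) (by positivity)]
  exact ENNReal.ofReal_le_ofReal (by rw [hδ']; linarith)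

/-- one time step changes the indicator only with exponentially small probability. -/
lemma XX_step {C : ℝ} {Λ : Finset ι} (hV : Valid (winW ν Λ) Λ C) (k : ℕ) {v : ι} (hv : v ∈ Λ) :
    (PL ι) {g | ¬ (XX (winW ν Λ) Λ k g v ↔ XX (winW ν Λ) Λ (k + 1) g v)} ≤
      ENNReal.ofReal (4 * Real.exp (1 / 2) * rT ^ k) := by
  refine le_trans (measure_mono ?_) (PL_W_tail ν hV k hv)
  intro g hg
  simp only [Set.mem_ofPred_eq, XX] at hg ⊢
  have h := hV.W_succ_sub 0 k g v
  rw [pow_zero] at h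
  push_cast at hg
  rw [abs_le]
  by_contra hcon
  apply hg
  rw [not_and_or, not_le, not_le] at hcon
  constructor
  · intro h1
    rcases hcon with c | c <;> linarith [h.1, h.2]
  · intro h1
    rcases hcon with c | c <;> linarith [h.1, h.2]

/-- bounds for the increments -/
noncomputable def bT (k : ℕ) : ℝ := (1 / 2) ^ k + 4 * Real.exp (1 / 2) * rT ^ k + (1 / 2) ^ (k + 1)

lemma bT_nonneg (k : ℕ) : 0 ≤ bT k := by
  have := rT_pos
  unfold bT; positivity

lemma summable_bT : Summable bT := by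
  unfold bT
  refine Summable.add (Summable.add ?_ ?_) ?_
  · exact summable_geometric_of_lt_one (by norm_num) (by norm_num)
  · exact (summable_geometric_of_lt_one rT_pos.le rT_lt_one).mul_left _
  · exact (summable_nat_add_iff 1).2 (summable_geometric_of_lt_one (by norm_num) (by norm_num))

/-- the tail sums -/
noncomputable def tT (n : ℕ) : ℝ≥0∞ := ∑' k, ENNReal.ofReal (bT (k + n))

lemma tendsto_tT : Tendsto tT atTop (𝓝 0) :=
  ENNReal.tendsto_sum_nat_add (fun k => ENNReal.ofReal (bT k))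
    (by rw [← ENNReal.ofReal_tsum_of_nonneg bT_nonneg summable_bT]; exact ENNReal.ofReal_ne_top)

/-- The windows `Λ k` are good for the site `v`. -/
def WinGood (Λ : ℕ → Finset ι) (v : ι) : Prop :=
  ∀ k, v ∈ Λ k ∧ ∀ Λ' : Finset ι, Λ k ⊆ Λ' →
    (PL ι) {g | ¬ (XX (winW ν (Λ k)) (Λ k) k g v ↔ XX (winW ν Λ') Λ' k g v)} ≤
      ENNReal.ofReal ((1 / 2) ^ k)

/-- the limiting value at a site -/
def Lim (Λ : ℕ → Finset ι) (g : ι → ℝ) (v : ι) : Prop :=
  ∃ᶠ k in atTop, XX (winW ν (Λ k)) (Λ k) k g v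

omit [IsProbabilityMeasure ν] in
lemma measurableSet_Lim (Λ : ℕ → Finset ι) (v : ι) :
    MeasurableSet {g : ι → ℝ | Lim ν Λ g v} := by
  have : {g : ι → ℝ | Lim ν Λ g v} =
      ⋂ n : ℕ, ⋃ k : ℕ, ⋃ (_ : n ≤ k), {g | XX (winW ν (Λ k)) (Λ k) k g v} := by
    ext g
    simp only [Lim, Set.mem_ofPred_eq, frequently_atTop, Set.mem_iInter, Set.mem_iUnion,
      exists_prop]
  rw [this]
  exact MeasurableSet.iInter fun n => MeasurableSet.iUnion fun k => MeasurableSet.iUnion fun _ =>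
    measurableSet_XX' _ _ _ _

lemma measure_step_le {C : ℝ} (hG : Good ν C) {Λ : ℕ → Finset ι} {v : ι} (hΛ : WinGood ν Λ v)
    (k : ℕ) :
    (PL ι) {g | ¬ (XX (winW ν (Λ k)) (Λ k) k g v ↔
      XX (winW ν (Λ (k + 1))) (Λ (k + 1)) (k + 1) g v)} ≤ ENNReal.ofReal (bT k) := by
  classical
  set Λ' := Λ k ∪ Λ (k + 1) with hΛ'
  have h1 := (hΛ k).2 Λ' Finset.subset_union_left
  have h2 := (hΛ (k + 1)).2 Λ' Finset.subset_union_right
  have h3 := XX_step ν (hG Λ') k (v := v) (Finset.mem_union_left _ (hΛ k).1)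
  have hsub : {g | ¬ (XX (winW ν (Λ k)) (Λ k) k g v ↔
      XX (winW ν (Λ (k + 1))) (Λ (k + 1)) (k + 1) g v)} ⊆
      ({g | ¬ (XX (winW ν (Λ k)) (Λ k) k g v ↔ XX (winW ν Λ') Λ' k g v)} ∪
      {g | ¬ (XX (winW ν Λ') Λ' k g v ↔ XX (winW ν Λ') Λ' (k + 1) g v)}) ∪
      {g | ¬ (XX (winW ν (Λ (k + 1))) (Λ (k + 1)) (k + 1) g v ↔
        XX (winW ν Λ') Λ' (k + 1) g v)} := by
    intro g hg
    simp only [Set.mem_ofPred_eq, Set.mem_union] at hg ⊢
    tauto
  refine (measure_mono hsub).trans ((measure_union_le _ _).trans ?_)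
  refine (add_le_add ((measure_union_le _ _).trans (add_le_add h1 h3)) h2).trans ?_
  have := rT_pos
  rw [← ENNReal.ofReal_add (by positivity) (by positivity),
    ← ENNReal.ofReal_add (by positivity) (by positivity)]
  exact le_of_eq rfl

lemma measure_Lim_ne {C : ℝ} (hG : Good ν C) {Λ : ℕ → Finset ι} {v : ι} (hΛ : WinGood ν Λ v)
    (n : ℕ) :
    (PL ι) {g | ¬ (Lim ν Λ g v ↔ XX (winW ν (Λ n)) (Λ n) n g v)} ≤ tT n := by
  have hsub : {g | ¬ (Lim ν Λ g v ↔ XX (winW ν (Λ n)) (Λ n) n g v)} ⊆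
      ⋃ k : ℕ, {g | ¬ (XX (winW ν (Λ (k + n))) (Λ (k + n)) (k + n) g v ↔
      XX (winW ν (Λ (k + n + 1))) (Λ (k + n + 1)) (k + n + 1) g v)} := by
    intro g hg
    by_contra hcon
    simp only [Set.mem_iUnion, Set.mem_ofPred_eq, not_exists, not_not] at hcon
    have hall : ∀ k, (XX (winW ν (Λ (k + n))) (Λ (k + n)) (k + n) g v ↔
        XX (winW ν (Λ n)) (Λ n) n g v) := by
      intro k
      induction k with
      | zero => rw [zero_add]
      | succ k ih =>
        rw [show k + 1 + n = k + n + 1 by ring, ← hcon k, ih]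
    apply hg
    constructor
    · intro h
      obtain ⟨k, hk, hX⟩ := (frequently_atTop.1 h) n
      have := hall (k - n)
      rw [Nat.sub_add_cancel hk] at this
      exact this.1 hX
    · intro h
      refine frequently_atTop.2 fun m => ⟨m + n, Nat.le_add_right _ _, (hall m).2 h⟩
  refine (measure_mono hsub).trans ((measure_iUnion_le _).trans ?_)
  exact ENNReal.tsum_le_tsum fun k => measure_step_le ν hG hΛ (k + n)

/-- measure comparison -/
lemma measure_le_add {α : Type*} [MeasurableSpace α] (μ : Measure α) {A B D : Set α}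
    (h : A ⊆ B ∪ D) : μ A ≤ μ B + μ D := (measure_mono h).trans (measure_union_le _ _)

/-- The law of the limit. -/
theorem Lim_law {C : ℝ} (hG : Good ν C) (Λ : ι → ℕ → Finset ι) (B : Finset ι)
    (hΛ : ∀ v ∈ B, WinGood ν (Λ v) v) (S : Finset ι) :
    (PL ι) {g | ∀ v ∈ B, (Lim ν (Λ v) g v ↔ v ∈ S)} = ν (wev B S) := by
  classical
  set A := {g : ι → ℝ | ∀ v ∈ B, (Lim ν (Λ v) g v ↔ v ∈ S)} with hA
  -- error bound
  set er : ℕ → ℝ≥0∞ := fun k => B.card * (tT k + ENNReal.ofReal ((1 / 2) ^ k)) +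
    B.card * ENNReal.ofReal (2 * rT ^ k) with her
  have her0 : Tendsto er atTop (𝓝 0) := by
    have h1 : Tendsto (fun k : ℕ => tT k + ENNReal.ofReal ((1 / 2) ^ k)) atTop (𝓝 (0 + 0)) := by
      refine tendsto_tT.add ?_
      have := ENNReal.tendsto_ofReal (tendsto_pow_atTop_nhds_zero_of_lt_one (r := (1 / 2 : ℝ))
        (by norm_num) (by norm_num))
      simpa using this
    have h2 : Tendsto (fun k : ℕ => ENNReal.ofReal (2 * rT ^ k)) atTop (𝓝 0) := by
      have := ENNReal.tendsto_ofReal ((tendsto_pow_atTop_nhds_zero_of_lt_one (r := rT)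
        rT_pos.le rT_lt_one).const_mul 2)
      simpa using this
    have h3 := (ENNReal.Tendsto.const_mul (a := (B.card : ℝ≥0∞)) h1
      (Or.inr (ENNReal.natCast_ne_top _))).add
      (ENNReal.Tendsto.const_mul (a := (B.card : ℝ≥0∞)) h2 (Or.inr (ENNReal.natCast_ne_top _)))
    rw [add_zero, mul_zero, add_zero] at h3
    exact h3
  have hmain : ∀ k, (PL ι) A ≤ ν (wev B S) + er k ∧ ν (wev B S) ≤ (PL ι) A + er k := by
    intro k
    set Λ' : Finset ι := B.biUnion fun v => Λ v k with hΛ'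
    have hsubΛ : ∀ v ∈ B, Λ v k ⊆ Λ' := fun v hv => Finset.subset_biUnion_of_mem (fun v => Λ v k) hv
    have hBΛ : B ⊆ Λ' := fun v hv => hsubΛ v hv ((hΛ v hv k).1)
    set A1 := {g : ι → ℝ | ∀ v ∈ B, (XX (winW ν Λ') Λ' k g v ↔ v ∈ S)} with hA1
    set D1 : Set (ι → ℝ) := ⋃ v ∈ B, ({g | ¬ (Lim ν (Λ v) g v ↔ XX (winW ν (Λ v k)) (Λ v k) k g v)} ∪
      {g | ¬ (XX (winW ν (Λ v k)) (Λ v k) k g v ↔ XX (winW ν Λ') Λ' k g v)}) with hD1
    have hD1m : (PL ι) D1 ≤ B.card * (tT k + ENNReal.ofReal ((1 / 2) ^ k)) := by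
      refine (measure_biUnion_finset_le _ _).trans ?_
      rw [← nsmul_eq_mul, ← Finset.sum_const]
      refine Finset.sum_le_sum fun v hv => ?_
      exact (measure_union_le _ _).trans (add_le_add (measure_Lim_ne ν hG (hΛ v hv) k)
        ((hΛ v hv k).2 Λ' (hsubΛ v hv)))
    have hnotD1 : ∀ g ∉ D1, ∀ v ∈ B, (Lim ν (Λ v) g v ↔ XX (winW ν Λ') Λ' k g v) := by
      intro g hg v hv
      simp only [hD1, Set.mem_iUnion, Set.mem_union, Set.mem_ofPred_eq, not_exists, not_or,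
        not_not] at hg
      have := hg v hv
      tauto
    have hAA1 : A ⊆ A1 ∪ D1 := by
      intro g hg
      by_cases hD : g ∈ D1
      · exact Or.inr hD
      · left
        intro v hv
        rw [← hnotD1 g hD v hv]
        exact hg v hv
    have hA1A : A1 ⊆ A ∪ D1 := by
      intro g hg
      by_cases hD : g ∈ D1
      · exact Or.inr hD
      · left
        intro v hv
        rw [hnotD1 g hD v hv]
        exact hg v hv
    -- the law identity
    set A2 := {p : (ι → Bool) × (ι → ℝ) | ∀ v ∈ B, ((k : ℝ) / 2 < Y k p v ↔ v ∈ S)} with hA2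
    have hA1m : (PL ι) A1 = (ν.prod (PL ι)) A2 := by
      have hms : MeasurableSet {w : ι → ℝ | ∀ v ∈ B, ((k : ℝ) / 2 < w v ↔ v ∈ S)} := by
        have : {w : ι → ℝ | ∀ v ∈ B, ((k : ℝ) / 2 < w v ↔ v ∈ S)} =
            ⋂ v ∈ B, {w : ι → ℝ | ((k : ℝ) / 2 < w v ↔ v ∈ S)} := by
          ext w; simp
        rw [this]
        refine Finset.measurableSet_biInter _ fun v _ => ?_
        exact measurableSet_iff (measurableSet_lt measurable_const (measurable_pi_apply v))
          (MeasurableSet.const _)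
      have h1 := measure_W_eq ν Λ' (hG Λ') 0 k
        (A := {w : ι → ℝ | ∀ v ∈ B, ((k : ℝ) / 2 < w v ↔ v ∈ S)}) hms (by
          intro w w' hw
          simp only [Set.mem_ofPred_eq]
          refine forall₂_congr fun v hv => ?_
          rw [hw v (hBΛ hv)])
      simp only [Set.mem_ofPred_eq, pow_zero, mul_one] at h1
      exact h1
    set A3 := {p : (ι → Bool) × (ι → ℝ) | ∀ v ∈ B, (p.1 v = true ↔ v ∈ S)} with hA3
    have hA3m : (ν.prod (PL ι)) A3 = ν (wev B S) := by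
      have : A3 = (wev B S) ×ˢ Set.univ := by
        ext p; simp [hA3, wev]
      rw [this, Measure.prod_prod, measure_univ, mul_one]
    set D2 : Set ((ι → Bool) × (ι → ℝ)) := ⋃ v ∈ B, {p | p.2 v ∈ {x : ℝ | (k : ℝ) / 2 ≤ |x|}} with hD2
    have hmsJ : MeasurableSet {x : ℝ | (k : ℝ) / 2 ≤ |x|} :=
      measurableSet_le measurable_const measurable_norm
    have hD2m : (ν.prod (PL ι)) D2 ≤ B.card * ENNReal.ofReal (2 * rT ^ k) := by
      refine (measure_biUnion_finset_le _ _).trans ?_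
      rw [← nsmul_eq_mul, ← Finset.sum_const]
      refine Finset.sum_le_sum fun v hv => ?_
      rw [prod_snd ν v hmsJ, rT_pow]
      exact logis_tail_le _ (by positivity)
    have hnotD2 : ∀ p ∉ D2, ∀ v ∈ B, ((k : ℝ) / 2 < Y k p v ↔ p.1 v = true) := by
      intro p hp v hv
      simp only [hD2, Set.mem_iUnion, Set.mem_ofPred_eq, not_exists, not_le] at hp
      have h := hp v hv
      rw [abs_lt] at h
      unfold Y
      by_cases hb : p.1 v = true
      · rw [if_pos hb]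
        exact ⟨fun _ => hb, fun _ => by linarith [h.1]⟩
      · rw [if_neg hb, add_zero]
        exact ⟨fun h' => by linarith [h.2], fun h' => absurd h' hb⟩
    have hA2A3 : A2 ⊆ A3 ∪ D2 := by
      intro p hp
      by_cases hD : p ∈ D2
      · exact Or.inr hD
      · left
        intro v hv
        rw [← hnotD2 p hD v hv]
        exact hp v hv
    have hA3A2 : A3 ⊆ A2 ∪ D2 := by
      intro p hp
      by_cases hD : p ∈ D2
      · exact Or.inr hD
      · left
        intro v hv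
        rw [hnotD2 p hD v hv]
        exact hp v hv
    constructor
    · calc (PL ι) A ≤ (PL ι) A1 + (PL ι) D1 := measure_le_add _ hAA1
        _ ≤ (ν.prod (PL ι)) A2 + (B.card * (tT k + ENNReal.ofReal ((1 / 2) ^ k))) := by
            rw [hA1m]; exact add_le_add le_rfl hD1m
        _ ≤ ((ν.prod (PL ι)) A3 + (ν.prod (PL ι)) D2) +
            (B.card * (tT k + ENNReal.ofReal ((1 / 2) ^ k))) := by
            gcongr; exact measure_le_add _ hA2A3
        _ ≤ (ν (wev B S) + B.card * ENNReal.ofReal (2 * rT ^ k)) +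
            (B.card * (tT k + ENNReal.ofReal ((1 / 2) ^ k))) := by
            rw [hA3m]; gcongr
        _ = ν (wev B S) + er k := by rw [her]; ring
    · calc ν (wev B S) = (ν.prod (PL ι)) A3 := hA3m.symm
        _ ≤ (ν.prod (PL ι)) A2 + (ν.prod (PL ι)) D2 := measure_le_add _ hA3A2
        _ ≤ (PL ι) A1 + B.card * ENNReal.ofReal (2 * rT ^ k) := by
            rw [hA1m]; exact add_le_add le_rfl hD2m
        _ ≤ ((PL ι) A + (PL ι) D1) + B.card * ENNReal.ofReal (2 * rT ^ k) := by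
            gcongr; exact measure_le_add _ hA1A
        _ ≤ ((PL ι) A + B.card * (tT k + ENNReal.ofReal ((1 / 2) ^ k))) +
            B.card * ENNReal.ofReal (2 * rT ^ k) := by gcongr
        _ = (PL ι) A + er k := by rw [her]; ring
  refine le_antisymm ?_ ?_
  · have h1 : Tendsto (fun k => ν (wev B S) + er k) atTop (𝓝 (ν (wev B S) + 0)) :=
      tendsto_const_nhds.add her0
    rw [add_zero] at h1
    exact ge_of_tendsto h1 (Eventually.of_forall fun k => (hmain k).1)
  · have h1 : Tendsto (fun k => (PL ι) A + er k) atTop (𝓝 ((PL ι) A + 0)) :=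
      tendsto_const_nhds.add her0
    rw [add_zero] at h1
    exact ge_of_tendsto h1 (Eventually.of_forall fun k => (hmain k).2)

end Crest.Agent.Lib.Row168
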