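import Crest.Agent.Lib.Row168.FusfE

set_option autoImplicit false
open MeasureTheory Filter Topology
open Crest.ProbabilityR Crest.ProbabilityR.SpanningTrees Crest.ProbabilityR.StronglyRayleigh

/-!
Existence of the free uniform spanning forest law with the properties needed for row 168.
-/

namespace Crest.Agent.Lib.Row168

theorem exists_fusf :
    ∃ ν : SimpleGraph ℕ → Measure (Sym2 ℕ → Bool),
      (∀ G, IsProbabilityMeasure (ν G)) ∧
      (∀ G e, e ∉ G.edgeSet → ν G {ω | ω e = true} = 0) ∧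
      (∀ G : SimpleGraph ℕ, G.Connected → ∀ S : ℕ → Finset ℕ, Monotone S → (∀ v : ℕ, ∃ n, v ∈ S n) →
          (∀ n, (G.induce (S n : Set ℕ)).Connected) →
          ∀ F : Finset (Sym2 ℕ), (↑F : Set (Sym2 ℕ)) ⊆ G.edgeSet →
            Tendsto (fun n => ustContains G (S n) F) atTop (𝓝 ((ν G {ω | ∀ e ∈ F, ω e = true}).toReal))) ∧
      (∃ C : ℝ, 0 ≤ C ∧ ∀ (G : SimpleGraph ℕ) (Λ : Finset (Sym2 ℕ)) (y y' : Sym2 ℕ → ℝ) (D : ℝ),
        (∀ i ∈ Λ, |y i - y' i| ≤ D) → ∀ v ∈ Λ,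
          |mf (winW (ν G) Λ) Λ y v - mf (winW (ν G) Λ) Λ y' v| ≤ C * D) ∧
      (∀ Λ S : Finset (Sym2 ℕ), Measurable (fun A : ℕ → ℕ → Bool => winW (ν (GraphTables.graphOfTable A)) Λ S)) ∧
      (∀ (σ : Equiv.Perm ℕ) (G : SimpleGraph ℕ) (Λ S : Finset (Sym2 ℕ)), S ⊆ Λ →
        winW (ν (G.comap ⇑σ)) Λ S = winW (ν G) (Λ.map ⟨Sym2.map ⇑σ, Sym2.map.injective σ.injective⟩)
          (S.map ⟨Sym2.map ⇑σ, Sym2.map.injective σ.injective⟩)) := by
  refine ⟨fusf, fusf_prob, fusf_edge, ?_, ⟨7, by norm_num, fusf_lip⟩, fusf_measurable, ?_⟩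
  · intro G hG S h1 h2 h3 F _
    exact fusf_tendsto G hG S ⟨h1, h2, h3⟩ F
  · intro σ G Λ S _
    exact fusf_equivariant σ G Λ S

end Crest.Agent.Lib.Row168
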