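import Crest.Agent.Lib.Row168.Defs
import Mathlib

set_option autoImplicit false
open MeasureTheory Filter Topology
open Crest.ProbabilityR.SpanningTrees Crest.ProbabilityR.StronglyRayleigh

/-!
Weighted matrix-tree theorem for `IsSpanningTreeOn` (`treeSum_eq_det`), log-Lipschitz edge
probabilities (`treeSum_mem_le`) and monotonicity of avoidance probabilities (`avoid_mono`).
-/

namespace Crest.Agent.Lib.Row168

open Classical

variable {V : Type*}

lemma mem_edgesIn' (G : SimpleGraph V) (S : Finset V) (a b : V) :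
    s(a, b) ∈ edgesIn G S ↔ (a ∈ S ∧ b ∈ S) ∧ G.Adj a b := by
  simp [edgesIn]

/-- weight of the ordered pair. -/
noncomputable def wt (G : SimpleGraph V) (S : Finset V) (z : Sym2 V → ℝ) (a b : V) : ℝ :=
  if s(a, b) ∈ edgesIn G S then z s(a, b) else 0

/-- one row of the Laplacian. -/
noncomputable def rowV (S : Finset V) (r : V) (x : ↥(S.erase r)) (b : V) : ↥(S.erase r) → ℝ :=
  fun y => (if x = y then 1 else 0) - (if b = (y : V) then 1 else 0)

/-- the reduced Laplacian. -/
noncomputable def lap (G : SimpleGraph V) (S : Finset V) (r : V) (z : Sym2 V → ℝ) :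
    Matrix ↥(S.erase r) ↥(S.erase r) ℝ :=
  fun x => ∑ b : ↥S, wt G S z x b • rowV S r x b

lemma det_lap_expand (G : SimpleGraph V) (S : Finset V) (r : V) (z : Sym2 V → ℝ) :
    (lap G S r z).det = ∑ f : ↥(S.erase r) → ↥S, (∏ x : ↥(S.erase r), wt G S z x (f x)) *
      Matrix.det (fun x => rowV S r x (f x) : Matrix ↥(S.erase r) ↥(S.erase r) ℝ) := by
  have h1 : (lap G S r z).det = (Matrix.detRowAlternating (R := ℝ) (n := ↥(S.erase r))).toMultilinearMap
      (fun x => ∑ b : ↥S, wt G S z x b • rowV S r x b) := rfl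
  rw [h1, MultilinearMap.map_sum]
  apply Finset.sum_congr rfl
  intro f _
  rw [MultilinearMap.map_smul_univ]
  rfl

/-- extension of a parent function to all of `V`. -/
noncomputable def stepF (S : Finset V) (r : V) (f : ↥(S.erase r) → ↥S) (x : V) : V :=
  if h : x ∈ S.erase r then (f ⟨x, h⟩ : V) else x

/-- every vertex reaches the root. -/
def Acyc (S : Finset V) (r : V) (f : ↥(S.erase r) → ↥S) : Prop :=
  ∀ x : ↥(S.erase r), ∃ k : ℕ, (stepF S r f)^[k] x = r

lemma reach_step (S : Finset V) (r : V) (f : ↥(S.erase r) → ↥S) (x : ↥(S.erase r)) :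
    (∃ k : ℕ, (stepF S r f)^[k] (x : V) = r) ↔ (∃ k : ℕ, (stepF S r f)^[k] (f x : V) = r) := by
  have hx : stepF S r f (x : V) = f x := by
    unfold stepF
    rw [dif_pos x.2]
  constructor
  · rintro ⟨k, hk⟩
    cases k with
    | zero =>
      exfalso
      exact (Finset.ne_of_mem_erase x.2) hk
    | succ k =>
      refine ⟨k, ?_⟩
      rw [Function.iterate_succ_apply, hx] at hk
      exact hk
  · rintro ⟨k, hk⟩
    refine ⟨k + 1, ?_⟩
    rw [Function.iterate_succ_apply, hx]
    exact hk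

lemma det_not_acyc (S : Finset V) (r : V) (f : ↥(S.erase r) → ↥S) (hf : ¬ Acyc S r f) :
    Matrix.det (fun x => rowV S r x (f x) : Matrix ↥(S.erase r) ↥(S.erase r) ℝ) = 0 := by
  unfold Acyc at hf
  push Not at hf
  obtain ⟨x0, hx0⟩ := hf
  rw [← Matrix.exists_mulVec_eq_zero_iff]
  refine ⟨fun y => if (∃ k : ℕ, (stepF S r f)^[k] (y : V) = r) then 0 else 1, ?_, ?_⟩
  · intro h
    have := congrFun h x0
    simp only [Pi.zero_apply] at this
    rw [if_neg (by push Not; exact hx0)] at this
    exact one_ne_zero this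
  · funext x
    simp only [Matrix.mulVec, dotProduct, rowV, Pi.zero_apply, sub_mul, Finset.sum_sub_distrib,
      ite_mul, one_mul, zero_mul]
    rw [Finset.sum_ite_eq Finset.univ x]
    rw [if_pos (Finset.mem_univ _)]
    by_cases hr : (f x : V) = r
    · -- then x reaches r
      have hreach : ∃ k : ℕ, (stepF S r f)^[k] (x : V) = r := (reach_step S r f x).2 ⟨0, hr⟩
      rw [if_pos hreach]
      rw [Finset.sum_eq_zero]
      · simp
      · intro y _
        rw [if_neg]
        intro h
        exact (Finset.ne_of_mem_erase y.2) (h ▸ hr)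
    · have hmem : (f x : V) ∈ S.erase r := Finset.mem_erase.2 ⟨hr, (f x).2⟩
      have : ∀ y : ↥(S.erase r), ((f x : V) = (y : V)) ↔ (⟨(f x : V), hmem⟩ : ↥(S.erase r)) = y := by
        intro y
        constructor
        · intro h; exact Subtype.ext h
        · intro h; exact congrArg Subtype.val h
      simp only [this]
      rw [Finset.sum_ite_eq Finset.univ (⟨(f x : V), hmem⟩ : ↥(S.erase r)), if_pos (Finset.mem_univ _)]
      simp only [reach_step S r f x]
      simp

lemma det_acyc (S : Finset V) (r : V) (f : ↥(S.erase r) → ↥S) (hf : Acyc S r f) :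
    Matrix.det (fun x => rowV S r x (f x) : Matrix ↥(S.erase r) ↥(S.erase r) ℝ) = 1 := by
  set M : Matrix ↥(S.erase r) ↥(S.erase r) ℝ := fun x => rowV S r x (f x) with hM
  set d : ↥(S.erase r) → ℕ := fun x => Nat.find (hf x) with hd
  have hdlt : ∀ x y : ↥(S.erase r), (f x : V) = y → d y < d x := by
    intro x y hxy
    have h1 : (stepF S r f)^[d x] (x : V) = r := Nat.find_spec (hf x)
    have h2 : d x ≠ 0 := by
      intro h0
      rw [h0] at h1
      exact (Finset.ne_of_mem_erase x.2) h1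
    obtain ⟨k, hk⟩ := Nat.exists_eq_succ_of_ne_zero h2
    rw [hk, Function.iterate_succ_apply] at h1
    have hx : stepF S r f (x : V) = f x := by
      unfold stepF
      rw [dif_pos x.2]
    rw [hx, hxy] at h1
    have : d y ≤ k := Nat.find_min' (hf y) h1
    omega
  have htri : Matrix.BlockTriangular M.transpose d := by
    intro i j hij
    show rowV S r j (f j) i = 0
    unfold rowV
    have h1 : j ≠ i := by rintro rfl; exact lt_irrefl _ hij
    have h2 : ¬ ((f j : V) = (i : V)) := by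
      intro h
      have := hdlt j i h
      omega
    rw [if_neg h1, if_neg h2]
    simp
  rw [← Matrix.det_transpose, htri.det]
  apply Finset.prod_eq_one
  intro a _
  have : M.transpose.toSquareBlock d a = 1 := by
    ext ⟨i, hi⟩ ⟨j, hj⟩
    show rowV S r j (f j) i = _
    unfold rowV
    have h2 : ¬ ((f j : V) = (i : V)) := by
      intro h
      have := hdlt j i h
      omega
    rw [if_neg h2, Matrix.one_apply]
    by_cases h : j = i
    · subst h; simp
    · have h3 : ¬ ((⟨i, hi⟩ : {x // d x = a}) = ⟨j, hj⟩) := by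
        intro h'
        exact h (congrArg Subtype.val h').symm
      rw [if_neg h, if_neg h3]
      simp
  rw [this, Matrix.det_one]

lemma det_lap_eq (G : SimpleGraph V) (S : Finset V) (r : V) (z : Sym2 V → ℝ) :
    (lap G S r z).det = ∑ f : ↥(S.erase r) → ↥S with (Acyc S r f ∧ ∀ x : ↥(S.erase r), s((x : V), (f x : V)) ∈ edgesIn G S),
      ∏ x : ↥(S.erase r), z s((x : V), (f x : V)) := by
  rw [det_lap_expand, Finset.sum_filter]
  apply Finset.sum_congr rfl
  intro f _
  by_cases h1 : Acyc S r f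
  · rw [det_acyc S r f h1, mul_one]
    by_cases h2 : ∀ x : ↥(S.erase r), s((x : V), (f x : V)) ∈ edgesIn G S
    · rw [if_pos ⟨h1, h2⟩]
      apply Finset.prod_congr rfl
      intro x _
      unfold wt
      rw [if_pos (h2 x)]
    · rw [if_neg (fun h => h2 h.2)]
      push Not at h2
      obtain ⟨x, hx⟩ := h2
      apply Finset.prod_eq_zero (Finset.mem_univ x)
      unfold wt
      rw [if_neg hx]
  · rw [det_not_acyc S r f h1, mul_zero, if_neg (fun h => h1 h.1)]

lemma closed_no_reach (S : Finset V) (r : V) (f : ↥(S.erase r) → ↥S) (hf : Acyc S r f)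
    (D : V → Prop) (hD1 : ∀ x, D x → x ∈ S.erase r)
    (hD2 : ∀ x : ↥(S.erase r), D x → D (f x)) (x : V) : ¬ D x := by
  intro hx
  have hall : ∀ k : ℕ, ∀ y, D y → D ((stepF S r f)^[k] y) := by
    intro k
    induction k with
    | zero => intro y hy; exact hy
    | succ k ih =>
      intro y hy
      rw [Function.iterate_succ_apply]
      apply ih
      have hy' := hD1 y hy
      unfold stepF
      rw [dif_pos hy']
      exact hD2 ⟨y, hy'⟩ hy
  obtain ⟨k, hk⟩ := hf ⟨x, hD1 x hx⟩
  have := hall k x hx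
  rw [hk] at this
  exact (Finset.ne_of_mem_erase (hD1 r this)) rfl

lemma no_two_cycle (S : Finset V) (r : V) (f : ↥(S.erase r) → ↥S) (hf : Acyc S r f)
    (x y : ↥(S.erase r)) (h1 : (f x : V) = y) (h2 : (f y : V) = x) : False := by
  refine closed_no_reach S r f hf (fun v => v = (x : V) ∨ v = (y : V)) ?_ ?_ x (Or.inl rfl)
  · rintro v (rfl | rfl)
    · exact x.2
    · exact y.2
  · rintro v (hv | hv)
    · right
      have : v = x := Subtype.ext hv
      rw [this]; exact h1
    · left
      have : v = y := Subtype.ext hv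
      rw [this]; exact h2

lemma edge_inj (S : Finset V) (r : V) (f : ↥(S.erase r) → ↥S) (hf : Acyc S r f) :
    Function.Injective (fun x : ↥(S.erase r) => s((x : V), (f x : V))) := by
  intro x y hxy
  simp only [Sym2.eq_iff] at hxy
  rcases hxy with ⟨h, _⟩ | ⟨h1, h2⟩
  · exact Subtype.ext h
  · exact (no_two_cycle S r f hf x y h2 h1.symm).elim

noncomputable def edgeImg (S : Finset V) (r : V) (f : ↥(S.erase r) → ↥S) : Finset (Sym2 V) :=
  Finset.univ.image (fun x : ↥(S.erase r) => s((x : V), (f x : V)))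

lemma edgeImg_inj (S : Finset V) (r : V) (f g : ↥(S.erase r) → ↥S) (_hf : Acyc S r f) (hg : Acyc S r g)
    (h : edgeImg S r f = edgeImg S r g) : f = g := by
  by_contra hne
  obtain ⟨x0, hx0⟩ := Function.ne_iff.1 hne
  refine closed_no_reach S r g hg (fun v => ∃ hv : v ∈ S.erase r, f ⟨v, hv⟩ ≠ g ⟨v, hv⟩) ?_ ?_ x0
    ⟨x0.2, hx0⟩
  · rintro v ⟨hv, _⟩; exact hv
  · rintro x ⟨hx, hfg⟩
    have hfg' : f x ≠ g x := hfg
    have hmem : s((x : V), (g x : V)) ∈ edgeImg S r f := by
      rw [h]
      exact Finset.mem_image.2 ⟨x, Finset.mem_univ _, rfl⟩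
    obtain ⟨y, _, hy⟩ := Finset.mem_image.1 hmem
    simp only [Sym2.eq_iff] at hy
    rcases hy with ⟨h1, h2⟩ | ⟨h1, h2⟩
    · exfalso
      have : y = x := Subtype.ext h1
      subst this
      exact hfg' (Subtype.ext h2)
    · -- y = g x, f y = x
      have hgy : (g x : V) ∈ S.erase r := h1 ▸ y.2
      refine ⟨hgy, ?_⟩
      have hyy : y = ⟨(g x : V), hgy⟩ := Subtype.ext h1
      rw [← hyy]
      intro hfy
      refine no_two_cycle S r g hg x y ?_ ?_
      · exact h1.symm
      · rw [← hfy]; exact h2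

lemma card_edgeSet_induce (G : SimpleGraph V) (S : Finset V) (A : Finset (Sym2 V))
    (hA : A ⊆ edgesIn G S) :
    Nat.card ((SimpleGraph.fromEdgeSet (A : Set (Sym2 V))).induce (S : Set V)).edgeSet = A.card := by
  have h1 : (Sym2.map (Subtype.val : ↥(S : Set V) → V)) ''
      ((SimpleGraph.fromEdgeSet (A : Set (Sym2 V))).induce (S : Set V)).edgeSet = (A : Set (Sym2 V)) := by
    ext e
    induction e using Sym2.ind with
    | _ a b =>
      constructor
      · rintro ⟨e', he', heq⟩
        induction e' using Sym2.ind with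
        | _ a' b' =>
          rw [SimpleGraph.mem_edgeSet] at he'
          rw [← heq]
          simp only [SimpleGraph.comap_adj, Function.Embedding.subtype_apply, SimpleGraph.fromEdgeSet_adj] at he'
          exact he'.1
      · intro he
        have he2 := hA (Finset.mem_coe.1 he)
        rw [mem_edgesIn'] at he2
        obtain ⟨⟨ha, hb⟩, hadj⟩ := he2
        refine ⟨s(⟨a, ha⟩, ⟨b, hb⟩), ?_, rfl⟩
        rw [SimpleGraph.mem_edgeSet]
        simp only [SimpleGraph.comap_adj, Function.Embedding.subtype_apply, SimpleGraph.fromEdgeSet_adj]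
        exact ⟨he, hadj.ne⟩
  have h2 := Set.ncard_image_of_injective
    ((SimpleGraph.fromEdgeSet (A : Set (Sym2 V))).induce (S : Set V)).edgeSet
    (Sym2.map.injective (Subtype.val_injective (p := fun x => x ∈ (S : Set V))))
  rw [h1, Set.ncard_coe_finset] at h2
  rw [h2]
  rfl

lemma isTree_edgeImg (G : SimpleGraph V) (S : Finset V) (r : V) (hr : r ∈ S)
    (f : ↥(S.erase r) → ↥S) (hf : Acyc S r f)
    (hfe : ∀ x : ↥(S.erase r), s((x : V), (f x : V)) ∈ edgesIn G S) :
    IsSpanningTreeOn G S (edgeImg S r f) := by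
  have hsub : edgeImg S r f ⊆ edgesIn G S := by
    intro e he
    obtain ⟨x, _, rfl⟩ := Finset.mem_image.1 he
    exact hfe x
  refine ⟨hsub, ?_⟩
  rw [SimpleGraph.isTree_iff_connected_and_card]
  constructor
  · have hreach : ∀ k : ℕ, ∀ x : ↥(S : Set V), (stepF S r f)^[k] (x : V) = r →
        ((SimpleGraph.fromEdgeSet (edgeImg S r f : Set (Sym2 V))).induce (S : Set V)).Reachable x ⟨r, hr⟩ := by
      intro k
      induction k with
      | zero =>
        intro x hx
        have : x = ⟨r, hr⟩ := Subtype.ext hx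
        rw [this]
      | succ k ih =>
        intro x hx
        by_cases hxr : (x : V) = r
        · have : x = ⟨r, hr⟩ := Subtype.ext hxr
          rw [this]
        · have hxm : (x : V) ∈ S.erase r := Finset.mem_erase.2 ⟨hxr, x.2⟩
          rw [Function.iterate_succ_apply] at hx
          have hstep : stepF S r f (x : V) = f ⟨x, hxm⟩ := by
            unfold stepF; rw [dif_pos hxm]
          rw [hstep] at hx
          have h3 := ih ⟨f ⟨x, hxm⟩, (f ⟨x, hxm⟩).2⟩ hx
          refine SimpleGraph.Reachable.trans (SimpleGraph.Adj.reachable ?_) h3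
          have h4 := hfe ⟨x, hxm⟩
          rw [mem_edgesIn'] at h4
          simp only [SimpleGraph.comap_adj, Function.Embedding.subtype_apply, SimpleGraph.fromEdgeSet_adj]
          refine ⟨?_, h4.2.ne⟩
          exact Finset.mem_coe.2 (Finset.mem_image.2 ⟨⟨x, hxm⟩, Finset.mem_univ _, rfl⟩)
    have hall : ∀ x : ↥(S : Set V),
        ((SimpleGraph.fromEdgeSet (edgeImg S r f : Set (Sym2 V))).induce (S : Set V)).Reachable x ⟨r, hr⟩ := by
      intro x
      by_cases hxr : (x : V) = r
      · exact hreach 0 x hxr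
      · have hxm : (x : V) ∈ S.erase r := Finset.mem_erase.2 ⟨hxr, x.2⟩
        obtain ⟨k, hk⟩ := hf ⟨x, hxm⟩
        exact hreach k x hk
    have : Nonempty ↥(S : Set V) := ⟨⟨r, hr⟩⟩
    exact SimpleGraph.Connected.mk (fun x y => (hall x).trans (hall y).symm)
  · rw [card_edgeSet_induce G S _ hsub]
    rw [edgeImg, Finset.card_image_of_injective _ (edge_inj S r f hf), Finset.card_univ, Fintype.card_coe,
      Finset.card_erase_of_mem hr]
    have : Nat.card ↥(S : Set V) = S.card := by
      rw [Nat.card_eq_fintype_card]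
      exact Fintype.card_coe S
    rw [this]
    have : 0 < S.card := Finset.card_pos.2 ⟨r, hr⟩
    omega

lemma exists_closer {W : Type*} (H : SimpleGraph W) (hH : H.Connected) (x r : W) (hx : x ≠ r) :
    ∃ y, H.Adj x y ∧ H.dist y r < H.dist x r := by
  obtain ⟨p, hp⟩ := (hH.preconnected x r).exists_walk_length_eq_dist
  cases p with
  | nil => exact absurd rfl hx
  | cons h q =>
    refine ⟨_, h, ?_⟩
    rw [← hp, SimpleGraph.Walk.length_cons]
    exact Nat.lt_succ_of_le (SimpleGraph.dist_le q)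

lemma exists_parent (G : SimpleGraph V) (S : Finset V) (r : V) (hr : r ∈ S) (A : Finset (Sym2 V))
    (hA : IsSpanningTreeOn G S A) :
    ∃ f : ↥(S.erase r) → ↥S, Acyc S r f ∧ (∀ x : ↥(S.erase r), s((x : V), (f x : V)) ∈ edgesIn G S) ∧
      edgeImg S r f = A := by
  obtain ⟨hsub, htree⟩ := hA
  set H := (SimpleGraph.fromEdgeSet (A : Set (Sym2 V))).induce (S : Set V) with hH
  have hconn := htree.connected
  have hcl : ∀ x : ↥(S.erase r), ∃ y : ↥S, H.Adj ⟨x, Finset.mem_of_mem_erase x.2⟩ ⟨y, y.2⟩ ∧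
      H.dist ⟨y, y.2⟩ ⟨r, hr⟩ < H.dist ⟨x, Finset.mem_of_mem_erase x.2⟩ ⟨r, hr⟩ := by
    intro x
    obtain ⟨y, hy1, hy2⟩ := exists_closer H hconn ⟨x, Finset.mem_of_mem_erase x.2⟩ ⟨r, hr⟩
      (fun h => Finset.ne_of_mem_erase x.2 (congrArg Subtype.val h))
    exact ⟨⟨y, y.2⟩, hy1, hy2⟩
  choose f hf1 hf2 using hcl
  have hAe : ∀ x : ↥(S.erase r), s((x : V), (f x : V)) ∈ A := by
    intro x
    have := hf1 x
    simp only [hH, SimpleGraph.comap_adj, Function.Embedding.subtype_apply, SimpleGraph.fromEdgeSet_adj] at this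
    exact this.1
  have hac : Acyc S r f := by
    have key : ∀ n : ℕ, ∀ x : ↥(S.erase r), H.dist ⟨x, Finset.mem_of_mem_erase x.2⟩ ⟨r, hr⟩ ≤ n →
        ∃ k : ℕ, (stepF S r f)^[k] (x : V) = r := by
      intro n
      induction n with
      | zero =>
        intro x hx
        have := hf2 x
        omega
      | succ n ih =>
        intro x hx
        rw [reach_step]
        by_cases hfr : (f x : V) = r
        · exact ⟨0, hfr⟩
        · have hm : (f x : V) ∈ S.erase r := Finset.mem_erase.2 ⟨hfr, (f x).2⟩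
          refine ih ⟨f x, hm⟩ ?_
          have := hf2 x
          show H.dist ⟨f x, _⟩ ⟨r, hr⟩ ≤ n
          omega
    intro x
    exact key _ x le_rfl
  refine ⟨f, hac, fun x => hsub (hAe x), ?_⟩
  apply Finset.eq_of_subset_of_card_le
  · intro e he
    obtain ⟨x, _, rfl⟩ := Finset.mem_image.1 he
    exact hAe x
  · rw [SimpleGraph.isTree_iff_connected_and_card] at htree
    have h1 := htree.2
    rw [card_edgeSet_induce G S _ hsub] at h1
    rw [edgeImg, Finset.card_image_of_injective _ (edge_inj S r f hac), Finset.card_univ, Fintype.card_coe,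
      Finset.card_erase_of_mem hr]
    have h2 : Nat.card ↥(S : Set V) = S.card := by
      rw [Nat.card_eq_fintype_card]
      exact Fintype.card_coe S
    rw [h2] at h1
    omega

lemma treeSum_true (G : SimpleGraph V) (S : Finset V) (z : Sym2 V → ℝ) :
    treeSum G S z (fun _ => True) =
      ∑ A ∈ (edgesIn G S).powerset with IsSpanningTreeOn G S A, ∏ e ∈ A, z e := by
  unfold treeSum
  apply Finset.sum_congr _ (fun _ _ => rfl)
  ext A
  simp

/-- J0: the weighted matrix-tree theorem. -/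
theorem treeSum_eq_det (G : SimpleGraph V) (S : Finset V) (r : V) (hr : r ∈ S) (z : Sym2 V → ℝ) :
    treeSum G S z (fun _ => True) = (lap G S r z).det := by
  rw [det_lap_eq, treeSum_true]
  symm
  refine Finset.sum_bij (fun f _ => edgeImg S r f) ?_ ?_ ?_ ?_
  · intro f hf
    have hf' := (Finset.mem_filter.1 hf).2
    have ht := isTree_edgeImg G S r hr f hf'.1 hf'.2
    exact Finset.mem_filter.2 ⟨Finset.mem_powerset.2 ht.1, ht⟩
  · intro f hf g hg hfg
    exact edgeImg_inj S r f g (Finset.mem_filter.1 hf).2.1 (Finset.mem_filter.1 hg).2.1 hfg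
  · intro A hA
    obtain ⟨f, h1, h2, h3⟩ := exists_parent G S r hr A (Finset.mem_filter.1 hA).2
    exact ⟨f, Finset.mem_filter.2 ⟨Finset.mem_univ _, h1, h2⟩, h3⟩
  · intro f hf
    have hf' := (Finset.mem_filter.1 hf).2
    unfold edgeImg
    rw [Finset.prod_image]
    intro x _ y _ hxy
    exact edge_inj S r f hf'.1 hxy

/-! ### rank one updates and the variational formula -/

section LA
variable {n : Type*} [Fintype n] [DecidableEq n]

lemma det_sub_rank_one (L : Matrix n n ℝ) (hL : IsUnit L.det) (v : n → ℝ) (t : ℝ) :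
    (L - t • Matrix.vecMulVec v v).det = L.det * (1 - t * (v ⬝ᵥ (L⁻¹.mulVec v))) := by
  have h0 : L.mulVec (L⁻¹.mulVec v) = v := by
    rw [Matrix.mulVec_mulVec, Matrix.mul_nonsing_inv L hL, Matrix.one_mulVec]
  have h1 : L - t • Matrix.vecMulVec v v = L * (1 + Matrix.replicateCol Unit (-(t • L⁻¹.mulVec v)) *
      Matrix.replicateRow Unit v) := by
    rw [Matrix.mul_add, Matrix.mul_one, ← Matrix.mul_assoc]
    rw [sub_eq_add_neg]
    congr 1
    ext i j
    rw [Matrix.mul_apply]
    simp only [Finset.univ_unique, Finset.sum_singleton, Matrix.replicateRow_apply]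
    have h2 : (L * Matrix.replicateCol Unit (-(t • L⁻¹.mulVec v))) i default = -(t * v i) := by
      have h3 : (L * Matrix.replicateCol Unit (-(t • L⁻¹.mulVec v))) i default =
          (L.mulVec (-(t • L⁻¹.mulVec v))) i := rfl
      rw [h3, Matrix.mulVec_neg, Matrix.mulVec_smul, h0]
      simp
    rw [h2]
    simp [Matrix.vecMulVec]
    ring
  rw [h1, Matrix.det_mul, Matrix.det_one_add_replicateCol_mul_replicateRow]
  congr 1
  rw [dotProduct_neg, dotProduct_smul, smul_eq_mul]
  ring

lemma q_ge (L : Matrix n n ℝ) (hL : IsUnit L.det) (hsym : L.transpose = L)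
    (hpsd : ∀ φ : n → ℝ, 0 ≤ φ ⬝ᵥ (L.mulVec φ)) (v φ : n → ℝ) :
    2 * (φ ⬝ᵥ v) - φ ⬝ᵥ (L.mulVec φ) ≤ v ⬝ᵥ (L⁻¹.mulVec v) := by
  set φ0 := L⁻¹.mulVec v with hφ0
  have h0 : L.mulVec φ0 = v := by
    rw [hφ0, Matrix.mulVec_mulVec, Matrix.mul_nonsing_inv L hL, Matrix.one_mulVec]
  have h1 := hpsd (φ - φ0)
  rw [Matrix.mulVec_sub, h0, dotProduct_sub, sub_dotProduct, sub_dotProduct] at h1
  have h2 : φ0 ⬝ᵥ (L.mulVec φ) = φ ⬝ᵥ v := by
    rw [Matrix.dotProduct_mulVec, ← Matrix.mulVec_transpose, hsym, h0, dotProduct_comm]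
  rw [h2] at h1
  have h3 : v ⬝ᵥ φ0 = φ0 ⬝ᵥ v := dotProduct_comm _ _
  rw [h3]
  linarith

lemma q_eq (L : Matrix n n ℝ) (hL : IsUnit L.det) (v : n → ℝ) :
    v ⬝ᵥ (L⁻¹.mulVec v) = 2 * ((L⁻¹.mulVec v) ⬝ᵥ v) - (L⁻¹.mulVec v) ⬝ᵥ (L.mulVec (L⁻¹.mulVec v)) := by
  have h0 : L.mulVec (L⁻¹.mulVec v) = v := by
    rw [Matrix.mulVec_mulVec, Matrix.mul_nonsing_inv L hL, Matrix.one_mulVec]
  rw [h0, dotProduct_comm v]
  ring

end LA

/-! ### energies -/

noncomputable def ext0 (S : Finset V) (r : V) (φ : ↥(S.erase r) → ℝ) (x : V) : ℝ :=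
  if h : x ∈ S.erase r then φ ⟨x, h⟩ else 0

noncomputable def En (G : SimpleGraph V) (S : Finset V) (z : Sym2 V → ℝ) (ψ : V → ℝ) : ℝ :=
  ∑ a ∈ S, ∑ b ∈ S, wt G S z a b * (ψ a - ψ b) ^ 2

lemma wt_comm (G : SimpleGraph V) (S : Finset V) (z : Sym2 V → ℝ) (a b : V) :
    wt G S z a b = wt G S z b a := by
  unfold wt; rw [Sym2.eq_swap]

lemma wt_self (G : SimpleGraph V) (S : Finset V) (z : Sym2 V → ℝ) (a : V) :
    wt G S z a a = 0 := by
  unfold wt
  rw [if_neg]
  rw [mem_edgesIn']
  rintro ⟨_, h⟩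
  exact G.loopless.irrefl a h

lemma sum_rowV (S : Finset V) (r : V) (x : ↥(S.erase r)) (b : V) (φ : ↥(S.erase r) → ℝ) :
    ∑ y, rowV S r x b y * φ y = ext0 S r φ x - ext0 S r φ b := by
  unfold rowV
  simp only [sub_mul, Finset.sum_sub_distrib, ite_mul, one_mul, zero_mul]
  rw [Finset.sum_ite_eq Finset.univ x, if_pos (Finset.mem_univ _)]
  have e1 : ext0 S r φ x = φ x := by
    unfold ext0; rw [dif_pos x.2]
  rw [e1]
  congr 1
  by_cases hb : b ∈ S.erase r
  · have : ∀ y : ↥(S.erase r), (b = (y : V)) ↔ (⟨b, hb⟩ : ↥(S.erase r)) = y := by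
      intro y
      constructor
      · intro h; exact Subtype.ext h
      · intro h; exact congrArg Subtype.val h
    simp only [this]
    rw [Finset.sum_ite_eq Finset.univ (⟨b, hb⟩ : ↥(S.erase r)), if_pos (Finset.mem_univ _)]
    unfold ext0; rw [dif_pos hb]
  · unfold ext0
    rw [dif_neg hb]
    apply Finset.sum_eq_zero
    intro y _
    rw [if_neg]
    rintro rfl
    exact hb y.2

lemma lap_mulVec (G : SimpleGraph V) (S : Finset V) (r : V) (z : Sym2 V → ℝ)
    (φ : ↥(S.erase r) → ℝ) (x : ↥(S.erase r)) :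
    (lap G S r z).mulVec φ x = ∑ b ∈ S, wt G S z x b * (ext0 S r φ x - ext0 S r φ b) := by
  simp only [Matrix.mulVec, dotProduct, lap]
  have h1 : ∀ y, (∑ b : ↥S, wt G S z x b • rowV S r x b) y * φ y =
      ∑ b : ↥S, wt G S z x b * (rowV S r x b y * φ y) := by
    intro y
    rw [Finset.sum_apply, Finset.sum_mul]
    apply Finset.sum_congr rfl
    intro b _
    simp only [Pi.smul_apply, smul_eq_mul]
    ring
  simp only [h1]
  rw [Finset.sum_comm]
  rw [← Finset.sum_coe_sort S (fun b => wt G S z x b * (ext0 S r φ x - ext0 S r φ b))]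
  apply Finset.sum_congr rfl
  intro b _
  rw [← Finset.mul_sum, sum_rowV]

lemma ext0_root (S : Finset V) (r : V) (φ : ↥(S.erase r) → ℝ) : ext0 S r φ r = 0 := by
  unfold ext0; rw [dif_neg (Finset.notMem_erase r S)]

lemma ext0_coe (S : Finset V) (r : V) (φ : ↥(S.erase r) → ℝ) (x : ↥(S.erase r)) :
    ext0 S r φ x = φ x := by
  unfold ext0; rw [dif_pos x.2]

lemma sum_erase_ext0 (S : Finset V) (r : V) (hr : r ∈ S) (φ : ↥(S.erase r) → ℝ) (g : V → ℝ) :
    ∑ x : ↥(S.erase r), φ x * g x = ∑ x ∈ S, ext0 S r φ x * g x := by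
  rw [← Finset.add_sum_erase S _ hr, ext0_root, zero_mul, zero_add,
    ← Finset.sum_coe_sort (S.erase r) (fun x => ext0 S r φ x * g x)]
  apply Finset.sum_congr rfl
  intro x _
  rw [ext0_coe]

lemma quad (G : SimpleGraph V) (S : Finset V) (r : V) (hr : r ∈ S) (z : Sym2 V → ℝ)
    (φ : ↥(S.erase r) → ℝ) :
    φ ⬝ᵥ ((lap G S r z).mulVec φ) = (1 / 2) * En G S z (ext0 S r φ) := by
  have h1 : φ ⬝ᵥ ((lap G S r z).mulVec φ) =
      ∑ x ∈ S, ext0 S r φ x * ∑ b ∈ S, wt G S z x b * (ext0 S r φ x - ext0 S r φ b) := by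
    rw [← sum_erase_ext0 S r hr φ (fun x => ∑ b ∈ S, wt G S z x b * (ext0 S r φ x - ext0 S r φ b))]
    simp only [dotProduct]
    apply Finset.sum_congr rfl
    intro x _
    rw [lap_mulVec]
  have h2 : ∑ x ∈ S, ext0 S r φ x * ∑ b ∈ S, wt G S z x b * (ext0 S r φ x - ext0 S r φ b) =
      ∑ x ∈ S, ∑ b ∈ S, wt G S z x b * (ext0 S r φ x * (ext0 S r φ x - ext0 S r φ b)) := by
    apply Finset.sum_congr rfl
    intro x _
    rw [Finset.mul_sum]
    apply Finset.sum_congr rfl
    intro b _
    ring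
  have h3 : ∑ x ∈ S, ∑ b ∈ S, wt G S z x b * (ext0 S r φ x * (ext0 S r φ x - ext0 S r φ b)) =
      ∑ x ∈ S, ∑ b ∈ S, wt G S z x b * (ext0 S r φ b * (ext0 S r φ b - ext0 S r φ x)) := by
    rw [Finset.sum_comm]
    apply Finset.sum_congr rfl
    intro x _
    apply Finset.sum_congr rfl
    intro b _
    rw [wt_comm]
  have h4 : En G S z (ext0 S r φ) =
      ∑ x ∈ S, ∑ b ∈ S, wt G S z x b * (ext0 S r φ x * (ext0 S r φ x - ext0 S r φ b)) +
      ∑ x ∈ S, ∑ b ∈ S, wt G S z x b * (ext0 S r φ b * (ext0 S r φ b - ext0 S r φ x)) := by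
    unfold En
    rw [← Finset.sum_add_distrib]
    apply Finset.sum_congr rfl
    intro x _
    rw [← Finset.sum_add_distrib]
    apply Finset.sum_congr rfl
    intro b _
    ring
  rw [h1, h2, h4, ← h3]
  ring

lemma lap_apply (G : SimpleGraph V) (S : Finset V) (r : V) (z : Sym2 V → ℝ)
    (x y : ↥(S.erase r)) : lap G S r z x y = ∑ b ∈ S, wt G S z x b *
      ((if x = y then 1 else 0) - (if b = (y : V) then 1 else 0)) := by
  unfold lap
  rw [Finset.sum_apply, ← Finset.sum_coe_sort S (fun b => wt G S z x b *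
      ((if x = y then 1 else 0) - (if b = (y : V) then 1 else 0)))]
  rfl

lemma lap_symm (G : SimpleGraph V) (S : Finset V) (r : V) (z : Sym2 V → ℝ) :
    (lap G S r z).transpose = lap G S r z := by
  ext x y
  rw [Matrix.transpose_apply]
  by_cases hxy : x = y
  · rw [hxy]
  · rw [lap_apply, lap_apply]
    rw [if_neg hxy, if_neg (fun h => hxy h.symm)]
    simp only [zero_sub, mul_neg, mul_ite, mul_one, mul_zero, Finset.sum_neg_distrib]
    rw [Finset.sum_ite_eq' S, Finset.sum_ite_eq' S, if_pos (Finset.mem_of_mem_erase x.2),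
      if_pos (Finset.mem_of_mem_erase y.2), wt_comm]

lemma En_nonneg (G : SimpleGraph V) (S : Finset V) (z : Sym2 V → ℝ) (hz : ∀ e, 0 ≤ z e) (ψ : V → ℝ) :
    0 ≤ En G S z ψ := by
  unfold En
  apply Finset.sum_nonneg
  intro a _
  apply Finset.sum_nonneg
  intro b _
  apply mul_nonneg _ (sq_nonneg _)
  unfold wt
  split_ifs
  · exact hz _
  · exact le_rfl

lemma wt_nonneg (G : SimpleGraph V) (S : Finset V) (z : Sym2 V → ℝ) (hz : ∀ e, 0 ≤ z e) (a b : V) :
    0 ≤ wt G S z a b := by
  unfold wt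
  split_ifs
  · exact hz _
  · exact le_rfl

lemma En_eq_zero (G : SimpleGraph V) (S : Finset V) (z : Sym2 V → ℝ) (hz : ∀ e, 0 ≤ z e) (ψ : V → ℝ)
    (h : En G S z ψ = 0) (a b : V) (ha : a ∈ S) (hb : b ∈ S) : wt G S z a b * (ψ a - ψ b) ^ 2 = 0 := by
  unfold En at h
  have h1 := (Finset.sum_eq_zero_iff_of_nonneg (fun a _ => Finset.sum_nonneg (fun b _ =>
    mul_nonneg (wt_nonneg G S z hz a b) (sq_nonneg _)))).1 h a ha
  exact (Finset.sum_eq_zero_iff_of_nonneg (fun b _ =>
    mul_nonneg (wt_nonneg G S z hz a b) (sq_nonneg _))).1 h1 b hb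

/-- nondegenerate energy. -/
def ND (G : SimpleGraph V) (S : Finset V) (r : V) (z : Sym2 V → ℝ) : Prop :=
  ∀ φ : ↥(S.erase r) → ℝ, En G S z (ext0 S r φ) = 0 → φ = 0

lemma det_ne_zero_iff (G : SimpleGraph V) (S : Finset V) (r : V) (hr : r ∈ S) (z : Sym2 V → ℝ)
    (hz : ∀ e, 0 ≤ z e) : (lap G S r z).det ≠ 0 ↔ ND G S r z := by
  constructor
  · intro hdet φ hφ
    by_contra hne
    apply hdet
    rw [← Matrix.exists_mulVec_eq_zero_iff]
    refine ⟨φ, hne, ?_⟩
    funext x
    rw [lap_mulVec]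
    apply Finset.sum_eq_zero
    intro b hb
    have := En_eq_zero G S z hz _ hφ x b (Finset.mem_of_mem_erase x.2) hb
    rcases mul_eq_zero.1 this with h | h
    · rw [h, zero_mul]
    · rw [pow_eq_zero_iff two_ne_zero] at h
      rw [h, mul_zero]
  · intro hnd hdet
    rw [← Matrix.exists_mulVec_eq_zero_iff] at hdet
    obtain ⟨φ, hne, hφ⟩ := hdet
    apply hne
    apply hnd
    have := quad G S r hr z φ
    rw [hφ, dotProduct_zero] at this
    linarith

lemma treeSum_nonneg (G : SimpleGraph V) (S : Finset V) (z : Sym2 V → ℝ) (hz : ∀ e, 0 ≤ z e)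
    (P : Finset (Sym2 V) → Prop) : 0 ≤ treeSum G S z P := by
  unfold treeSum
  apply Finset.sum_nonneg
  intro A _
  exact Finset.prod_nonneg (fun e _ => hz e)

lemma det_nonneg (G : SimpleGraph V) (S : Finset V) (r : V) (hr : r ∈ S) (z : Sym2 V → ℝ)
    (hz : ∀ e, 0 ≤ z e) : 0 ≤ (lap G S r z).det := by
  rw [← treeSum_eq_det G S r hr]
  exact treeSum_nonneg G S z hz _

noncomputable def vE (S : Finset V) (r : V) (a b : V) : ↥(S.erase r) → ℝ :=
  fun y => (if a = (y : V) then 1 else 0) - (if b = (y : V) then 1 else 0)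

lemma dot_vE (S : Finset V) (r : V) (a b : V) (φ : ↥(S.erase r) → ℝ) :
    φ ⬝ᵥ vE S r a b = ext0 S r φ a - ext0 S r φ b := by
  have key : ∀ c : V, ∑ y : ↥(S.erase r), φ y * (if c = (y : V) then (1 : ℝ) else 0) = ext0 S r φ c := by
    intro c
    by_cases hb : c ∈ S.erase r
    · have : ∀ y : ↥(S.erase r), (c = (y : V)) ↔ (⟨c, hb⟩ : ↥(S.erase r)) = y := by
        intro y
        constructor
        · intro h; exact Subtype.ext h
        · intro h; exact congrArg Subtype.val h
      simp only [this, mul_ite, mul_one, mul_zero]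
      rw [Finset.sum_ite_eq Finset.univ (⟨c, hb⟩ : ↥(S.erase r)), if_pos (Finset.mem_univ _)]
      unfold ext0; rw [dif_pos hb]
    · unfold ext0
      rw [dif_neg hb]
      apply Finset.sum_eq_zero
      intro y _
      rw [if_neg, mul_zero]
      rintro rfl
      exact hb y.2
  simp only [dotProduct, vE, mul_sub, Finset.sum_sub_distrib]
  rw [key, key]

lemma lap_update (G : SimpleGraph V) (S : Finset V) (r : V) (z z0 : Sym2 V → ℝ) (a b : V)
    (hab : s(a, b) ∈ edgesIn G S) (h0 : z0 s(a, b) = 0) (h1 : ∀ e, e ≠ s(a, b) → z0 e = z e) :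
    lap G S r z0 = lap G S r z - z s(a, b) • Matrix.vecMulVec (vE S r a b) (vE S r a b) := by
  have hab' := (mem_edgesIn' G S a b).1 hab
  have hne : a ≠ b := hab'.2.ne
  have hw : ∀ c d : V, wt G S z c d - wt G S z0 c d =
      if (c = a ∧ d = b) ∨ (c = b ∧ d = a) then z s(a, b) else 0 := by
    intro c d
    unfold wt
    by_cases hcd : s(c, d) = s(a, b)
    · rw [hcd, if_pos hab, if_pos hab, h0, sub_zero, if_pos]
      simpa [Sym2.eq_iff] using hcd
    · rw [h1 _ hcd, sub_self, if_neg]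
      simpa [Sym2.eq_iff] using hcd
  ext x y
  rw [Matrix.sub_apply, Matrix.smul_apply, Matrix.vecMulVec_apply, lap_apply, lap_apply, smul_eq_mul]
  rw [eq_sub_iff_add_eq, ← eq_sub_iff_add_eq', ← Finset.sum_sub_distrib]
  have e1 : ∀ c ∈ S, wt G S z x c * ((if x = y then 1 else 0) - (if c = (y : V) then (1 : ℝ) else 0)) -
      wt G S z0 x c * ((if x = y then 1 else 0) - (if c = (y : V) then 1 else 0)) =
      (if ((x : V) = a ∧ c = b) ∨ ((x : V) = b ∧ c = a) then z s(a, b) else 0) *
        ((if x = y then 1 else 0) - (if c = (y : V) then 1 else 0)) := by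
    intro c _
    rw [← sub_mul, hw]
  rw [Finset.sum_congr rfl e1]
  have hxy : (if x = y then (1 : ℝ) else 0) = if (x : V) = (y : V) then 1 else 0 := by
    by_cases h : x = y
    · rw [if_pos h, if_pos (congrArg _ h)]
    · rw [if_neg h, if_neg (fun h' => h (Subtype.ext h'))]
  rw [hxy]
  unfold vE
  by_cases hxa : (x : V) = a
  · have hxb : ¬ (x : V) = b := fun h => hne (hxa.symm.trans h)
    rw [Finset.sum_eq_single b]
    · rw [if_pos (Or.inl ⟨hxa, rfl⟩), if_pos hxa.symm, if_neg (fun h => hxb h.symm), hxa]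
      ring
    · intro c _ hcb
      rw [if_neg, zero_mul]
      rintro (⟨_, h⟩ | ⟨h, _⟩)
      · exact hcb h
      · exact hxb h
    · intro h; exact absurd hab'.1.2 h
  · by_cases hxb : (x : V) = b
    · rw [Finset.sum_eq_single a]
      · rw [if_pos (Or.inr ⟨hxb, rfl⟩), if_pos hxb.symm, if_neg (fun h => hxa h.symm), hxb]
        ring
      · intro c _ hca
        rw [if_neg, zero_mul]
        rintro (⟨h, _⟩ | ⟨_, h⟩)
        · exact hxa h
        · exact hca h
      · intro h; exact absurd hab'.1.1 h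
    · rw [if_neg (fun h => hxa h.symm), if_neg (fun h => hxb h.symm)]
      rw [Finset.sum_eq_zero]
      · ring
      · intro c _
        rw [if_neg, zero_mul]
        rintro (⟨h, _⟩ | ⟨h, _⟩)
        · exact hxa h
        · exact hxb h

lemma treeSum_ite (G : SimpleGraph V) (S : Finset V) (z : Sym2 V → ℝ) (P : Finset (Sym2 V) → Prop) :
    treeSum G S z P =
      ∑ A ∈ (edgesIn G S).powerset with IsSpanningTreeOn G S A, if P A then ∏ e ∈ A, z e else 0 := by
  unfold treeSum
  rw [← Finset.sum_filter, Finset.filter_filter]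

lemma treeSum_mem (G : SimpleGraph V) (S : Finset V) (z : Sym2 V → ℝ) (e : Sym2 V) :
    treeSum G S z (fun A => e ∈ A) =
      treeSum G S z (fun _ => True) - treeSum G S (Function.update z e 0) (fun _ => True) := by
  rw [treeSum_ite, treeSum_true, treeSum_true, ← Finset.sum_sub_distrib]
  apply Finset.sum_congr rfl
  intro A _
  by_cases he : e ∈ A
  · have h1 : ∏ e' ∈ A, Function.update z e 0 e' = 0 :=
      Finset.prod_eq_zero he (Function.update_self e 0 z)
    rw [if_pos he, h1, sub_zero]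
  · have h1 : ∏ e' ∈ A, Function.update z e 0 e' = ∏ e' ∈ A, z e' := by
      apply Finset.prod_congr rfl
      intro x hx
      have hne : x ≠ e := by
        rintro rfl
        exact he hx
      rw [Function.update_of_ne hne]
    rw [if_neg he, h1, sub_self]

/-- indicator weights: edges of `F` are deleted. -/
noncomputable def zF (F : Finset (Sym2 V)) : Sym2 V → ℝ := fun e => if e ∈ F then 0 else 1

lemma zF_nonneg (F : Finset (Sym2 V)) (e : Sym2 V) : 0 ≤ zF F e := by
  unfold zF; split_ifs <;> norm_num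

lemma treeSum_disjoint (G : SimpleGraph V) (S : Finset V) (F : Finset (Sym2 V)) :
    treeSum G S (fun _ => 1) (fun A => Disjoint F A) = treeSum G S (zF F) (fun _ => True) := by
  rw [treeSum_ite, treeSum_true]
  apply Finset.sum_congr rfl
  intro A _
  by_cases h : Disjoint F A
  · rw [if_pos h]
    apply Finset.prod_congr rfl
    intro x hx
    unfold zF
    rw [if_neg]
    intro hxF
    exact Finset.disjoint_left.1 h hxF hx
  · rw [if_neg h]
    rw [Finset.not_disjoint_iff] at h
    obtain ⟨x, hxF, hxA⟩ := h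
    rw [Finset.prod_eq_zero hxA]
    unfold zF
    rw [if_pos hxF]

lemma treeSum_one (G : SimpleGraph V) (S : Finset V) :
    treeSum G S (fun _ => 1) (fun _ => True) = treeSum G S (zF ∅) (fun _ => True) := by
  have : (fun _ => 1 : Sym2 V → ℝ) = zF ∅ := by
    funext e; unfold zF; simp
  rw [this]

/-- nondegeneracy from connectivity. -/
lemma nd_of_connected (G : SimpleGraph V) (S : Finset V) (r : V) (hr : r ∈ S) (z : Sym2 V → ℝ)
    (hS : (G.induce (S : Set V)).Connected)
    (hconst : ∀ ψ : V → ℝ, ψ r = 0 → En G S z ψ = 0 → ∀ a ∈ S, ∀ b ∈ S, G.Adj a b → ψ a = ψ b) :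
    ND G S r z := by
  intro φ hφ
  have h1 := hconst (ext0 S r φ) (ext0_root S r φ) hφ
  have h2 : ∀ x y : ↥(S : Set V), (G.induce (S : Set V)).Reachable x y → ext0 S r φ x = ext0 S r φ y := by
    intro x y hxy
    obtain ⟨p⟩ := hxy
    induction p with
    | nil => rfl
    | cons h _ ih =>
      rw [← ih]
      exact h1 _ (Subtype.prop _) _ (Subtype.prop _) h
  funext x
  have h3 := h2 ⟨x, Finset.mem_of_mem_erase x.2⟩ ⟨r, hr⟩ (hS.preconnected _ _)
  simp only [ext0_root, ext0_coe] at h3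
  rw [h3]; rfl

lemma nd_pos (G : SimpleGraph V) (S : Finset V) (r : V) (hr : r ∈ S) (z : Sym2 V → ℝ)
    (hz : ∀ e, 0 < z e) (hS : (G.induce (S : Set V)).Connected) : ND G S r z := by
  refine nd_of_connected G S r hr z hS ?_
  intro ψ _ h a ha b hb hab
  have h1 := En_eq_zero G S z (fun e => (hz e).le) ψ h a b ha hb
  have h2 : wt G S z a b ≠ 0 := by
    unfold wt
    rw [if_pos ((mem_edgesIn' G S a b).2 ⟨⟨ha, hb⟩, hab⟩)]
    exact (hz _).ne'
  rcases mul_eq_zero.1 h1 with h3 | h3
  · exact absurd h3 h2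
  · rw [pow_eq_zero_iff two_ne_zero] at h3
    linarith

lemma ratio_mem (G : SimpleGraph V) (S : Finset V) (r : V) (hr : r ∈ S) (z : Sym2 V → ℝ)
    (hdet : (lap G S r z).det ≠ 0) (a b : V) (hab : s(a, b) ∈ edgesIn G S) :
    treeSum G S z (fun A => s(a, b) ∈ A) / treeSum G S z (fun _ => True) =
      z s(a, b) * (vE S r a b ⬝ᵥ ((lap G S r z)⁻¹.mulVec (vE S r a b))) := by
  rw [treeSum_mem, treeSum_eq_det G S r hr, treeSum_eq_det G S r hr,
    lap_update G S r z (Function.update z s(a, b) 0) a b hab (by simp)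
      (fun e he => by rw [Function.update_of_ne he]),
    det_sub_rank_one _ (isUnit_iff_ne_zero.2 hdet)]
  field_simp
  ring

lemma psd_lap (G : SimpleGraph V) (S : Finset V) (r : V) (hr : r ∈ S) (z : Sym2 V → ℝ)
    (hz : ∀ e, 0 ≤ z e) (φ : ↥(S.erase r) → ℝ) : 0 ≤ φ ⬝ᵥ ((lap G S r z).mulVec φ) := by
  rw [quad G S r hr]
  have := En_nonneg G S z hz (ext0 S r φ)
  linarith

/-- J1: edge probabilities of the weighted UST are log-Lipschitz in the log-weights, sup norm. -/
theorem treeSum_mem_le (G : SimpleGraph V) (S : Finset V)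
    (hS : (G.induce (S : Set V)).Connected) (z z' : Sym2 V → ℝ) (c : ℝ) (hc : 1 ≤ c)
    (hz : ∀ e, 0 < z e) (hz' : ∀ e, 0 < z' e)
    (h1 : ∀ e, z' e ≤ c * z e) (h2 : ∀ e, z e ≤ c * z' e) (e : Sym2 V) (he : e ∈ edgesIn G S) :
    treeSum G S z' (fun A => e ∈ A) / treeSum G S z' (fun _ => True) ≤
      c ^ 2 * (treeSum G S z (fun A => e ∈ A) / treeSum G S z (fun _ => True)) := by
  obtain ⟨⟨r, hr⟩⟩ := hS.nonempty
  have hr' : r ∈ S := hr
  induction e using Sym2.ind with
  | _ a b =>
    have hd : (lap G S r z).det ≠ 0 :=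
      (det_ne_zero_iff G S r hr' z (fun e => (hz e).le)).2 (nd_pos G S r hr' z hz hS)
    have hd' : (lap G S r z').det ≠ 0 :=
      (det_ne_zero_iff G S r hr' z' (fun e => (hz' e).le)).2 (nd_pos G S r hr' z' hz' hS)
    rw [ratio_mem G S r hr' z hd a b he, ratio_mem G S r hr' z' hd' a b he]
    set v := vE S r a b with hv
    set q := v ⬝ᵥ ((lap G S r z)⁻¹.mulVec v) with hq
    set q' := v ⬝ᵥ ((lap G S r z')⁻¹.mulVec v) with hq'
    have hc0 : 0 < c := by linarith
    have hqq : q' ≤ c * q := by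
      set φ' := (lap G S r z')⁻¹.mulVec v with hφ'
      have e1 : q' = 2 * (φ' ⬝ᵥ v) - φ' ⬝ᵥ ((lap G S r z').mulVec φ') :=
        q_eq (lap G S r z') (isUnit_iff_ne_zero.2 hd') v
      have e2 := q_ge (lap G S r z) (isUnit_iff_ne_zero.2 hd) (lap_symm G S r z)
        (psd_lap G S r hr' z (fun e => (hz e).le)) v (c⁻¹ • φ')
      rw [smul_dotProduct, smul_dotProduct, Matrix.mulVec_smul, dotProduct_smul, smul_eq_mul,
        smul_eq_mul, smul_eq_mul] at e2
      have e3 : φ' ⬝ᵥ ((lap G S r z).mulVec φ') ≤ c * (φ' ⬝ᵥ ((lap G S r z').mulVec φ')) := by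
        rw [quad G S r hr', quad G S r hr']
        have : En G S z (ext0 S r φ') ≤ c * En G S z' (ext0 S r φ') := by
          unfold En
          rw [Finset.mul_sum]
          apply Finset.sum_le_sum
          intro x _
          rw [Finset.mul_sum]
          apply Finset.sum_le_sum
          intro y _
          rw [← mul_assoc]
          apply mul_le_mul_of_nonneg_right _ (sq_nonneg _)
          unfold wt
          split_ifs
          · exact h2 _
          · simp
        linarith
      have e4 : c * (2 * (c⁻¹ * (φ' ⬝ᵥ v)) - c⁻¹ * (c⁻¹ * (φ' ⬝ᵥ ((lap G S r z).mulVec φ')))) ≤ c * q :=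
        mul_le_mul_of_nonneg_left e2 hc0.le
      have e5 : c * (2 * (c⁻¹ * (φ' ⬝ᵥ v)) - c⁻¹ * (c⁻¹ * (φ' ⬝ᵥ ((lap G S r z).mulVec φ')))) =
          2 * (φ' ⬝ᵥ v) - c⁻¹ * (φ' ⬝ᵥ ((lap G S r z).mulVec φ')) := by
        field_simp
      have e6 : c⁻¹ * (φ' ⬝ᵥ ((lap G S r z).mulVec φ')) ≤ φ' ⬝ᵥ ((lap G S r z').mulVec φ') := by
        rw [inv_mul_le_iff₀ hc0]
        exact e3
      rw [e5] at e4
      linarith
    have hq0 : 0 ≤ q := by
      have := q_ge (lap G S r z) (isUnit_iff_ne_zero.2 hd) (lap_symm G S r z)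
        (psd_lap G S r hr' z (fun e => (hz e).le)) v 0
      simpa using this
    calc z' s(a, b) * q' ≤ z' s(a, b) * (c * q) := mul_le_mul_of_nonneg_left hqq (hz' _).le
      _ ≤ (c * z s(a, b)) * (c * q) := mul_le_mul_of_nonneg_right (h1 _) (by positivity)
      _ = c ^ 2 * (z s(a, b) * q) := by ring

lemma edgesIn_mono (G : SimpleGraph V) (S S' : Finset V) (hSS : S ⊆ S') : edgesIn G S ⊆ edgesIn G S' := by
  intro e he
  induction e using Sym2.ind with
  | _ a b =>
    rw [mem_edgesIn'] at he ⊢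
    exact ⟨⟨hSS he.1.1, hSS he.1.2⟩, he.2⟩

lemma En_mono_set (G : SimpleGraph V) (S S' : Finset V) (hSS : S ⊆ S') (z : Sym2 V → ℝ)
    (hz : ∀ e, 0 ≤ z e) (ψ ψ' : V → ℝ) (h : ∀ x ∈ S, ψ x = ψ' x) : En G S z ψ ≤ En G S' z ψ' := by
  unfold En
  have h1 : ∑ a ∈ S, ∑ b ∈ S, wt G S z a b * (ψ a - ψ b) ^ 2 =
      ∑ a ∈ S, ∑ b ∈ S, wt G S' z a b * (ψ' a - ψ' b) ^ 2 := by
    apply Finset.sum_congr rfl
    intro a ha
    apply Finset.sum_congr rfl
    intro b hb
    rw [h a ha, h b hb]
    congr 1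
    unfold wt
    have : s(a, b) ∈ edgesIn G S ↔ s(a, b) ∈ edgesIn G S' := by
      rw [mem_edgesIn', mem_edgesIn']
      constructor
      · rintro ⟨⟨_, _⟩, h3⟩; exact ⟨⟨hSS ha, hSS hb⟩, h3⟩
      · rintro ⟨⟨_, _⟩, h3⟩; exact ⟨⟨ha, hb⟩, h3⟩
    by_cases h4 : s(a, b) ∈ edgesIn G S
    · rw [if_pos h4, if_pos (this.1 h4)]
    · rw [if_neg h4, if_neg (fun h5 => h4 (this.2 h5))]
  rw [h1]
  refine le_trans (Finset.sum_le_sum (fun a _ => Finset.sum_le_sum_of_subset_of_nonneg hSS
    (fun b _ _ => mul_nonneg (wt_nonneg G S' z hz a b) (sq_nonneg _)))) ?_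
  exact Finset.sum_le_sum_of_subset_of_nonneg hSS
    (fun a _ _ => Finset.sum_nonneg (fun b _ => mul_nonneg (wt_nonneg G S' z hz a b) (sq_nonneg _)))

noncomputable def restr (S S' : Finset V) (r : V) (hSS : S ⊆ S') (φ : ↥(S'.erase r) → ℝ) :
    ↥(S.erase r) → ℝ :=
  fun x => φ ⟨x, Finset.mem_erase.2 ⟨Finset.ne_of_mem_erase x.2, hSS (Finset.mem_of_mem_erase x.2)⟩⟩

lemma ext0_restr (S S' : Finset V) (r : V) (hSS : S ⊆ S') (φ : ↥(S'.erase r) → ℝ) (x : V) (hx : x ∈ S) :
    ext0 S r (restr S S' r hSS φ) x = ext0 S' r φ x := by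
  by_cases hxr : x = r
  · rw [hxr, ext0_root, ext0_root]
  · have h1 : x ∈ S.erase r := Finset.mem_erase.2 ⟨hxr, hx⟩
    have h2 : x ∈ S'.erase r := Finset.mem_erase.2 ⟨hxr, hSS hx⟩
    unfold ext0
    rw [dif_pos h1, dif_pos h2]
    rfl

/-- J2: probability of avoiding a finite edge set is nondecreasing in the piece. -/
theorem avoid_mono (G : SimpleGraph V) (S S' : Finset V) (hSS : S ⊆ S')
    (hS : (G.induce (S : Set V)).Connected) (hS' : (G.induce (S' : Set V)).Connected)
    (F : Finset (Sym2 V)) (hF : F ⊆ edgesIn G S) :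
    treeSum G S (fun _ => 1) (fun A => Disjoint F A) / treeSum G S (fun _ => 1) (fun _ => True) ≤
    treeSum G S' (fun _ => 1) (fun A => Disjoint F A) / treeSum G S' (fun _ => 1) (fun _ => True) := by
  obtain ⟨⟨r, hr⟩⟩ := hS.nonempty
  have hrS : r ∈ S := hr
  have hrS' : r ∈ S' := hSS hrS
  rw [treeSum_disjoint, treeSum_disjoint, treeSum_one, treeSum_one, treeSum_eq_det G S r hrS,
    treeSum_eq_det G S r hrS, treeSum_eq_det G S' r hrS', treeSum_eq_det G S' r hrS']
  have hz0 : ∀ e : Sym2 V, 0 < zF ∅ e := by intro e; unfold zF; simp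
  have hD0 : 0 < (lap G S r (zF ∅)).det := lt_of_le_of_ne (det_nonneg G S r hrS _ (zF_nonneg _))
    ((det_ne_zero_iff G S r hrS _ (zF_nonneg _)).2 (nd_pos G S r hrS _ hz0 hS)).symm
  have hD0' : 0 < (lap G S' r (zF ∅)).det := lt_of_le_of_ne (det_nonneg G S' r hrS' _ (zF_nonneg _))
    ((det_ne_zero_iff G S' r hrS' _ (zF_nonneg _)).2 (nd_pos G S' r hrS' _ hz0 hS')).symm
  rw [div_le_div_iff₀ hD0 hD0']
  revert hF
  induction F using Finset.induction_on with
  | empty => intro _; rw [mul_comm]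
  | insert e F heF ih =>
    intro hF
    have hFs : F ⊆ edgesIn G S := fun x hx => hF (Finset.mem_insert_of_mem hx)
    have he : e ∈ edgesIn G S := hF (Finset.mem_insert_self _ _)
    have ih' := ih hFs
    induction e using Sym2.ind with
    | _ a b =>
      have hup0 : zF (insert s(a, b) F) s(a, b) = 0 := by unfold zF; simp
      have hup1 : ∀ e', e' ≠ s(a, b) → zF (insert s(a, b) F) e' = zF F e' := by
        intro e' he'
        unfold zF
        simp [he']
      have hzab : zF F s(a, b) = 1 := by unfold zF; rw [if_neg heF]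
      have he' : s(a, b) ∈ edgesIn G S' := edgesIn_mono G S S' hSS he
      have hlS := lap_update G S r (zF F) (zF (insert s(a, b) F)) a b he hup0 hup1
      have hlS' := lap_update G S' r (zF F) (zF (insert s(a, b) F)) a b he' hup0 hup1
      rw [hzab] at hlS hlS'
      have hDin : 0 ≤ (lap G S r (zF (insert s(a, b) F))).det := det_nonneg G S r hrS _ (zF_nonneg _)
      have hDin' : 0 ≤ (lap G S' r (zF (insert s(a, b) F))).det := det_nonneg G S' r hrS' _ (zF_nonneg _)
      by_cases hDF : (lap G S r (zF F)).det = 0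
      · -- then the inserted determinant vanishes too
        have hND : ¬ ND G S r (zF F) := by
          rw [← det_ne_zero_iff G S r hrS _ (zF_nonneg _)]
          exact fun h => h hDF
        have hND2 : ¬ ND G S r (zF (insert s(a, b) F)) := by
          intro h
          apply hND
          intro φ hφ
          apply h
          apply le_antisymm _ (En_nonneg G S _ (zF_nonneg _) _)
          rw [← hφ]
          unfold En
          apply Finset.sum_le_sum
          intro x _
          apply Finset.sum_le_sum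
          intro y _
          apply mul_le_mul_of_nonneg_right _ (sq_nonneg _)
          unfold wt
          split_ifs
          · unfold zF
            by_cases h5 : s(x, y) ∈ F
            · rw [if_pos (Finset.mem_insert_of_mem h5), if_pos h5]
            · rw [if_neg h5]
              split_ifs <;> norm_num
          · exact le_rfl
        have hz : (lap G S r (zF (insert s(a, b) F))).det = 0 := by
          by_contra hne
          exact hND2 ((det_ne_zero_iff G S r hrS _ (zF_nonneg _)).1 hne)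
        rw [hz, zero_mul]
        exact mul_nonneg hDin' hD0.le
      · have hND : ND G S r (zF F) := (det_ne_zero_iff G S r hrS _ (zF_nonneg _)).1 hDF
        have hND' : ND G S' r (zF F) := by
          refine nd_of_connected G S' r hrS' (zF F) hS' ?_
          intro ψ hψr hψ x hx y hy hxy
          -- the restriction vanishes on S
          have hrest : ∀ x ∈ S, ψ x = 0 := by
            set φ : ↥(S.erase r) → ℝ := fun x => ψ x with hφ
            have hext : ∀ x ∈ S, ext0 S r φ x = ψ x := by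
              intro x hx
              by_cases hxr : x = r
              · rw [hxr, ext0_root, hψr]
              · unfold ext0
                rw [dif_pos (Finset.mem_erase.2 ⟨hxr, hx⟩)]
            have h6 : En G S (zF F) (ext0 S r φ) = 0 := by
              apply le_antisymm _ (En_nonneg G S _ (zF_nonneg _) _)
              rw [← hψ]
              exact En_mono_set G S S' hSS (zF F) (zF_nonneg _) _ _ hext
            have h7 := hND φ h6
            intro x hx
            rw [← hext x hx, h7]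
            unfold ext0
            split_ifs <;> rfl
          by_cases hxyF : s(x, y) ∈ F
          · have := (mem_edgesIn' G S x y).1 (hFs hxyF)
            rw [hrest x this.1.1, hrest y this.1.2]
          · have h8 := En_eq_zero G S' (zF F) (zF_nonneg _) ψ hψ x y hx hy
            have h9 : wt G S' (zF F) x y = 1 := by
              unfold wt zF
              rw [if_pos ((mem_edgesIn' G S' x y).2 ⟨⟨hx, hy⟩, hxy⟩), if_neg hxyF]
            rw [h9, one_mul, pow_eq_zero_iff two_ne_zero] at h8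
            linarith
        have hDF' : (lap G S' r (zF F)).det ≠ 0 := (det_ne_zero_iff G S' r hrS' _ (zF_nonneg _)).2 hND'
        have hDFpos : 0 < (lap G S r (zF F)).det := lt_of_le_of_ne (det_nonneg G S r hrS _ (zF_nonneg _)) (Ne.symm hDF)
        have hDFpos' : 0 < (lap G S' r (zF F)).det := lt_of_le_of_ne (det_nonneg G S' r hrS' _ (zF_nonneg _)) (Ne.symm hDF')
        rw [hlS, hlS', det_sub_rank_one _ (isUnit_iff_ne_zero.2 hDF), det_sub_rank_one _ (isUnit_iff_ne_zero.2 hDF')]
        rw [hlS, det_sub_rank_one _ (isUnit_iff_ne_zero.2 hDF)] at hDin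
        set v := vE S r a b with hv
        set v' := vE S' r a b with hv'
        set q := v ⬝ᵥ ((lap G S r (zF F))⁻¹.mulVec v) with hq
        set q' := v' ⬝ᵥ ((lap G S' r (zF F))⁻¹.mulVec v') with hq'
        have hqq : q' ≤ q := by
          set φ' := (lap G S' r (zF F))⁻¹.mulVec v' with hφ'
          have e1 : q' = 2 * (φ' ⬝ᵥ v') - φ' ⬝ᵥ ((lap G S' r (zF F)).mulVec φ') :=
            q_eq (lap G S' r (zF F)) (isUnit_iff_ne_zero.2 hDF') v'
          have e2 := q_ge (lap G S r (zF F)) (isUnit_iff_ne_zero.2 hDF) (lap_symm G S r _)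
            (psd_lap G S r hrS _ (zF_nonneg _)) v (restr S S' r hSS φ')
          rw [hv, dot_vE, quad G S r hrS] at e2
          rw [hv', dot_vE, quad G S' r hrS'] at e1
          have hab := (mem_edgesIn' G S a b).1 he
          rw [ext0_restr S S' r hSS φ' a hab.1.1, ext0_restr S S' r hSS φ' b hab.1.2] at e2
          have e3 := En_mono_set G S S' hSS (zF F) (zF_nonneg _) (ext0 S r (restr S S' r hSS φ'))
            (ext0 S' r φ') (fun x hx => ext0_restr S S' r hSS φ' x hx)
          rw [e1]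
          linarith
        have h1q : 0 ≤ 1 - 1 * q := by
          by_contra hneg
          push Not at hneg
          have := mul_neg_of_pos_of_neg hDFpos hneg
          linarith
        have s1 := mul_le_mul_of_nonneg_right ih' h1q
        have s2 : (lap G S' r (zF F)).det * (lap G S r (zF ∅)).det * (1 - 1 * q) ≤
            (lap G S' r (zF F)).det * (lap G S r (zF ∅)).det * (1 - 1 * q') := by
          apply mul_le_mul_of_nonneg_left _ (mul_pos hDFpos' hD0).le
          linarith
        calc (lap G S r (zF F)).det * (1 - 1 * q) * (lap G S' r (zF ∅)).det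
            = (lap G S r (zF F)).det * (lap G S' r (zF ∅)).det * (1 - 1 * q) := by ring
          _ ≤ (lap G S' r (zF F)).det * (lap G S r (zF ∅)).det * (1 - 1 * q) := s1
          _ ≤ (lap G S' r (zF F)).det * (lap G S r (zF ∅)).det * (1 - 1 * q') := s2
          _ = (lap G S' r (zF F)).det * (1 - 1 * q') * (lap G S r (zF ∅)).det := by ring

end Crest.Agent.Lib.Row168
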