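import Crest.Agent.Lib.Row168.Defs
import Crest.Agent.Lib.Row168.Trees
import Mathlib

set_option autoImplicit false
open MeasureTheory Filter Topology
open Crest.ProbabilityR Crest.ProbabilityR.SpanningTrees Crest.ProbabilityR.StronglyRayleigh

/-!
Existence of the free uniform spanning forest law of every graph on `ℕ` with explicit window
weights (limits of the uniform spanning trees of finite connected pieces).
-/

namespace Crest.Agent.Lib.Row168

open Classical

section Rat

variable {V : Type*}

/-- probability that the uniform spanning tree of the piece satisfies `P`. -/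
noncomputable def rat (G : SimpleGraph V) (S : Finset V) (P : Finset (Sym2 V) → Prop) : ℝ :=
  treeSum G S (fun _ => 1) P / treeSum G S (fun _ => 1) (fun _ => True)

lemma treeSum_congr (G : SimpleGraph V) (S : Finset V) (z : Sym2 V → ℝ)
    (P Q : Finset (Sym2 V) → Prop) (h : ∀ A, A ⊆ edgesIn G S → (P A ↔ Q A)) :
    treeSum G S z P = treeSum G S z Q := by
  unfold treeSum
  apply Finset.sum_congr _ (fun _ _ => rfl)
  apply Finset.filter_congr
  intro A hA
  rw [h A (Finset.mem_powerset.1 hA)]

lemma rat_congr (G : SimpleGraph V) (S : Finset V)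
    (P Q : Finset (Sym2 V) → Prop) (h : ∀ A, A ⊆ edgesIn G S → (P A ↔ Q A)) :
    rat G S P = rat G S Q := by
  unfold rat
  rw [treeSum_congr G S _ P Q h]

lemma treeSum_pos (G : SimpleGraph V) (S : Finset V) (z : Sym2 V → ℝ) (hz : ∀ e, 0 < z e)
    (hS : (G.induce (S : Set V)).Connected) : 0 < treeSum G S z (fun _ => True) := by
  obtain ⟨⟨r, hr⟩⟩ := hS.nonempty
  have hr' : r ∈ S := hr
  rw [treeSum_eq_det G S r hr']
  exact lt_of_le_of_ne (det_nonneg G S r hr' _ (fun e => (hz e).le))
    ((det_ne_zero_iff G S r hr' _ (fun e => (hz e).le)).2 (nd_pos G S r hr' _ hz hS)).symm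

lemma treeSum_one_pos (G : SimpleGraph V) (S : Finset V)
    (hS : (G.induce (S : Set V)).Connected) : 0 < treeSum G S (fun _ => 1) (fun _ => True) :=
  treeSum_pos G S _ (fun _ => one_pos) hS

lemma rat_nonneg (G : SimpleGraph V) (S : Finset V) (P : Finset (Sym2 V) → Prop) :
    0 ≤ rat G S P := by
  unfold rat treeSum
  apply div_nonneg <;> exact Finset.sum_nonneg (fun A _ => Finset.prod_nonneg (fun _ _ => zero_le_one))

lemma rat_le_one (G : SimpleGraph V) (S : Finset V) (P : Finset (Sym2 V) → Prop) :
    rat G S P ≤ 1 := by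
  unfold rat
  apply div_le_one_of_le₀
  · rw [treeSum_ite, treeSum_true]
    apply Finset.sum_le_sum
    intro A _
    split_ifs
    · exact le_rfl
    · exact Finset.prod_nonneg (fun _ _ => zero_le_one)
  · rw [treeSum_true]
    exact Finset.sum_nonneg (fun A _ => Finset.prod_nonneg (fun _ _ => zero_le_one))

lemma rat_true (G : SimpleGraph V) (S : Finset V) (hS : (G.induce (S : Set V)).Connected) :
    rat G S (fun _ => True) = 1 := div_self (treeSum_one_pos G S hS).ne'

/-- inclusion-exclusion. -/
lemma rat_incl_excl (G : SimpleGraph V) (S : Finset V) (K : Finset (Sym2 V)) :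
    ∀ F : Finset (Sym2 V), rat G S (fun A => K ⊆ A ∧ Disjoint F A) =
      ∑ F' ∈ K.powerset, (-1 : ℝ) ^ F'.card * rat G S (fun A => Disjoint (F' ∪ F) A) := by
  induction K using Finset.induction_on with
  | empty =>
    intro F
    simp
  | insert e K heK ih =>
    intro F
    rw [Finset.sum_powerset_insert heK]
    have h1 : rat G S (fun A => insert e K ⊆ A ∧ Disjoint F A) =
        rat G S (fun A => K ⊆ A ∧ Disjoint F A) - rat G S (fun A => K ⊆ A ∧ Disjoint (insert e F) A) := by
      unfold rat
      rw [← sub_div]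
      congr 1
      rw [treeSum_ite, treeSum_ite, treeSum_ite, ← Finset.sum_sub_distrib]
      apply Finset.sum_congr rfl
      intro A _
      by_cases he : e ∈ A
      · have h2 : ¬ Disjoint (insert e F) A := by
          rw [Finset.disjoint_insert_left]
          tauto
        have h3 : (insert e K ⊆ A ∧ Disjoint F A) ↔ (K ⊆ A ∧ Disjoint F A) := by
          rw [Finset.insert_subset_iff]; tauto
        by_cases h5 : K ⊆ A ∧ Disjoint F A
        · rw [if_pos (h3.2 h5), if_pos h5, if_neg (fun h => h2 h.2), sub_zero]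
        · rw [if_neg (fun h => h5 (h3.1 h)), if_neg h5, if_neg (fun h => h2 h.2), sub_zero]
      · have h2 : Disjoint (insert e F) A ↔ Disjoint F A := by
          rw [Finset.disjoint_insert_left]
          tauto
        have h3 : ¬ (insert e K ⊆ A ∧ Disjoint F A) := by
          rw [Finset.insert_subset_iff]; tauto
        rw [if_neg h3]
        by_cases h5 : K ⊆ A ∧ Disjoint F A
        · rw [if_pos h5, if_pos ⟨h5.1, h2.2 h5.2⟩, sub_self]
        · rw [if_neg h5, if_neg (fun h => h5 ⟨h.1, h2.1 h.2⟩), sub_self]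
    rw [h1, ih F, ih (insert e F), sub_eq_add_neg]
    congr 1
    rw [← Finset.sum_neg_distrib]
    apply Finset.sum_congr rfl
    intro F' hF'
    have heF' : e ∉ F' := fun h => heK (Finset.mem_powerset.1 hF' h)
    rw [Finset.card_insert_of_notMem heF', pow_succ]
    have h4 : F' ∪ insert e F = insert e F' ∪ F := by
      ext x
      simp only [Finset.mem_union, Finset.mem_insert]
      tauto
    rw [h4]
    ring

end Rat

section Avoid

variable {V : Type*}

lemma rat_avoid_mono (G : SimpleGraph V) (S S' : Finset V) (hSS : S ⊆ S')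
    (hS : (G.induce (S : Set V)).Connected) (hS' : (G.induce (S' : Set V)).Connected)
    (F : Finset (Sym2 V)) (hF : F ⊆ S.sym2) :
    rat G S (fun A => Disjoint F A) ≤ rat G S' (fun A => Disjoint F A) := by
  have key : ∀ e ∈ F, e ∈ edgesIn G S' → e ∈ edgesIn G S := by
    intro e he he'
    have h1 := hF he
    unfold edgesIn at he' ⊢
    rw [Finset.mem_filter] at he' ⊢
    exact ⟨h1, he'.2⟩
  have h1 : rat G S (fun A => Disjoint F A) = rat G S (fun A => Disjoint (F ∩ edgesIn G S) A) := by
    apply rat_congr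
    intro A hA
    rw [Finset.disjoint_left, Finset.disjoint_left]
    constructor
    · intro h x hx
      exact h (Finset.mem_inter.1 hx).1
    · intro h x hx hxA
      exact h (Finset.mem_inter.2 ⟨hx, hA hxA⟩) hxA
  have h2 : rat G S' (fun A => Disjoint F A) = rat G S' (fun A => Disjoint (F ∩ edgesIn G S) A) := by
    apply rat_congr
    intro A hA
    rw [Finset.disjoint_left, Finset.disjoint_left]
    constructor
    · intro h x hx
      exact h (Finset.mem_inter.1 hx).1
    · intro h x hx hxA
      exact h (Finset.mem_inter.2 ⟨hx, key x hx (hA hxA)⟩) hxA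
  rw [h1, h2]
  exact avoid_mono G S S' hSS hS hS' _ Finset.inter_subset_right

/-- limiting avoidance probability. -/
noncomputable def av (G : SimpleGraph V) (F : Finset (Sym2 V)) : ℝ :=
  ⨆ S : Finset V, if (G.induce (S : Set V)).Connected ∧ F ⊆ S.sym2 then
    rat G S (fun A => Disjoint F A) else 0

lemma av_bdd (G : SimpleGraph V) (F : Finset (Sym2 V)) :
    BddAbove (Set.range fun S : Finset V => if (G.induce (S : Set V)).Connected ∧ F ⊆ S.sym2 then
      rat G S (fun A => Disjoint F A) else 0) := by
  refine ⟨1, ?_⟩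
  rintro _ ⟨S, rfl⟩
  show (if _ then _ else _) ≤ _
  split_ifs
  · exact rat_le_one _ _ _
  · exact zero_le_one

/-- exhaustions by connected pieces. -/
def Exh (G : SimpleGraph V) (T : ℕ → Finset V) : Prop :=
  Monotone T ∧ (∀ v : V, ∃ n, v ∈ T n) ∧ ∀ n, (G.induce (T n : Set V)).Connected

lemma Exh.eventually_subset {G : SimpleGraph V} {T : ℕ → Finset V} (hT : Exh G T) (S : Finset V) :
    ∀ᶠ n in atTop, S ⊆ T n := by
  induction S using Finset.induction_on with
  | empty => exact Eventually.of_forall (fun n => Finset.empty_subset _)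
  | insert v S _ ih =>
    obtain ⟨k, hk⟩ := hT.2.1 v
    filter_upwards [ih, eventually_ge_atTop k] with n h1 h2
    rw [Finset.insert_subset_iff]
    exact ⟨hT.1 h2 hk, h1⟩

lemma Exh.eventually_sym2 {G : SimpleGraph V} {T : ℕ → Finset V} (hT : Exh G T)
    (F : Finset (Sym2 V)) : ∀ᶠ n in atTop, F ⊆ (T n).sym2 := by
  induction F using Finset.induction_on with
  | empty => exact Eventually.of_forall (fun n => Finset.empty_subset _)
  | insert e F _ ih =>
    induction e using Sym2.ind with
    | _ a b =>
      filter_upwards [ih, hT.eventually_subset {a, b}] with n h1 h2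
      rw [Finset.insert_subset_iff]
      refine ⟨?_, h1⟩
      rw [Finset.mk_mem_sym2_iff]
      exact ⟨h2 (by simp), h2 (by simp)⟩

lemma Exh.tendsto_avoid {G : SimpleGraph V} {T : ℕ → Finset V} (hT : Exh G T)
    (F : Finset (Sym2 V)) :
    Tendsto (fun n => rat G (T n) (fun A => Disjoint F A)) atTop (𝓝 (av G F)) := by
  rw [Metric.tendsto_nhds]
  intro ε hε
  have h1 : av G F - ε < av G F := by linarith
  obtain ⟨S, hS⟩ := exists_lt_of_lt_ciSup h1
  have hub : ∀ᶠ n in atTop, rat G (T n) (fun A => Disjoint F A) ≤ av G F := by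
    filter_upwards [hT.eventually_sym2 F] with n hn
    have := le_ciSup (av_bdd G F) (T n)
    rw [if_pos ⟨hT.2.2 n, hn⟩] at this
    exact this
  have hlb : ∀ᶠ n in atTop, av G F - ε < rat G (T n) (fun A => Disjoint F A) := by
    by_cases hc : (G.induce (S : Set V)).Connected ∧ F ⊆ S.sym2
    · rw [if_pos hc] at hS
      filter_upwards [hT.eventually_subset S] with n hn
      exact lt_of_lt_of_le hS (rat_avoid_mono G S (T n) hn hc.1 (hT.2.2 n) F hc.2)
    · rw [if_neg hc] at hS
      exact Eventually.of_forall (fun n => lt_of_lt_of_le hS (rat_nonneg _ _ _))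
  filter_upwards [hub, hlb] with n h2 h3
  rw [Real.dist_eq, abs_lt]
  constructor <;> linarith

/-- window event. -/
def win (Λ S : Finset (Sym2 V)) (A : Finset (Sym2 V)) : Prop := ∀ i ∈ Λ, (i ∈ A ↔ i ∈ S)

/-- limiting window weights. -/
noncomputable def LIM (G : SimpleGraph V) (Λ S : Finset (Sym2 V)) : ℝ :=
  ∑ F' ∈ (Λ ∩ S).powerset, (-1 : ℝ) ^ F'.card * av G (F' ∪ (Λ \ S))

lemma rat_win (G : SimpleGraph V) (S0 : Finset V) (Λ S : Finset (Sym2 V)) :
    rat G S0 (win Λ S) =
      ∑ F' ∈ (Λ ∩ S).powerset, (-1 : ℝ) ^ F'.card * rat G S0 (fun A => Disjoint (F' ∪ (Λ \ S)) A) := by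
  rw [← rat_incl_excl]
  apply rat_congr
  intro A _
  unfold win
  rw [Finset.disjoint_left]
  constructor
  · intro h
    refine ⟨fun x hx => (h x (Finset.mem_inter.1 hx).1).2 (Finset.mem_inter.1 hx).2, ?_⟩
    intro x hx hxA
    exact (Finset.mem_sdiff.1 hx).2 ((h x (Finset.mem_sdiff.1 hx).1).1 hxA)
  · rintro ⟨h1, h2⟩ i hi
    constructor
    · intro hiA
      by_contra hiS
      exact h2 (Finset.mem_sdiff.2 ⟨hi, hiS⟩) hiA
    · intro hiS
      exact h1 (Finset.mem_inter.2 ⟨hi, hiS⟩)

lemma Exh.tendsto_win {G : SimpleGraph V} {T : ℕ → Finset V} (hT : Exh G T)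
    (Λ S : Finset (Sym2 V)) :
    Tendsto (fun n => rat G (T n) (win Λ S)) atTop (𝓝 (LIM G Λ S)) := by
  simp_rw [rat_win]
  unfold LIM
  exact tendsto_finsetSum _ (fun F' _ => (hT.tendsto_avoid _).const_mul _)

end Avoid

/-- existence of exhaustions. -/
lemma exists_exh (G : SimpleGraph ℕ) (hG : G.Connected) : ∃ T : ℕ → Finset ℕ, Exh G T := by
  have hw : ∀ k : ℕ, Nonempty (G.Walk 0 k) := fun k => hG.preconnected 0 k
  let p : ∀ k : ℕ, G.Walk 0 k := fun k => Classical.choice (hw k)
  refine ⟨fun n => (Finset.range (n + 1)).biUnion (fun k => (p k).support.toFinset), ?_, ?_, ?_⟩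
  · intro m n hmn
    apply Finset.biUnion_subset_biUnion_of_subset_left
    exact Finset.range_mono (by omega)
  · intro v
    refine ⟨v, ?_⟩
    rw [Finset.mem_biUnion]
    exact ⟨v, Finset.mem_range.2 (by omega), by simp⟩
  · intro n
    induction n with
    | zero =>
      have h1 := (p 0).connected_induce_support
      have h2 : (((Finset.range (0 + 1)).biUnion (fun k => (p k).support.toFinset) : Finset ℕ) : Set ℕ) =
          {v | v ∈ (p 0).support} := by
        ext x; simp
      rw [h2]
      exact h1
    | succ n ih =>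
      have h1 := (p (n + 1)).connected_induce_support
      have h2 : (((Finset.range (n + 1 + 1)).biUnion (fun k => (p k).support.toFinset) : Finset ℕ) : Set ℕ) =
          (((Finset.range (n + 1)).biUnion (fun k => (p k).support.toFinset) : Finset ℕ) : Set ℕ) ∪
          {v | v ∈ (p (n + 1)).support} := by
        ext x
        simp only [Finset.coe_biUnion, Finset.mem_coe, Finset.mem_range, List.coe_toFinset,
          Set.mem_iUnion, Set.mem_union, Set.mem_ofPred_eq, exists_prop]
        constructor
        · rintro ⟨k, hk, hx⟩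
          rcases Nat.lt_succ_iff_lt_or_eq.1 hk with h | rfl
          · exact Or.inl ⟨k, h, hx⟩
          · exact Or.inr hx
        · rintro (⟨k, hk, hx⟩ | hx)
          · exact ⟨k, by omega, hx⟩
          · exact ⟨n + 1, by omega, hx⟩
      rw [h2]
      refine SimpleGraph.induce_union_connected ih.preconnected h1.preconnected ⟨0, ?_, ?_⟩
      · simp only [Finset.coe_biUnion, Set.mem_iUnion]
        exact ⟨0, by simp, by simp⟩
      · simp

end Crest.Agent.Lib.Row168
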