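import Crest.Agent.Lib.Row168.FusfA

set_option autoImplicit false
open MeasureTheory Filter Topology
open Crest.ProbabilityR Crest.ProbabilityR.SpanningTrees Crest.ProbabilityR.StronglyRayleigh

/-!
The law of the free uniform spanning forest as a limit of finite laws.
-/

namespace Crest.Agent.Lib.Row168

open Classical

/-- indicator configuration. -/
noncomputable def chi (A : Finset (Sym2 ℕ)) : Sym2 ℕ → Bool := fun e => decide (e ∈ A)

/-- law of the uniform spanning tree of a piece. -/
noncomputable def ustLaw (G : SimpleGraph ℕ) (S : Finset ℕ) : Measure (Sym2 ℕ → Bool) :=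
  ∑ A ∈ (edgesIn G S).powerset with IsSpanningTreeOn G S A,
    ENNReal.ofReal (1 / treeSum G S (fun _ => 1) (fun _ => True)) • Measure.dirac (chi A)

lemma treeSum_true_nonneg (G : SimpleGraph ℕ) (S : Finset ℕ) :
    0 ≤ treeSum G S (fun _ => 1) (fun _ => True) := by
  rw [treeSum_true]
  exact Finset.sum_nonneg (fun A _ => Finset.prod_nonneg (fun _ _ => zero_le_one))

lemma ustLaw_apply (G : SimpleGraph ℕ) (S : Finset ℕ) (C : Set (Sym2 ℕ → Bool))
    (hC : MeasurableSet C) :
    ustLaw G S C = ENNReal.ofReal (rat G S (fun A => chi A ∈ C)) := by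
  unfold ustLaw rat
  rw [Measure.finsetSum_apply, treeSum_ite G S _ (fun A => chi A ∈ C), Finset.sum_div,
    ENNReal.ofReal_sum_of_nonneg]
  · apply Finset.sum_congr rfl
    intro A _
    rw [Measure.smul_apply, Measure.dirac_apply' _ hC, smul_eq_mul, Finset.prod_const_one]
    by_cases h : chi A ∈ C
    · rw [if_pos h, Set.indicator_of_mem h, Pi.one_apply, mul_one]
    · rw [if_neg h, Set.indicator_of_notMem h, mul_zero, zero_div, ENNReal.ofReal_zero]
  · intro A _
    apply div_nonneg _ (treeSum_true_nonneg G S)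
    split_ifs
    · exact Finset.prod_nonneg (fun _ _ => zero_le_one)
    · exact le_rfl

lemma ustLaw_prob (G : SimpleGraph ℕ) (S : Finset ℕ) (hS : (G.induce (S : Set ℕ)).Connected) :
    IsProbabilityMeasure (ustLaw G S) := by
  constructor
  rw [ustLaw_apply G S _ MeasurableSet.univ]
  have : rat G S (fun A => chi A ∈ Set.univ) = 1 := by
    rw [← rat_true G S hS]
    exact rat_congr G S _ _ (fun A _ => by simp)
  rw [this, ENNReal.ofReal_one]

/-- cylinder. -/
def cyl (Λ S : Finset (Sym2 ℕ)) : Set (Sym2 ℕ → Bool) := {ω | ∀ i ∈ Λ, (ω i = true ↔ i ∈ S)}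

lemma isClopen_cyl (Λ S : Finset (Sym2 ℕ)) : IsClopen (cyl Λ S) := by
  have : cyl Λ S = ⋂ i ∈ Λ, (fun ω : Sym2 ℕ → Bool => ω i) ⁻¹' {b | b = true ↔ i ∈ S} := by
    ext ω
    simp [cyl]
  rw [this]
  apply Set.Finite.isClopen_biInter Λ.finite_toSet
  intro i _
  exact (isClopen_discrete _).preimage (continuous_apply i)

lemma measurableSet_cyl (Λ S : Finset (Sym2 ℕ)) : MeasurableSet (cyl Λ S) :=
  (isClopen_cyl Λ S).isOpen.measurableSet

lemma winW_ustLaw (G : SimpleGraph ℕ) (T : Finset ℕ) (Λ S : Finset (Sym2 ℕ)) :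
    winW (ustLaw G T) Λ S = rat G T (win Λ S) := by
  have h1 : winW (ustLaw G T) Λ S = (ustLaw G T (cyl Λ S)).toReal := rfl
  rw [h1, ustLaw_apply G T _ (measurableSet_cyl Λ S), ENNReal.toReal_ofReal (rat_nonneg _ _ _)]
  apply rat_congr
  intro A _
  simp [cyl, chi, win]

/-- existence of the limit law. -/
lemma exists_limit_law (G : SimpleGraph ℕ) (hG : G.Connected) :
    ∃ ν : Measure (Sym2 ℕ → Bool), IsProbabilityMeasure ν ∧ ∀ Λ S, winW ν Λ S = LIM G Λ S := by
  obtain ⟨T, hT⟩ := exists_exh G hG
  let μs : ℕ → ProbabilityMeasure (Sym2 ℕ → Bool) :=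
    fun n => ⟨ustLaw G (T n), ustLaw_prob G (T n) (hT.2.2 n)⟩
  let U : Ultrafilter (ProbabilityMeasure (Sym2 ℕ → Bool)) := (hyperfilter ℕ).map μs
  let μ := U.lim
  have hlim : Tendsto μs (hyperfilter ℕ) (𝓝 μ) := U.le_nhds_lim
  refine ⟨(μ : Measure (Sym2 ℕ → Bool)), inferInstance, ?_⟩
  intro Λ S
  have h1 : Tendsto (fun n => ((μs n : Measure (Sym2 ℕ → Bool)) (cyl Λ S)).toReal) (hyperfilter ℕ)
      (𝓝 (((μ : Measure (Sym2 ℕ → Bool)) (cyl Λ S)).toReal)) := by
    have h2 := ProbabilityMeasure.tendsto_measure_of_null_frontier_of_tendsto' hlim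
      (E := cyl Λ S) (by rw [(isClopen_cyl Λ S).frontier_eq]; simp)
    exact (ENNReal.tendsto_toReal (measure_ne_top _ _)).comp h2
  have h3 : Tendsto (fun n => rat G (T n) (win Λ S)) (hyperfilter ℕ) (𝓝 (LIM G Λ S)) :=
    (hT.tendsto_win Λ S).mono_left Nat.hyperfilter_le_atTop
  have h4 : (fun n => ((μs n : Measure (Sym2 ℕ → Bool)) (cyl Λ S)).toReal) =
      (fun n => rat G (T n) (win Λ S)) := by
    ext n
    exact winW_ustLaw G (T n) Λ S
  rw [h4] at h1
  exact tendsto_nhds_unique h1 h3

/-- the free uniform spanning forest law. -/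
noncomputable def fusf (G : SimpleGraph ℕ) : Measure (Sym2 ℕ → Bool) :=
  if h : G.Connected then Classical.choose (exists_limit_law G h) else Measure.dirac (fun _ => false)

lemma fusf_prob (G : SimpleGraph ℕ) : IsProbabilityMeasure (fusf G) := by
  unfold fusf
  split_ifs with h
  · exact (Classical.choose_spec (exists_limit_law G h)).1
  · infer_instance

lemma fusf_win (G : SimpleGraph ℕ) (hG : G.Connected) (Λ S : Finset (Sym2 ℕ)) :
    winW (fusf G) Λ S = LIM G Λ S := by
  unfold fusf
  rw [dif_pos hG]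
  exact (Classical.choose_spec (exists_limit_law G hG)).2 Λ S

lemma fusf_win_not (G : SimpleGraph ℕ) (hG : ¬ G.Connected) (Λ S : Finset (Sym2 ℕ)) :
    winW (fusf G) Λ S = if Disjoint Λ S then 1 else 0 := by
  unfold fusf
  rw [dif_neg hG]
  have h1 : winW (Measure.dirac (fun _ => false)) Λ S = ((Measure.dirac (fun _ : Sym2 ℕ => false)) (cyl Λ S)).toReal := rfl
  rw [h1, Measure.dirac_apply' _ (measurableSet_cyl Λ S)]
  by_cases h : Disjoint Λ S
  · rw [if_pos h, Set.indicator_of_mem]
    · simp
    · intro i hi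
      simp only [Bool.false_eq_true, false_iff]
      exact Finset.disjoint_left.1 h hi
  · rw [if_neg h, Set.indicator_of_notMem]
    · simp
    · intro h2
      apply h
      rw [Finset.disjoint_left]
      intro i hi hiS
      have := (h2 i hi).2 hiS
      simp at this

/-- clause 2. -/
lemma fusf_edge (G : SimpleGraph ℕ) (e : Sym2 ℕ) (he : e ∉ G.edgeSet) :
    fusf G {ω | ω e = true} = 0 := by
  have := fusf_prob G
  have h1 : ({ω | ω e = true} : Set (Sym2 ℕ → Bool)) = cyl {e} {e} := by
    ext ω
    simp [cyl]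
  have h2 : winW (fusf G) {e} {e} = 0 := by
    by_cases hG : G.Connected
    · rw [fusf_win G hG]
      obtain ⟨T, hT⟩ := exists_exh G hG
      apply tendsto_nhds_unique (hT.tendsto_win {e} {e})
      have h3 : (fun n => rat G (T n) (win {e} {e})) = fun _ => 0 := by
        ext n
        have h4 : rat G (T n) (win {e} {e}) = rat G (T n) (fun _ => False) := by
          apply rat_congr
          intro A hA
          simp only [win, Finset.mem_singleton, forall_eq, iff_true, iff_false]
          intro h5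
          have h6 := hA h5
          unfold edgesIn at h6
          rw [Finset.mem_filter] at h6
          exact he h6.2
        rw [h4]
        unfold rat treeSum
        simp
      rw [h3]
      exact tendsto_const_nhds
    · rw [fusf_win_not G hG]
      simp
  have h3 : winW (fusf G) {e} {e} = (fusf G (cyl {e} {e})).toReal := rfl
  rw [h1]
  rw [h3, ENNReal.toReal_eq_zero_iff] at h2
  exact h2.resolve_right (measure_ne_top _ _)

/-- clause 3. -/
lemma fusf_tendsto (G : SimpleGraph ℕ) (hG : G.Connected) (S : ℕ → Finset ℕ) (hS : Exh G S)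
    (F : Finset (Sym2 ℕ)) :
    Tendsto (fun n => ustContains G (S n) F) atTop (𝓝 ((fusf G {ω | ∀ e ∈ F, ω e = true}).toReal)) := by
  have h1 : ({ω | ∀ e ∈ F, ω e = true} : Set (Sym2 ℕ → Bool)) = cyl F F := by
    ext ω
    simp only [cyl, Set.mem_ofPred_eq]
    constructor
    · intro h i hi
      simp [h i hi, hi]
    · intro h i hi
      exact (h i hi).2 hi
  rw [h1]
  have h2 : (fusf G (cyl F F)).toReal = winW (fusf G) F F := rfl
  rw [h2, fusf_win G hG]
  have h3 : (fun n => ustContains G (S n) F) = fun n => rat G (S n) (win F F) := by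
    ext n
    unfold ustContains rat treeSum
    simp only [Finset.prod_const_one, Finset.sum_const, nsmul_eq_mul, mul_one, and_true]
    congr 2
    · congr 1
      ext A
      simp only [Finset.mem_filter, and_congr_right_iff]
      intro _ _
      unfold win
      constructor
      · intro h i hi
        exact ⟨fun _ => hi, fun _ => h hi⟩
      · intro h i hi
        exact (h i hi).2 hi
  rw [h3]
  exact hS.tendsto_win F F

end Crest.Agent.Lib.Row168
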