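import Crest.Agent.Lib.Row168.FusfB

set_option autoImplicit false
open MeasureTheory Filter Topology
open Crest.ProbabilityR Crest.ProbabilityR.SpanningTrees Crest.ProbabilityR.StronglyRayleigh

/-!
Lipschitz bound for tilted means of the free uniform spanning forest.
-/

namespace Crest.Agent.Lib.Row168

open Classical

/-- weights realising the tilt. -/
noncomputable def zw (Λ : Finset (Sym2 ℕ)) (y : Sym2 ℕ → ℝ) : Sym2 ℕ → ℝ :=
  fun e => if e ∈ Λ then Real.exp (y e) else 1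

lemma zw_pos (Λ : Finset (Sym2 ℕ)) (y : Sym2 ℕ → ℝ) (e : Sym2 ℕ) : 0 < zw Λ y e := by
  unfold zw
  split_ifs
  · exact Real.exp_pos _
  · exact one_pos

lemma prod_zw (Λ A : Finset (Sym2 ℕ)) (y : Sym2 ℕ → ℝ) :
    ∏ e ∈ A, zw Λ y e = Real.exp (∑ i ∈ A ∩ Λ, y i) := by
  rw [Real.exp_sum]
  unfold zw
  rw [Finset.prod_ite, Finset.prod_const_one, mul_one, Finset.filter_mem_eq_inter]

lemma sum_win (G : SimpleGraph ℕ) (T : Finset ℕ) (Λ : Finset (Sym2 ℕ)) (y : Sym2 ℕ → ℝ)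
    (P : Finset (Sym2 ℕ) → Prop) :
    ∑ S ∈ Λ.powerset with P S, rat G T (win Λ S) * Real.exp (∑ i ∈ S, y i) =
      treeSum G T (zw Λ y) (fun A => P (A ∩ Λ)) / treeSum G T (fun _ => 1) (fun _ => True) := by
  unfold rat
  simp_rw [div_mul_eq_mul_div]
  rw [← Finset.sum_div]
  congr 1
  simp_rw [treeSum_ite, Finset.sum_mul]
  rw [Finset.sum_comm]
  apply Finset.sum_congr rfl
  intro A _
  rw [prod_zw, Finset.prod_const_one]
  have h1 : ∀ S ∈ Λ.powerset, (win Λ S A ↔ S = A ∩ Λ) := by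
    intro S hS
    rw [Finset.mem_powerset] at hS
    unfold win
    constructor
    · intro h
      ext i
      rw [Finset.mem_inter]
      constructor
      · intro hi
        exact ⟨(h i (hS hi)).2 hi, hS hi⟩
      · rintro ⟨h2, h3⟩
        exact (h i h3).1 h2
    · rintro rfl i hi
      rw [Finset.mem_inter]
      tauto
  by_cases hP : P (A ∩ Λ)
  · rw [if_pos hP, Finset.sum_eq_single (A ∩ Λ)]
    · rw [if_pos ((h1 _ (Finset.mem_powerset.2 Finset.inter_subset_right)).2 rfl), one_mul]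
    · intro S hS hne
      rw [Finset.mem_filter] at hS
      rw [if_neg (fun h => hne ((h1 S hS.1).1 h)), zero_mul]
    · intro h
      exfalso
      apply h
      rw [Finset.mem_filter]
      exact ⟨Finset.mem_powerset.2 Finset.inter_subset_right, hP⟩
  · rw [if_neg hP]
    apply Finset.sum_eq_zero
    intro S hS
    rw [Finset.mem_filter] at hS
    rw [if_neg, zero_mul]
    intro h
    rw [(h1 S hS.1).1 h] at hS
    exact hP hS.2

lemma zf_rat (G : SimpleGraph ℕ) (T : Finset ℕ) (Λ : Finset (Sym2 ℕ)) (y : Sym2 ℕ → ℝ) :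
    zf (fun S => rat G T (win Λ S)) Λ y =
      treeSum G T (zw Λ y) (fun _ => True) / treeSum G T (fun _ => 1) (fun _ => True) := by
  rw [← sum_win G T Λ y (fun _ => True)]
  unfold zf
  apply Finset.sum_congr _ (fun _ _ => rfl)
  ext S
  simp

lemma mf_rat (G : SimpleGraph ℕ) (T : Finset ℕ) (hT : (G.induce (T : Set ℕ)).Connected)
    (Λ : Finset (Sym2 ℕ)) (y : Sym2 ℕ → ℝ) (v : Sym2 ℕ) (hv : v ∈ Λ) :
    mf (fun S => rat G T (win Λ S)) Λ y v =
      treeSum G T (zw Λ y) (fun A => v ∈ A) / treeSum G T (zw Λ y) (fun _ => True) := by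
  have h := sum_win G T Λ y (fun S => v ∈ S)
  unfold mf
  rw [zf_rat]
  have h3 : treeSum G T (zw Λ y) (fun A => v ∈ A ∩ Λ) = treeSum G T (zw Λ y) (fun A => v ∈ A) := by
    apply treeSum_congr
    intro A _
    rw [Finset.mem_inter]
    tauto
  rw [h3] at h
  rw [← div_div_div_cancel_right₀ (treeSum_one_pos G T hT).ne' (treeSum G T (zw Λ y) (fun A => v ∈ A)), ← h]
  congr 1
  apply Finset.sum_congr _ (fun _ _ => rfl)
  ext S
  simp

lemma sum_rat_win (G : SimpleGraph ℕ) (T : Finset ℕ) (hT : (G.induce (T : Set ℕ)).Connected)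
    (Λ : Finset (Sym2 ℕ)) : ∑ S ∈ Λ.powerset, rat G T (win Λ S) = 1 := by
  have h := zf_rat G T Λ (fun _ => 0)
  unfold zf at h
  simp only [Finset.sum_const_zero, Real.exp_zero, mul_one] at h
  rw [h]
  have h2 : zw Λ (fun _ => 0) = fun _ => 1 := by
    ext e
    unfold zw
    simp
  rw [h2]
  exact div_self (treeSum_one_pos G T hT).ne'

lemma exp_bound (D : ℝ) (h0 : 0 ≤ D) (h1 : D ≤ 1) : Real.exp D ^ 2 - 1 ≤ 7 * D := by
  have h2 : Real.exp D ^ 2 = Real.exp (2 * D) := by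
    rw [two_mul, Real.exp_add, sq]
  have h3 : Real.exp (2 * D) ≤ (1 - D) * Real.exp 0 + D * Real.exp 2 := by
    have := convexOn_exp.2 (Set.mem_univ (0 : ℝ)) (Set.mem_univ (2 : ℝ)) (by linarith : (0 : ℝ) ≤ 1 - D) h0
      (by ring)
    simp only [smul_eq_mul, mul_zero, zero_add] at this
    rw [mul_comm 2 D]
    exact this
  have h4 : Real.exp 2 ≤ 8 := by
    have h5 : Real.exp 1 < 2.7182818286 := Real.exp_one_lt_d9
    have h6 : Real.exp 2 = Real.exp 1 ^ 2 := by
      rw [sq, ← Real.exp_add]; norm_num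
    rw [h6]
    have h7 : 0 < Real.exp 1 := Real.exp_pos 1
    nlinarith
  rw [h2]
  rw [Real.exp_zero] at h3
  nlinarith

lemma mem_ratio_le_one (G : SimpleGraph ℕ) (T : Finset ℕ) (hT : (G.induce (T : Set ℕ)).Connected)
    (z : Sym2 ℕ → ℝ) (hz : ∀ e, 0 < z e) (v : Sym2 ℕ) :
    0 ≤ treeSum G T z (fun A => v ∈ A) / treeSum G T z (fun _ => True) ∧
    treeSum G T z (fun A => v ∈ A) / treeSum G T z (fun _ => True) ≤ 1 := by
  have h0 := treeSum_pos G T z hz hT
  constructor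
  · apply div_nonneg _ h0.le
    unfold treeSum
    exact Finset.sum_nonneg (fun A _ => Finset.prod_nonneg (fun e _ => (hz e).le))
  · rw [div_le_one h0, treeSum_ite, treeSum_true]
    apply Finset.sum_le_sum
    intro A _
    split_ifs
    · exact le_rfl
    · exact Finset.prod_nonneg (fun e _ => (hz e).le)

lemma mf_rat_lip (G : SimpleGraph ℕ) (T : Finset ℕ) (hT : (G.induce (T : Set ℕ)).Connected)
    (Λ : Finset (Sym2 ℕ)) (y y' : Sym2 ℕ → ℝ) (D : ℝ) (hD : ∀ i ∈ Λ, |y i - y' i| ≤ D)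
    (v : Sym2 ℕ) (hv : v ∈ Λ) :
    mf (fun S => rat G T (win Λ S)) Λ y v - mf (fun S => rat G T (win Λ S)) Λ y' v ≤ 7 * D := by
  rw [mf_rat G T hT Λ y v hv, mf_rat G T hT Λ y' v hv]
  have hD0 : 0 ≤ D := le_trans (abs_nonneg _) (hD v hv)
  have hp := mem_ratio_le_one G T hT (zw Λ y) (zw_pos Λ y) v
  have hp' := mem_ratio_le_one G T hT (zw Λ y') (zw_pos Λ y') v
  by_cases hve : v ∈ edgesIn G T
  · by_cases hD1 : D ≤ 1
    · have hle : ∀ (u u' : Sym2 ℕ → ℝ), (∀ i ∈ Λ, |u i - u' i| ≤ D) → ∀ e, zw Λ u' e ≤ Real.exp D * zw Λ u e := by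
        intro u u' hu e
        unfold zw
        split_ifs with he
        · rw [← Real.exp_add]
          apply Real.exp_le_exp.2
          have := abs_le.1 (hu e he)
          linarith
        · rw [mul_one]
          exact Real.one_le_exp hD0
      have h1 := treeSum_mem_le G T hT (zw Λ y') (zw Λ y) (Real.exp D) (Real.one_le_exp hD0)
        (zw_pos Λ y') (zw_pos Λ y)
        (hle y' y (fun i hi => by rw [abs_sub_comm]; exact hD i hi)) (hle y y' hD) v hve
      have h2 := exp_bound D hD0 hD1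
      have h3 : 1 ≤ Real.exp D := Real.one_le_exp hD0
      have h4 : 0 ≤ Real.exp D ^ 2 - 1 := by nlinarith
      nlinarith
    · push Not at hD1
      linarith
  · have h0 : ∀ z : Sym2 ℕ → ℝ, treeSum G T z (fun A => v ∈ A) = 0 := by
      intro z
      rw [treeSum_congr G T z (fun A => v ∈ A) (fun _ => False) (fun A hA => by
        simp only [iff_false]
        exact fun h => hve (hA h))]
      unfold treeSum
      simp
    rw [h0, h0]
    simp only [zero_div, sub_self]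
    linarith

lemma mf_tendsto (G : SimpleGraph ℕ) (T : ℕ → Finset ℕ) (hT : Exh G T)
    (Λ : Finset (Sym2 ℕ)) (y : Sym2 ℕ → ℝ) (v : Sym2 ℕ) :
    Tendsto (fun n => mf (fun S => rat G (T n) (win Λ S)) Λ y v) atTop
      (𝓝 (mf (fun S => LIM G Λ S) Λ y v)) := by
  unfold mf
  apply Tendsto.div
  · exact tendsto_finsetSum _ (fun S _ => (hT.tendsto_win Λ S).mul_const _)
  · exact tendsto_finsetSum _ (fun S _ => (hT.tendsto_win Λ S).mul_const _)
  · have h1 : ∑ S ∈ Λ.powerset, LIM G Λ S = 1 := by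
      have h2 : Tendsto (fun n => ∑ S ∈ Λ.powerset, rat G (T n) (win Λ S)) atTop
          (𝓝 (∑ S ∈ Λ.powerset, LIM G Λ S)) :=
        tendsto_finsetSum _ (fun S _ => hT.tendsto_win Λ S)
      have h3 : (fun n => ∑ S ∈ Λ.powerset, rat G (T n) (win Λ S)) = fun _ => 1 := by
        ext n
        exact sum_rat_win G (T n) (hT.2.2 n) Λ
      rw [h3] at h2
      exact tendsto_nhds_unique h2 tendsto_const_nhds
    have h4 : ∀ S, 0 ≤ LIM G Λ S := fun S =>
      ge_of_tendsto' (hT.tendsto_win Λ S) (fun n => rat_nonneg _ _ _)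
    have h5 : 0 < zf (fun S => LIM G Λ S) Λ y := by
      unfold zf
      have h6 : ∃ S ∈ Λ.powerset, 0 < LIM G Λ S := by
        by_contra hcon
        push Not at hcon
        have : ∑ S ∈ Λ.powerset, LIM G Λ S ≤ 0 := Finset.sum_nonpos hcon
        linarith
      obtain ⟨S, hS, hS0⟩ := h6
      exact Finset.sum_pos' (fun S _ => mul_nonneg (h4 S) (Real.exp_pos _).le)
        ⟨S, hS, mul_pos hS0 (Real.exp_pos _)⟩
    exact h5.ne'

lemma fusf_lip_aux (G : SimpleGraph ℕ) (Λ : Finset (Sym2 ℕ)) (y y' : Sym2 ℕ → ℝ) (D : ℝ)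
    (hD : ∀ i ∈ Λ, |y i - y' i| ≤ D) (v : Sym2 ℕ) (hv : v ∈ Λ) :
    mf (winW (fusf G) Λ) Λ y v - mf (winW (fusf G) Λ) Λ y' v ≤ 7 * D := by
  have hD0 : 0 ≤ D := le_trans (abs_nonneg _) (hD v hv)
  by_cases hG : G.Connected
  · obtain ⟨T, hT⟩ := exists_exh G hG
    have h1 : winW (fusf G) Λ = fun S => LIM G Λ S := by
      ext S
      exact fusf_win G hG Λ S
    rw [h1]
    exact le_of_tendsto' ((mf_tendsto G T hT Λ y v).sub (mf_tendsto G T hT Λ y' v))
      (fun n => mf_rat_lip G (T n) (hT.2.2 n) Λ y y' D hD v hv)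
  · have h0 : ∀ u : Sym2 ℕ → ℝ, mf (winW (fusf G) Λ) Λ u v = 0 := by
      intro u
      unfold mf
      rw [Finset.sum_eq_zero, zero_div]
      intro S hS
      simp only [Finset.mem_filter] at hS
      rw [fusf_win_not G hG, if_neg, zero_mul]
      intro h
      exact Finset.disjoint_left.1 h hv hS.2
    rw [h0, h0]
    simp only [sub_self]
    linarith

/-- clause 4. -/
lemma fusf_lip (G : SimpleGraph ℕ) (Λ : Finset (Sym2 ℕ)) (y y' : Sym2 ℕ → ℝ) (D : ℝ)
    (hD : ∀ i ∈ Λ, |y i - y' i| ≤ D) (v : Sym2 ℕ) (hv : v ∈ Λ) :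
    |mf (winW (fusf G) Λ) Λ y v - mf (winW (fusf G) Λ) Λ y' v| ≤ 7 * D := by
  rw [abs_le]
  have h1 := fusf_lip_aux G Λ y y' D hD v hv
  have h2 := fusf_lip_aux G Λ y' y D (fun i hi => by rw [abs_sub_comm]; exact hD i hi) v hv
  constructor <;> linarith

end Crest.Agent.Lib.Row168
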