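import Crest.Agent.Lib.Row168.FusfC

set_option autoImplicit false
open MeasureTheory Filter Topology
open Crest.ProbabilityR Crest.ProbabilityR.SpanningTrees Crest.ProbabilityR.StronglyRayleigh

/-!
Measurability in the graph of the window weights of the free uniform spanning forest.
-/

namespace Crest.Agent.Lib.Row168

open Classical

lemma measurable_dep {β : Type*} [MeasurableSpace β] (T : Finset ℕ) (f : (ℕ → ℕ → Bool) → β)
    (hf : ∀ A A' : ℕ → ℕ → Bool, (∀ i ∈ T, ∀ j ∈ T, A i j = A' i j) → f A = f A') :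
    Measurable f := by
  let ext : (↥T → ↥T → Bool) → (ℕ → ℕ → Bool) :=
    fun B i j => if h : i ∈ T ∧ j ∈ T then B ⟨i, h.1⟩ ⟨j, h.2⟩ else false
  let res : (ℕ → ℕ → Bool) → (↥T → ↥T → Bool) := fun A i j => A i j
  have h1 : f = (fun B => f (ext B)) ∘ res := by
    funext A
    apply hf
    intro i hi j hj
    show A i j = if h : i ∈ T ∧ j ∈ T then A i j else false
    rw [dif_pos ⟨hi, hj⟩]
  rw [h1]
  apply Measurable.comp
  · exact Measurable.of_discrete
  · apply measurable_pi_lambda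
    intro i
    apply measurable_pi_lambda
    intro j
    exact (measurable_pi_apply (j : ℕ)).comp (measurable_pi_apply (i : ℕ))

lemma edgesIn_congr (G G' : SimpleGraph ℕ) (T : Finset ℕ)
    (h : ∀ i ∈ T, ∀ j ∈ T, (G.Adj i j ↔ G'.Adj i j)) : edgesIn G T = edgesIn G' T := by
  ext e
  induction e using Sym2.ind with
  | _ a b =>
    rw [mem_edgesIn', mem_edgesIn']
    constructor
    · rintro ⟨⟨ha, hb⟩, hab⟩
      exact ⟨⟨ha, hb⟩, (h a ha b hb).1 hab⟩
    · rintro ⟨⟨ha, hb⟩, hab⟩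
      exact ⟨⟨ha, hb⟩, (h a ha b hb).2 hab⟩

lemma induce_congr (G G' : SimpleGraph ℕ) (T : Finset ℕ)
    (h : ∀ i ∈ T, ∀ j ∈ T, (G.Adj i j ↔ G'.Adj i j)) :
    G.induce (T : Set ℕ) = G'.induce (T : Set ℕ) := by
  ext a b
  simp only [SimpleGraph.comap_adj, Function.Embedding.subtype_apply]
  exact h a a.2 b b.2

lemma treeSum_congr_graph (G G' : SimpleGraph ℕ) (T : Finset ℕ)
    (h : ∀ i ∈ T, ∀ j ∈ T, (G.Adj i j ↔ G'.Adj i j)) (z : Sym2 ℕ → ℝ) (P : Finset (Sym2 ℕ) → Prop) :
    treeSum G T z P = treeSum G' T z P := by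
  unfold treeSum IsSpanningTreeOn
  rw [edgesIn_congr G G' T h]

lemma rat_congr_graph (G G' : SimpleGraph ℕ) (T : Finset ℕ)
    (h : ∀ i ∈ T, ∀ j ∈ T, (G.Adj i j ↔ G'.Adj i j)) (P : Finset (Sym2 ℕ) → Prop) :
    rat G T P = rat G' T P := by
  unfold rat
  rw [treeSum_congr_graph G G' T h, treeSum_congr_graph G G' T h]

lemma adj_table_congr (T : Finset ℕ) (A A' : ℕ → ℕ → Bool)
    (hA : ∀ i ∈ T, ∀ j ∈ T, A i j = A' i j) :
    ∀ i ∈ T, ∀ j ∈ T, ((GraphTables.graphOfTable A).Adj i j ↔ (GraphTables.graphOfTable A').Adj i j) := by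
  intro i hi j hj
  unfold GraphTables.graphOfTable
  rw [SimpleGraph.fromRel_adj, SimpleGraph.fromRel_adj, hA i hi j hj, hA j hj i hi]

lemma measurable_av (F : Finset (Sym2 ℕ)) :
    Measurable (fun A : ℕ → ℕ → Bool => av (GraphTables.graphOfTable A) F) := by
  unfold av
  apply Measurable.iSup
  intro T
  apply measurable_dep T
  intro A A' hA
  have h1 := adj_table_congr T A A' hA
  have h2 : (((GraphTables.graphOfTable A).induce (T : Set ℕ)).Connected ∧ F ⊆ T.sym2) ↔
      (((GraphTables.graphOfTable A').induce (T : Set ℕ)).Connected ∧ F ⊆ T.sym2) := by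
    rw [induce_congr _ _ T h1]
  rw [rat_congr_graph _ _ T h1]
  by_cases h3 : ((GraphTables.graphOfTable A).induce (T : Set ℕ)).Connected ∧ F ⊆ T.sym2
  · rw [if_pos h3, if_pos (h2.1 h3)]
  · rw [if_neg h3, if_neg (fun h => h3 (h2.2 h))]

lemma measurable_LIM (Λ S : Finset (Sym2 ℕ)) :
    Measurable (fun A : ℕ → ℕ → Bool => LIM (GraphTables.graphOfTable A) Λ S) := by
  unfold LIM
  apply Finset.measurable_sum
  intro F' _
  exact (measurable_av _).const_mul _

lemma connected_iff_pieces (G : SimpleGraph ℕ) :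
    G.Connected ↔ ∀ v : ℕ, ∃ T : Finset ℕ, 0 ∈ T ∧ v ∈ T ∧ (G.induce (T : Set ℕ)).Connected := by
  constructor
  · intro hG v
    obtain ⟨T, hT⟩ := exists_exh G hG
    obtain ⟨n, hn⟩ := hT.2.1 v
    obtain ⟨m, hm⟩ := hT.2.1 0
    refine ⟨T (max m n), hT.1 (le_max_left m n) hm, hT.1 (le_max_right m n) hn, hT.2.2 _⟩
  · intro h
    have h0 : ∀ v : ℕ, G.Reachable 0 v := by
      intro v
      obtain ⟨T, h1, h2, h3⟩ := h v
      have h4 := h3.preconnected ⟨0, h1⟩ ⟨v, h2⟩
      exact h4.map (SimpleGraph.Embedding.induce (T : Set ℕ)).toHom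
    have : Nonempty ℕ := ⟨0⟩
    exact SimpleGraph.Connected.mk (fun u v => (h0 u).symm.trans (h0 v))

lemma measurableSet_connected :
    MeasurableSet {A : ℕ → ℕ → Bool | (GraphTables.graphOfTable A).Connected} := by
  have h1 : {A : ℕ → ℕ → Bool | (GraphTables.graphOfTable A).Connected} =
      ⋂ v : ℕ, ⋃ T : Finset ℕ, {A : ℕ → ℕ → Bool | 0 ∈ T ∧ v ∈ T ∧
        ((GraphTables.graphOfTable A).induce (T : Set ℕ)).Connected} := by
    ext A
    simp only [Set.mem_iInter, Set.mem_iUnion, Set.mem_ofPred_eq]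
    exact connected_iff_pieces _
  rw [h1]
  apply MeasurableSet.iInter
  intro v
  apply MeasurableSet.iUnion
  intro T
  apply measurableSet_setOfPred.2
  apply measurable_dep T
  intro A A' hA
  rw [induce_congr _ _ T (adj_table_congr T A A' hA)]

/-- clause 5. -/
lemma fusf_measurable (Λ S : Finset (Sym2 ℕ)) :
    Measurable (fun A : ℕ → ℕ → Bool => winW (fusf (GraphTables.graphOfTable A)) Λ S) := by
  have h1 : (fun A : ℕ → ℕ → Bool => winW (fusf (GraphTables.graphOfTable A)) Λ S) =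
      fun A => if (GraphTables.graphOfTable A).Connected then LIM (GraphTables.graphOfTable A) Λ S
        else (if Disjoint Λ S then 1 else 0) := by
    funext A
    split_ifs with h
    · exact fusf_win _ h Λ S
    · rw [fusf_win_not _ h Λ S]
      simp_all
    · rw [fusf_win_not _ h Λ S]
      simp_all
  rw [h1]
  exact Measurable.ite measurableSet_connected (measurable_LIM Λ S) measurable_const

end Crest.Agent.Lib.Row168
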