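import Crest.Agent.Lib.Row168.FusfD

set_option autoImplicit false
open MeasureTheory Filter Topology
open Crest.ProbabilityR Crest.ProbabilityR.SpanningTrees Crest.ProbabilityR.StronglyRayleigh

/-!
Equivariance of the free uniform spanning forest under relabelling.
-/

namespace Crest.Agent.Lib.Row168

open Classical

section Rel

variable {V : Type*}

/-- relabelling of pairs. -/
def sm (σ : Equiv.Perm V) : Sym2 V ↪ Sym2 V := ⟨Sym2.map ⇑σ, Sym2.map.injective σ.injective⟩

lemma sm_mk (σ : Equiv.Perm V) (a b : V) : sm σ s(a, b) = s(σ a, σ b) := rfl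

lemma mem_map_sm (σ : Equiv.Perm V) (A : Finset (Sym2 V)) (a b : V) :
    s(σ a, σ b) ∈ A.map (sm σ) ↔ s(a, b) ∈ A := by
  rw [← sm_mk, Finset.mem_map']

lemma edgesIn_comap (σ : Equiv.Perm V) (G : SimpleGraph V) (T : Finset V) :
    edgesIn G (T.map σ.toEmbedding) = (edgesIn (G.comap ⇑σ) T).map (sm σ) := by
  ext e
  induction e using Sym2.ind with
  | _ a b =>
    obtain ⟨c, rfl⟩ := σ.surjective a
    obtain ⟨d, rfl⟩ := σ.surjective b
    rw [mem_edgesIn', mem_map_sm, mem_edgesIn']
    simp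

lemma isST_comap (σ : Equiv.Perm V) (G : SimpleGraph V) (T : Finset V) (A : Finset (Sym2 V)) :
    IsSpanningTreeOn (G.comap ⇑σ) T A ↔
      IsSpanningTreeOn G (T.map σ.toEmbedding) (A.map (sm σ)) := by
  unfold IsSpanningTreeOn
  rw [edgesIn_comap, Finset.map_subset_map]
  apply and_congr_right
  intro _
  let φ : ((SimpleGraph.fromEdgeSet (A : Set (Sym2 V))).induce (T : Set V)) ≃g
    ((SimpleGraph.fromEdgeSet ((A.map (sm σ) : Finset (Sym2 V)) : Set (Sym2 V))).induce
      ((T.map σ.toEmbedding : Finset V) : Set V)) :=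
    { toEquiv := σ.subtypeEquiv (by intro a; simp)
      map_rel_iff' := by
        intro a b
        simp only [SimpleGraph.comap_adj, Function.Embedding.subtype_apply,
          SimpleGraph.fromEdgeSet_adj, Equiv.subtypeEquiv_apply, Finset.mem_coe, mem_map_sm]
        simp }
  exact φ.isTree_iff

lemma connected_comap (σ : Equiv.Perm V) (G : SimpleGraph V) (T : Finset V) :
    ((G.comap ⇑σ).induce (T : Set V)).Connected ↔
      (G.induce ((T.map σ.toEmbedding : Finset V) : Set V)).Connected := by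
  let φ : ((G.comap ⇑σ).induce (T : Set V)) ≃g
    (G.induce ((T.map σ.toEmbedding : Finset V) : Set V)) :=
    { toEquiv := σ.subtypeEquiv (by intro a; simp)
      map_rel_iff' := by
        intro a b
        simp }
  exact φ.connected_iff

lemma treeSum_comap (σ : Equiv.Perm V) (G : SimpleGraph V) (T : Finset V)
    (Q : Finset (Sym2 V) → Prop) :
    treeSum (G.comap ⇑σ) T (fun _ => 1) (fun A => Q (A.map (sm σ))) =
      treeSum G (T.map σ.toEmbedding) (fun _ => 1) Q := by
  unfold treeSum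
  apply Finset.sum_bij (fun A _ => A.map (sm σ))
  · intro A hA
    rw [Finset.mem_filter, Finset.mem_powerset] at hA ⊢
    refine ⟨?_, (isST_comap σ G T A).1 hA.2.1, hA.2.2⟩
    rw [edgesIn_comap, Finset.map_subset_map]
    exact hA.1
  · intro A _ B _ h
    exact Finset.map_injective _ h
  · intro B hB
    rw [Finset.mem_filter, Finset.mem_powerset, edgesIn_comap, Finset.subset_map_iff] at hB
    obtain ⟨⟨A, hA, rfl⟩, h1, h2⟩ := hB
    refine ⟨A, ?_, rfl⟩
    rw [Finset.mem_filter, Finset.mem_powerset]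
    exact ⟨hA, (isST_comap σ G T A).2 h1, h2⟩
  · intro A _
    simp

lemma rat_comap (σ : Equiv.Perm V) (G : SimpleGraph V) (T : Finset V)
    (Q : Finset (Sym2 V) → Prop) :
    rat (G.comap ⇑σ) T (fun A => Q (A.map (sm σ))) = rat G (T.map σ.toEmbedding) Q := by
  unfold rat
  rw [treeSum_comap σ G T Q, ← treeSum_comap σ G T (fun _ => True)]

lemma sym2_comap (σ : Equiv.Perm V) (T : Finset V) (F : Finset (Sym2 V)) :
    F ⊆ T.sym2 ↔ F.map (sm σ) ⊆ (T.map σ.toEmbedding).sym2 := by
  constructor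
  · intro h e he
    rw [Finset.mem_map] at he
    obtain ⟨e', he', rfl⟩ := he
    have := h he'
    induction e' using Sym2.ind with
    | _ a b =>
      rw [Finset.mk_mem_sym2_iff] at this
      rw [sm_mk, Finset.mk_mem_sym2_iff]
      simpa using this
  · intro h e he
    have := h (Finset.mem_map_of_mem (sm σ) he)
    induction e using Sym2.ind with
    | _ a b =>
      rw [sm_mk, Finset.mk_mem_sym2_iff] at this
      rw [Finset.mk_mem_sym2_iff]
      simpa using this

lemma av_comap (σ : Equiv.Perm V) (G : SimpleGraph V) (F : Finset (Sym2 V)) :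
    av (G.comap ⇑σ) F = av G (F.map (sm σ)) := by
  unfold av
  symm
  rw [← Equiv.iSup_comp (Equiv.finsetCongr σ)]
  symm
  congr 1
  funext T
  have h1 : (Equiv.finsetCongr σ) T = T.map σ.toEmbedding := rfl
  rw [h1]
  have h2 : rat (G.comap ⇑σ) T (fun A => Disjoint F A) =
      rat G (T.map σ.toEmbedding) (fun A => Disjoint (F.map (sm σ)) A) := by
    rw [← rat_comap]
    apply rat_congr
    intro A _
    rw [Finset.disjoint_map]
  have h3 := connected_comap σ G T
  have h4 := sym2_comap σ T F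
  rw [h2]
  by_cases h5 : ((G.comap ⇑σ).induce (T : Set V)).Connected ∧ F ⊆ T.sym2
  · rw [if_pos h5, if_pos ⟨h3.1 h5.1, h4.1 h5.2⟩]
  · rw [if_neg h5, if_neg (fun h => h5 ⟨h3.2 h.1, h4.2 h.2⟩)]

lemma LIM_comap (σ : Equiv.Perm V) (G : SimpleGraph V) (Λ S : Finset (Sym2 V)) :
    LIM (G.comap ⇑σ) Λ S = LIM G (Λ.map (sm σ)) (S.map (sm σ)) := by
  unfold LIM
  apply Finset.sum_bij (fun A _ => A.map (sm σ))
  · intro A hA
    rw [Finset.mem_powerset] at hA ⊢
    rw [← Finset.map_inter, Finset.map_subset_map]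
    exact hA
  · intro A _ B _ h
    exact Finset.map_injective _ h
  · intro B hB
    rw [Finset.mem_powerset, ← Finset.map_inter, Finset.subset_map_iff] at hB
    obtain ⟨A, hA, rfl⟩ := hB
    exact ⟨A, Finset.mem_powerset.2 hA, rfl⟩
  · intro A _
    rw [Finset.card_map, av_comap, Finset.map_union, Finset.map_sdiff]

end Rel

/-- clause 6. -/
lemma fusf_equivariant (σ : Equiv.Perm ℕ) (G : SimpleGraph ℕ) (Λ S : Finset (Sym2 ℕ)) :
    winW (fusf (G.comap ⇑σ)) Λ S = winW (fusf G) (Λ.map (sm σ)) (S.map (sm σ)) := by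
  have hc : (G.comap ⇑σ).Connected ↔ G.Connected := (SimpleGraph.Iso.comap σ G).connected_iff
  by_cases hG : G.Connected
  · rw [fusf_win _ (hc.2 hG), fusf_win _ hG, LIM_comap]
  · rw [fusf_win_not _ (fun h => hG (hc.1 h)), fusf_win_not _ hG]
    by_cases h : Disjoint Λ S
    · rw [if_pos h, if_pos (Finset.disjoint_map _ |>.2 h)]
    · rw [if_neg h, if_neg (fun h' => h (Finset.disjoint_map _ |>.1 h'))]

end Crest.Agent.Lib.Row168
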