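import Crest.Agent.Lib.Row168.Defs

set_option autoImplicit false
open MeasureTheory Filter Topology
open Crest.ProbabilityR.SpanningTrees Crest.ProbabilityR.StronglyRayleigh

namespace Crest.Agent.Lib.Row168
namespace J3

open Complex Metric

lemma slit_div {z : ℂ} (hz : z ∈ slitPlane) {c : ℝ} (hc : 0 < c) : z / (c : ℂ) ∈ slitPlane := by
  rw [mem_slitPlane_iff] at hz ⊢
  rw [div_ofReal_re, div_ofReal_im]
  rcases hz with h | h
  · left; positivity
  · right; exact div_ne_zero h hc.ne'

lemma exp_half_log_re_pos {z : ℂ} (hz : z ∈ slitPlane) : 0 < (exp (log z / 2)).re := by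
  rw [exp_re]
  apply mul_pos (Real.exp_pos _)
  have h1 : (log z / 2).im = z.arg / 2 := by
    rw [show (2:ℂ) = ((2:ℝ):ℂ) by norm_num, div_ofReal_im, log_im]
  rw [h1]
  have h2 := neg_pi_lt_arg z
  have h3 := arg_le_pi z
  have h4 : z.arg ≠ Real.pi := (mem_slitPlane_iff_arg.mp hz).1
  have h5 : z.arg < Real.pi := lt_of_le_of_ne h3 h4
  apply Real.cos_pos_of_mem_Ioo
  constructor <;> linarith

lemma cayley_norm {q : ℂ} (hq : 0 < q.re) : ‖(q - 1) / (q + 1)‖ ≤ 1 := by
  rw [norm_div]
  apply div_le_one_of_le₀ _ (norm_nonneg _)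
  have h : ‖q - 1‖ ^ 2 ≤ ‖q + 1‖ ^ 2 := by
    rw [← normSq_eq_norm_sq, ← normSq_eq_norm_sq, normSq_apply, normSq_apply]
    simp
    nlinarith
  exact (pow_le_pow_iff_left₀ (norm_nonneg _) (norm_nonneg _) two_ne_zero).mp h

/-- Schwarz lemma on the strip `|Im ζ| < π`. -/
lemma strip_schwarz (H : ℂ → ℂ) (hd : DifferentiableOn ℂ H {ζ | |ζ.im| < Real.pi})
    (hs : ∀ ζ : ℂ, |ζ.im| < Real.pi → H ζ ∈ slitPlane) (c0 c1 a : ℝ) (hc0 : 0 < c0) (hc1 : 0 < c1)
    (ha : 0 ≤ a) (h0 : H 0 = c0) (h1 : H a = c1) :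
    c1 ≤ Real.exp a * c0 ∧ c0 ≤ Real.exp a * c1 := by
  -- the map from the disc to the strip
  let w : ℂ → ℂ := fun u => (1 + u) / (1 - u)
  let φ : ℂ → ℂ := fun u => 2 * log (w u)
  have hne : ∀ u ∈ ball (0:ℂ) 1, (1:ℂ) - u ≠ 0 := by
    intro u hu h
    have hu' : ‖u‖ < 1 := by simpa using hu
    have : u = 1 := by rw [sub_eq_zero] at h; exact h.symm
    rw [this] at hu'; simp at hu'
  have hw : ∀ u ∈ ball (0:ℂ) 1, 0 < (w u).re := by
    intro u hu
    have hu' : ‖u‖ < 1 := by simpa using hu
    have hpos : 0 < normSq (1 - u) := normSq_pos.mpr (hne u hu)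
    have hsq : u.re * u.re + u.im * u.im < 1 := by
      rw [← normSq_apply, normSq_eq_norm_sq]
      nlinarith [norm_nonneg u]
    simp only [w, div_re]
    rw [← add_div]
    apply div_pos _ hpos
    simp
    nlinarith
  have hφ : ∀ u ∈ ball (0:ℂ) 1, |(φ u).im| < Real.pi := by
    intro u hu
    have h1 : |(w u).arg| < Real.pi / 2 := abs_arg_lt_pi_div_two_iff.mpr (Or.inl (hw u hu))
    have h2 : (φ u).im = 2 * (w u).arg := by
      simp only [φ]
      rw [show (2:ℂ) = ((2:ℝ):ℂ) by norm_num, im_ofReal_mul, log_im]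
    rw [h2, abs_mul, abs_of_pos (by norm_num : (0:ℝ) < 2)]
    linarith
  let Q : ℂ → ℂ := fun u => exp (log (H (φ u) / c0) / 2)
  let f : ℂ → ℂ := fun u => (Q u - 1) / (Q u + 1)
  have hG : ∀ u ∈ ball (0:ℂ) 1, H (φ u) / c0 ∈ slitPlane := fun u hu => slit_div (hs _ (hφ u hu)) hc0
  have hQ : ∀ u ∈ ball (0:ℂ) 1, 0 < (Q u).re := fun u hu => exp_half_log_re_pos (hG u hu)
  have hf : ∀ u ∈ ball (0:ℂ) 1, ‖f u‖ ≤ 1 := fun u hu => cayley_norm (hQ u hu)
  have hdw : DifferentiableOn ℂ w (ball 0 1) := by
    apply DifferentiableOn.div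
    · fun_prop
    · fun_prop
    · exact hne
  have hdφ : DifferentiableOn ℂ φ (ball 0 1) := by
    apply DifferentiableOn.const_mul
    apply hdw.clog
    intro u hu
    exact mem_slitPlane_iff.mpr (Or.inl (hw u hu))
  have hdQ : DifferentiableOn ℂ Q (ball 0 1) := by
    apply DifferentiableOn.cexp
    apply DifferentiableOn.div_const
    apply DifferentiableOn.clog
    · apply DifferentiableOn.div_const
      exact hd.comp hdφ (fun u hu => hφ u hu)
    · exact hG
  have hdf : DifferentiableOn ℂ f (ball 0 1) := by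
    apply DifferentiableOn.div
    · exact hdQ.sub_const 1
    · exact hdQ.add_const 1
    · intro u hu h
      have := hQ u hu
      have h2 : (Q u + 1).re = 0 := by rw [h]; simp
      simp at h2
      linarith
  have hw0 : w 0 = 1 := by simp [w]
  have hφ0 : φ 0 = 0 := by simp [φ, hw0]
  have hc0' : (c0 : ℂ) ≠ 0 := by exact_mod_cast hc0.ne'
  have hf0 : f 0 = 0 := by
    simp only [f, Q, hφ0, h0, div_self hc0', log_one, zero_div, exp_zero, sub_self]
  -- evaluation point
  set u0 : ℝ := (Real.exp (a/2) - 1) / (Real.exp (a/2) + 1) with hu0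
  have he1 : 1 ≤ Real.exp (a/2) := Real.one_le_exp (by linarith)
  have hu0n : 0 ≤ u0 := by rw [hu0]; apply div_nonneg <;> linarith
  have hu01 : u0 < 1 := by rw [hu0, div_lt_one (by linarith)]; linarith
  have hnorm : ‖(u0 : ℂ)‖ = u0 := by
    rw [norm_real, Real.norm_of_nonneg hu0n]
  have hlt : ‖(u0 : ℂ)‖ < 1 := by rw [hnorm]; exact hu01
  have hwu : w u0 = ((Real.exp (a/2) : ℝ) : ℂ) := by
    have h : (1 + u0) / (1 - u0) = Real.exp (a/2) := by
      rw [div_eq_iff (by linarith), hu0]
      have : Real.exp (a/2) + 1 ≠ 0 := by linarith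
      field_simp
      ring
    rw [← h]; simp [w]
  have hφu : φ u0 = a := by
    simp only [φ]
    rw [hwu, ← ofReal_log (Real.exp_pos _).le, Real.log_exp]
    push_cast
    ring
  set r : ℝ := Real.sqrt (c1 / c0) with hr
  have hrpos : 0 < r := Real.sqrt_pos.mpr (by positivity)
  have hQu : Q u0 = r := by
    simp only [Q]
    rw [hφu, h1, ← ofReal_div, ← ofReal_log (by positivity)]
    have : ((Real.log (c1 / c0) : ℝ) : ℂ) / 2 = ((Real.log (c1/c0) / 2 : ℝ) : ℂ) := by push_cast; ring
    rw [this, ← ofReal_exp]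
    congr 1
    rw [← Real.log_sqrt (by positivity), Real.exp_log hrpos]
  have hfu : ‖f u0‖ = |(r - 1) / (r + 1)| := by
    simp only [f]
    rw [hQu]
    have : ((r:ℂ) - 1) / (r + 1) = (((r - 1) / (r + 1) : ℝ) : ℂ) := by push_cast; ring
    rw [this, norm_real, Real.norm_eq_abs]
  have hmain : |(r - 1) / (r + 1)| ≤ u0 := by
    have hm : Set.MapsTo f (ball 0 1) (closedBall 0 1) := by
      intro u hu
      simpa using hf u hu
    have := norm_le_norm_of_mapsTo_ball hdf hm hf0 hlt
    rwa [hfu, hnorm] at this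
  rw [abs_le] at hmain
  have hE : 0 < Real.exp (a/2) := Real.exp_pos _
  have hr1 : r ≤ Real.exp (a/2) := by
    have := hmain.2
    rw [hu0, div_le_div_iff₀ (by linarith) (by linarith)] at this
    nlinarith
  have hr2 : 1 ≤ Real.exp (a/2) * r := by
    have := hmain.1
    rw [hu0, ← neg_div, div_le_div_iff₀ (by linarith) (by linarith)] at this
    nlinarith
  have hrr : r * r = c1 / c0 := Real.mul_self_sqrt (by positivity)
  have hee : Real.exp (a/2) * Real.exp (a/2) = Real.exp a := by rw [← Real.exp_add]; congr 1; ring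
  have k1 : r * r ≤ Real.exp a := by
    rw [← hee]; exact mul_le_mul hr1 hr1 hrpos.le hE.le
  have k2 : 1 ≤ Real.exp a * (r * r) := by
    have : 1 * 1 ≤ (Real.exp (a/2) * r) * (Real.exp (a/2) * r) := mul_le_mul hr2 hr2 zero_le_one (by positivity)
    calc (1:ℝ) = 1 * 1 := by ring
      _ ≤ _ := this
      _ = Real.exp a * (r * r) := by rw [← hee]; ring
  rw [hrr] at k1 k2
  constructor
  · rwa [div_le_iff₀ hc0] at k1
  · rw [mul_div_assoc', le_div_iff₀ hc0] at k2
    linarith

/-- The main complex-analytic input. -/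
lemma main_ratio (A B : ℂ → ℂ) (hA : Differentiable ℂ A) (hB : Differentiable ℂ B)
    (hAc : ∀ ζ, A ((starRingEnd ℂ) ζ) = (starRingEnd ℂ) (A ζ))
    (hBc : ∀ ζ, B ((starRingEnd ℂ) ζ) = (starRingEnd ℂ) (B ζ))
    (α β : ℝ → ℝ) (hα : ∀ x : ℝ, 0 < α x) (hβ : ∀ x : ℝ, 0 < β x)
    (hAr : ∀ x : ℝ, A x = α x) (hBr : ∀ x : ℝ, B x = β x)
    (hns : ∀ ζ : ℂ, 0 < ζ.im → ζ.im < Real.pi → ∀ s : ℂ, 0 < s.im → A ζ + s * B ζ ≠ 0)
    (a : ℝ) (ha : 0 ≤ a) :
    α a / β a ≤ Real.exp a * (α 0 / β 0) ∧ α 0 / β 0 ≤ Real.exp a * (α a / β a) := by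
  -- step 1 : B does not vanish in the upper half strip
  have hB1 : ∀ ζ : ℂ, 0 < ζ.im → ζ.im < Real.pi → B ζ ≠ 0 := by
    intro ζ₀ h1 h2 hBz
    have hAz : A ζ₀ ≠ 0 := by
      have := hns ζ₀ h1 h2 I (by simp)
      rw [hBz, mul_zero, add_zero] at this
      exact this
    have hAan : AnalyticAt ℂ A ζ₀ := hA.analyticAt ζ₀
    have hBan : AnalyticAt ℂ B ζ₀ := hB.analyticAt ζ₀
    have hk : AnalyticAt ℂ (fun ζ => B ζ / A ζ) ζ₀ := hBan.div hAan hAz
    have hAne : ∀ᶠ ζ in 𝓝 ζ₀, A ζ ≠ 0 := hAan.continuousAt.eventually_ne hAz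
    rcases hk.eventually_constant_or_nhds_le_map_nhds with hc | hmap
    · -- constant: B = 0 near ζ₀
      have hB0 : ∀ᶠ ζ in 𝓝 ζ₀, B ζ = 0 := by
        filter_upwards [hc, hAne] with ζ h3 h4
        rw [hBz, zero_div, div_eq_zero_iff] at h3
        exact h3.resolve_right h4
      have hBall : B = 0 := by
        have hBan' : AnalyticOnNhd ℂ B Set.univ := fun z _ => hB.analyticAt z
        have := hBan'.eqOn_zero_of_preconnected_of_eventuallyEq_zero isPreconnected_univ (Set.mem_univ ζ₀) hB0
        funext z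
        exact this (Set.mem_univ z)
      have := hBr 0
      rw [hBall] at this
      have h0 : β 0 = 0 := by
        simp at this
        exact_mod_cast this.symm
      exact (hβ 0).ne' h0
    · -- open: takes the value iρ
      have hstrip : ∀ᶠ ζ in 𝓝 ζ₀, 0 < ζ.im ∧ ζ.im < Real.pi := by
        have h3 : ∀ᶠ ζ : ℂ in 𝓝 ζ₀, 0 < ζ.im := (continuous_im.tendsto ζ₀).eventually_const_lt h1
        have h4 : ∀ᶠ ζ : ℂ in 𝓝 ζ₀, ζ.im < Real.pi := (continuous_im.tendsto ζ₀).eventually_lt_const h2
        exact h3.and h4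
      have hset : {w : ℂ | ∃ ζ, (0 < ζ.im ∧ ζ.im < Real.pi) ∧ A ζ ≠ 0 ∧ B ζ / A ζ = w} ∈ 𝓝 (B ζ₀ / A ζ₀) := by
        apply hmap
        rw [mem_map]
        filter_upwards [hstrip, hAne] with ζ h3 h4
        exact ⟨ζ, h3, h4, rfl⟩
      rw [hBz, zero_div, Metric.mem_nhds_iff] at hset
      obtain ⟨δ, hδ, hball⟩ := hset
      have hmem : (((δ/2 : ℝ) : ℂ) * I) ∈ ball (0:ℂ) δ := by
        rw [mem_ball_zero_iff, norm_mul, norm_I, mul_one, norm_real, Real.norm_of_nonneg (by positivity)]
        linarith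
      obtain ⟨ζ, h3, h4, h5⟩ := hball hmem
      have h6 := hns ζ h3.1 h3.2 (((2/δ : ℝ) : ℂ) * I) (by
        simp
        positivity)
      apply h6
      have h7 : B ζ = (((δ/2 : ℝ) : ℂ) * I) * A ζ := by
        rw [← h5]; field_simp
      rw [h7]
      have hδ' : (δ : ℂ) ≠ 0 := by exact_mod_cast hδ.ne'
      push_cast
      field_simp
      rw [I_sq]; ring
  have hBne : ∀ ζ : ℂ, |ζ.im| < Real.pi → B ζ ≠ 0 := by
    intro ζ hζ
    rw [abs_lt] at hζ
    rcases lt_trichotomy ζ.im 0 with h | h | h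
    · intro h0
      have h1 : B ((starRingEnd ℂ) ζ) = 0 := by rw [hBc, h0]; simp
      exact hB1 _ (by simpa using h) (by simp; linarith [hζ.1]) h1
    · have : ζ = (ζ.re : ℂ) := by apply Complex.ext <;> simp [h]
      rw [this, hBr]
      exact_mod_cast (hβ _).ne'
    · exact hB1 ζ h hζ.2
  have hup : ∀ ζ : ℂ, 0 < ζ.im → ζ.im < Real.pi → 0 ≤ (A ζ / B ζ).im := by
    intro ζ h1 h2
    by_contra hneg
    rw [not_le] at hneg
    have := hns ζ h1 h2 (-(A ζ / B ζ)) (by simpa using hneg)
    apply this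
    have hb := hB1 ζ h1 h2
    field_simp
    ring
  have hdown : ∀ ζ : ℂ, ζ.im < 0 → -Real.pi < ζ.im → (A ζ / B ζ).im ≤ 0 := by
    intro ζ h1 h2
    have h3 := hup ((starRingEnd ℂ) ζ) (by simpa using h1) (by simp; linarith)
    rw [hAc, hBc, ← map_div₀, conj_im] at h3
    linarith
  -- the perturbed function
  have key : ∀ ε : ℝ, 0 < ε →
      α a / β a + ε * Real.exp a ≤ Real.exp a * (α 0 / β 0 + ε) ∧
      α 0 / β 0 + ε ≤ Real.exp a * (α a / β a + ε * Real.exp a) := by
    intro ε hε
    have hpos : ∀ x : ℝ, 0 < α x / β x := fun x => div_pos (hα x) (hβ x)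
    apply strip_schwarz (fun ζ => A ζ / B ζ + ε * exp ζ) _ _ _ _ a _ _ ha
    · show A 0 / B 0 + ε * exp 0 = _
      have e1 := hAr 0
      have e2 := hBr 0
      rw [ofReal_zero] at e1 e2
      rw [e1, e2, exp_zero]
      push_cast; ring
    · show A a / B a + ε * exp a = _
      rw [hAr, hBr]
      push_cast; ring
    · apply DifferentiableOn.add
      · exact hA.differentiableOn.div hB.differentiableOn (fun ζ hζ => hBne ζ hζ)
      · fun_prop
    · intro ζ hζ
      have hζ' := abs_lt.mp hζ
      have him : (ε * exp ζ : ℂ).im = ε * (Real.exp ζ.re * Real.sin ζ.im) := by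
        rw [im_ofReal_mul, exp_im]
      rw [mem_slitPlane_iff]
      rcases lt_trichotomy ζ.im 0 with h | h | h
      · right
        have h1 := hdown ζ h hζ'.1
        have h2 : Real.sin ζ.im < 0 := Real.sin_neg_of_neg_of_neg_pi_lt h hζ'.1
        have h3 : (ε * exp ζ : ℂ).im < 0 := by
          rw [him]
          have : Real.exp ζ.re * Real.sin ζ.im < 0 := mul_neg_of_pos_of_neg (Real.exp_pos _) h2
          exact mul_neg_of_pos_of_neg hε this
        rw [add_im]
        linarith
      · left
        have hz : ζ = (ζ.re : ℂ) := by apply Complex.ext <;> simp [h]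
        rw [hz, hAr, hBr, ← ofReal_exp, ← ofReal_div, ← ofReal_mul, ← ofReal_add, ofReal_re]
        have := hpos ζ.re
        positivity
      · right
        have h1 := hup ζ h hζ'.2
        have h2 : 0 < Real.sin ζ.im := Real.sin_pos_of_pos_of_lt_pi h hζ'.2
        have h3 : 0 < (ε * exp ζ : ℂ).im := by
          rw [him]; positivity
        rw [add_im]
        linarith
    · have := hpos 0; positivity
    · have := hpos a; positivity
  constructor
  · have := (key 1 one_pos).1
    linarith
  · apply le_of_forall_pos_le_add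
    intro δ hδ
    have h := (key (δ / (Real.exp a * Real.exp a)) (by positivity)).2
    have h2 : δ / (Real.exp a * Real.exp a) * Real.exp a * Real.exp a = δ := by field_simp
    have h3 : 0 ≤ δ / (Real.exp a * Real.exp a) := by positivity
    nlinarith

section

variable {ι : Type*}

open Classical in
/-- coefficient polynomial of `z_v`, in exponential coordinates -/
noncomputable def Br (q : Finset ι → ℝ) (F : Finset ι) (v : ι) (y : ι → ℝ) : ℝ :=
  ∑ S ∈ F.powerset, q (insert v S) * Real.exp (∑ i ∈ S, y i)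

open Classical in
lemma zf_insert (q : Finset ι → ℝ) (F : Finset ι) (v : ι) (hv : v ∉ F) (y : ι → ℝ) :
    zf q (insert v F) y = zf q F y + Real.exp (y v) * Br q F v y := by
  unfold zf Br
  rw [Finset.sum_powerset_insert hv, Finset.mul_sum]
  congr 1
  apply Finset.sum_congr rfl
  intro S hS
  have hvS : v ∉ S := fun h => hv (Finset.mem_powerset.mp hS h)
  rw [Finset.sum_insert hvS, Real.exp_add]
  ring

open Classical in
lemma mf_insert (q : Finset ι → ℝ) (F : Finset ι) (v : ι) (hv : v ∉ F) (y : ι → ℝ) :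
    mf q (insert v F) y v = Real.exp (y v) * Br q F v y / (zf q F y + Real.exp (y v) * Br q F v y) := by
  unfold mf
  rw [zf_insert q F v hv]
  congr 1
  rw [Finset.sum_filter, Finset.sum_powerset_insert hv]
  have h1 : ∑ t ∈ F.powerset, (if v ∈ t then q t * Real.exp (∑ i ∈ t, y i) else 0) = 0 := by
    apply Finset.sum_eq_zero
    intro S hS
    rw [if_neg (fun h => hv (Finset.mem_powerset.mp hS h))]
  rw [h1, zero_add, Br, Finset.mul_sum]
  apply Finset.sum_congr rfl
  intro S hS
  have hvS : v ∉ S := fun h => hv (Finset.mem_powerset.mp hS h)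
  rw [if_pos (Finset.mem_insert_self _ _), Finset.sum_insert hvS, Real.exp_add]
  ring

open Classical in
/-- the key estimate for the ratio -/
lemma ratio_step (ν : Measure (ι → Bool)) (hν : IsStronglyRayleigh ν) (F : Finset ι) (v : ι) (hv : v ∉ F)
    (hA0 : ∃ S ∈ F.powerset, winW ν (insert v F) S ≠ 0)
    (hB0 : ∃ S ∈ F.powerset, winW ν (insert v F) (insert v S) ≠ 0)
    (y δ : ι → ℝ) (a : ℝ) (ha : 0 < a) (hδ : ∀ i ∈ F, 0 < δ i ∧ δ i ≤ a) :
    let q := winW ν (insert v F)
    zf q F (y + δ) / Br q F v (y + δ) ≤ Real.exp a * (zf q F y / Br q F v y) ∧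
    zf q F y / Br q F v y ≤ Real.exp a * (zf q F (y + δ) / Br q F v (y + δ)) := by
  intro q
  have hq : ∀ S, 0 ≤ q S := fun S => ENNReal.toReal_nonneg
  let u : ι → ℝ := fun i => δ i / a
  let A : ℂ → ℂ := fun ζ => ∑ S ∈ F.powerset, (q S : ℂ) * exp (∑ i ∈ S, ((y i : ℂ) + u i * ζ))
  let B : ℂ → ℂ := fun ζ => ∑ S ∈ F.powerset, (q (insert v S) : ℂ) * exp (∑ i ∈ S, ((y i : ℂ) + u i * ζ))
  let α : ℝ → ℝ := fun x => zf q F (fun i => y i + u i * x)
  let β : ℝ → ℝ := fun x => Br q F v (fun i => y i + u i * x)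
  have hAd : Differentiable ℂ A := by
    apply Differentiable.fun_sum
    intro S _
    fun_prop
  have hBd : Differentiable ℂ B := by
    apply Differentiable.fun_sum
    intro S _
    fun_prop
  have hAr : ∀ x : ℝ, A x = α x := by
    intro x
    simp only [A, α, zf]
    push_cast
    rfl
  have hBr : ∀ x : ℝ, B x = β x := by
    intro x
    simp only [B, β, Br]
    push_cast
    rfl
  have hAc : ∀ ζ, A ((starRingEnd ℂ) ζ) = (starRingEnd ℂ) (A ζ) := by
    intro ζ
    simp only [A]
    rw [map_sum]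
    apply Finset.sum_congr rfl
    intro S _
    rw [map_mul, ← exp_conj, map_sum]
    simp
  have hBc : ∀ ζ, B ((starRingEnd ℂ) ζ) = (starRingEnd ℂ) (B ζ) := by
    intro ζ
    simp only [B]
    rw [map_sum]
    apply Finset.sum_congr rfl
    intro S _
    rw [map_mul, ← exp_conj, map_sum]
    simp
  have hα : ∀ x, 0 < α x := by
    intro x
    obtain ⟨S, hS, hne⟩ := hA0
    simp only [α, zf]
    apply Finset.sum_pos'
    · intro T _; exact mul_nonneg (hq T) (Real.exp_pos _).le
    · exact ⟨S, hS, mul_pos (lt_of_le_of_ne (hq S) (Ne.symm hne)) (Real.exp_pos _)⟩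
  have hβ : ∀ x, 0 < β x := by
    intro x
    obtain ⟨S, hS, hne⟩ := hB0
    simp only [β, Br]
    apply Finset.sum_pos'
    · intro T _; exact mul_nonneg (hq _) (Real.exp_pos _).le
    · exact ⟨S, hS, mul_pos (lt_of_le_of_ne (hq _) (Ne.symm hne)) (Real.exp_pos _)⟩
  have hns : ∀ ζ : ℂ, 0 < ζ.im → ζ.im < Real.pi → ∀ s : ℂ, 0 < s.im → A ζ + s * B ζ ≠ 0 := by
    intro ζ h1 h2 s hs
    let z : ι → ℂ := fun i => if i = v then s else exp ((y i : ℂ) + u i * ζ)
    have hz : ∀ i ∈ insert v F, 0 < (z i).im := by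
      intro i hi
      by_cases hiv : i = v
      · simp only [z, if_pos hiv]; exact hs
      · simp only [z, if_neg hiv]
        have hiF : i ∈ F := (Finset.mem_insert.mp hi).resolve_left hiv
        rw [exp_im]
        apply mul_pos (Real.exp_pos _)
        have him : ((y i : ℂ) + u i * ζ).im = u i * ζ.im := by simp
        rw [him]
        have hu0 : 0 < u i := div_pos (hδ i hiF).1 ha
        have hu1 : u i ≤ 1 := by
          simp only [u]; rw [div_le_one ha]; exact (hδ i hiF).2
        apply Real.sin_pos_of_pos_of_lt_pi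
        · positivity
        · nlinarith
    have h := hν (insert v F) z hz
    have heq : genPoly ν (insert v F) z = A ζ + s * B ζ := by
      unfold genPoly
      rw [Finset.sum_powerset_insert hv]
      have hprod : ∀ S ∈ F.powerset, ∏ i ∈ S, z i = exp (∑ i ∈ S, ((y i : ℂ) + u i * ζ)) := by
        intro S hS
        rw [exp_sum]
        apply Finset.prod_congr rfl
        intro i hi
        have hiv : i ≠ v := fun h => hv (h ▸ Finset.mem_powerset.mp hS hi)
        simp only [z, if_neg hiv]
      congr 1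
      · apply Finset.sum_congr rfl
        intro S hS
        rw [hprod S hS]
        rfl
      · simp only [B]
        rw [Finset.mul_sum]
        apply Finset.sum_congr rfl
        intro S hS
        have hvS : v ∉ S := fun h => hv (Finset.mem_powerset.mp hS h)
        rw [Finset.prod_insert hvS, hprod S hS]
        have : z v = s := by simp [z]
        rw [this]
        show ((winW ν (insert v F) (insert v S) : ℝ) : ℂ) * _ = _
        ring
    rw [heq] at h
    exact h
  have hmain := main_ratio A B hAd hBd hAc hBc α β hα hβ hAr hBr hns a ha.le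
  have e0 : (fun i => y i + u i * 0) = y := by funext i; simp
  have ea : ∀ g : (ι → ℝ) → ℝ, g (fun i => y i + u i * a) = g (y + δ) := by
    intro g
    congr 1
    funext i
    simp only [u, Pi.add_apply]
    field_simp
  simp only [α, β] at hmain
  rw [e0, ea (zf q F), ea (Br q F v)] at hmain
  exact hmain

lemma sigmoid_aux (r r' D : ℝ) (hr : 0 < r) (hr' : 0 < r') (hD : 0 ≤ D)
    (h1 : r' ≤ Real.exp D * r) (h2 : r ≤ Real.exp D * r') : |1 / (1 + r) - 1 / (1 + r')| ≤ D := by
  have key : ∀ s t : ℝ, 0 < s → 0 < t → s ≤ t → t ≤ Real.exp D * s → 1 / (1 + s) - 1 / (1 + t) ≤ D := by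
    intro s t hs ht hst h
    have e1 : 1 / (1 + s) - 1 / (1 + t) = (t - s) / ((1 + s) * (1 + t)) := by field_simp; ring
    rw [e1]
    have e2 : (t - s) / ((1 + s) * (1 + t)) ≤ (t - s) / t := by
      apply div_le_div_of_nonneg_left (by linarith) ht
      nlinarith
    have e3 : (t - s) / t = 1 - s / t := by field_simp
    have e4 : Real.exp (-D) ≤ s / t := by
      rw [le_div_iff₀ ht, Real.exp_neg]
      rw [inv_mul_le_iff₀ (Real.exp_pos D)]
      exact h
    have e5 : 1 - D ≤ Real.exp (-D) := by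
      have := Real.add_one_le_exp (-D)
      linarith
    linarith
  rcases le_total r r' with h | h
  · rw [abs_of_nonneg]
    · exact key r r' hr hr' h h1
    · have : 1 / (1 + r') ≤ 1 / (1 + r) := by
        apply one_div_le_one_div_of_le <;> linarith
      linarith
  · rw [abs_sub_comm, abs_of_nonneg]
    · exact key r' r hr' hr h h2
    · have : 1 / (1 + r) ≤ 1 / (1 + r') := by
        apply one_div_le_one_div_of_le <;> linarith
      linarith

open Classical in
lemma mf_lip_pos (ν : Measure (ι → Bool)) (hν : IsStronglyRayleigh ν) (F : Finset ι) (v : ι) (hv : v ∉ F)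
    (y y' : ι → ℝ) (D : ℝ) (hD : 0 < D) (h : ∀ i ∈ insert v F, |y i - y' i| ≤ D) :
    |mf (winW ν (insert v F)) (insert v F) y v - mf (winW ν (insert v F)) (insert v F) y' v| ≤ 6 * D := by
  set q := winW ν (insert v F) with hq'
  have hq : ∀ S, 0 ≤ q S := fun S => ENNReal.toReal_nonneg
  rw [mf_insert q F v hv, mf_insert q F v hv]
  by_cases hB0 : ∃ S ∈ F.powerset, q (insert v S) ≠ 0
  · by_cases hA0 : ∃ S ∈ F.powerset, q S ≠ 0
    · have hApos : ∀ x, 0 < zf q F x := by
        intro x
        obtain ⟨S, hS, hne⟩ := hA0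
        unfold zf
        apply Finset.sum_pos'
        · intro T _; exact mul_nonneg (hq T) (Real.exp_pos _).le
        · exact ⟨S, hS, mul_pos (lt_of_le_of_ne (hq S) (Ne.symm hne)) (Real.exp_pos _)⟩
      have hBpos : ∀ x, 0 < Br q F v x := by
        intro x
        obtain ⟨S, hS, hne⟩ := hB0
        unfold Br
        apply Finset.sum_pos'
        · intro T _; exact mul_nonneg (hq _) (Real.exp_pos _).le
        · exact ⟨S, hS, mul_pos (lt_of_le_of_ne (hq _) (Ne.symm hne)) (Real.exp_pos _)⟩
      -- the ratios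
      let H : (ι → ℝ) → ℝ := fun x => zf q F x / Br q F v x
      have hHpos : ∀ x, 0 < H x := fun x => div_pos (hApos x) (hBpos x)
      let y'' : ι → ℝ := fun i => y i - 2 * D
      have s1 := ratio_step ν hν F v hv hA0 hB0 y'' (fun _ => 2 * D) (2 * D) (by positivity)
        (fun i _ => ⟨by positivity, le_refl _⟩)
      have s2 := ratio_step ν hν F v hv hA0 hB0 y'' (fun i => y' i - y'' i) (3 * D) (by positivity)
        (fun i hi => by
          have := abs_le.mp (h i (Finset.mem_insert_of_mem hi))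
          constructor
          · simp only [y'']; linarith
          · simp only [y'']; linarith)
      simp only at s1 s2
      have e1 : y'' + (fun _ => 2 * D) = y := by funext i; simp [y'']
      have e2 : y'' + (fun i => y' i - y'' i) = y' := by funext i; simp
      rw [e1] at s1
      rw [e2] at s2
      have t1 : H y' ≤ Real.exp (5 * D) * H y := by
        calc H y' ≤ Real.exp (3 * D) * H y'' := s2.1
          _ ≤ Real.exp (3 * D) * (Real.exp (2 * D) * H y) := by
              apply mul_le_mul_of_nonneg_left s1.2 (Real.exp_pos _).le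
          _ = Real.exp (5 * D) * H y := by
              rw [← mul_assoc, ← Real.exp_add]; congr 2; ring
      have t2 : H y ≤ Real.exp (5 * D) * H y' := by
        calc H y ≤ Real.exp (2 * D) * H y'' := s1.1
          _ ≤ Real.exp (2 * D) * (Real.exp (3 * D) * H y') := by
              apply mul_le_mul_of_nonneg_left s2.2 (Real.exp_pos _).le
          _ = Real.exp (5 * D) * H y' := by
              rw [← mul_assoc, ← Real.exp_add]; congr 2; ring
      have hyv := abs_le.mp (h v (Finset.mem_insert_self _ _))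
      have f1 : ∀ x : ι → ℝ, Real.exp (x v) * Br q F v x / (zf q F x + Real.exp (x v) * Br q F v x) =
          1 / (1 + H x * Real.exp (-(x v))) := by
        intro x
        have h1 := hApos x
        have h2 := hBpos x
        have h3 := Real.exp_pos (x v)
        simp only [H]
        rw [Real.exp_neg]
        field_simp
        ring
      rw [f1, f1]
      apply sigmoid_aux _ _ _ (mul_pos (hHpos _) (Real.exp_pos _)) (mul_pos (hHpos _) (Real.exp_pos _)) (by positivity)
      · calc H y' * Real.exp (-(y' v)) ≤ (Real.exp (5 * D) * H y) * (Real.exp D * Real.exp (-(y v))) := by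
              apply mul_le_mul t1 _ (Real.exp_pos _).le (mul_pos (Real.exp_pos _) (hHpos _)).le
              rw [← Real.exp_add]
              apply Real.exp_le_exp.mpr
              linarith
          _ = Real.exp (6 * D) * (H y * Real.exp (-(y v))) := by
              rw [show (6 * D) = 5 * D + D by ring, Real.exp_add]; ring
      · calc H y * Real.exp (-(y v)) ≤ (Real.exp (5 * D) * H y') * (Real.exp D * Real.exp (-(y' v))) := by
              apply mul_le_mul t2 _ (Real.exp_pos _).le (mul_pos (Real.exp_pos _) (hHpos _)).le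
              rw [← Real.exp_add]
              apply Real.exp_le_exp.mpr
              linarith
          _ = Real.exp (6 * D) * (H y' * Real.exp (-(y' v))) := by
              rw [show (6 * D) = 5 * D + D by ring, Real.exp_add]; ring
    · -- A = 0
      push Not at hA0
      have hz : ∀ x, zf q F x = 0 := by
        intro x
        unfold zf
        apply Finset.sum_eq_zero
        intro S hS
        rw [hA0 S hS, zero_mul]
      have hBpos : ∀ x, 0 < Br q F v x := by
        intro x
        obtain ⟨S, hS, hne⟩ := hB0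
        unfold Br
        apply Finset.sum_pos'
        · intro T _; exact mul_nonneg (hq _) (Real.exp_pos _).le
        · exact ⟨S, hS, mul_pos (lt_of_le_of_ne (hq _) (Ne.symm hne)) (Real.exp_pos _)⟩
      rw [hz, hz, zero_add, zero_add, div_self (mul_pos (Real.exp_pos _) (hBpos _)).ne',
        div_self (mul_pos (Real.exp_pos _) (hBpos _)).ne']
      simp
      positivity
  · push Not at hB0
    have hz : ∀ x, Br q F v x = 0 := by
      intro x
      unfold Br
      apply Finset.sum_eq_zero
      intro S hS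
      rw [hB0 S hS, zero_mul]
    rw [hz, hz]
    simp
    positivity

end

end J3

/-- J3: strongly Rayleigh laws: the tilted means are Lipschitz in the sup norm of the field. -/
theorem mf_lipschitz_of_stronglyRayleigh {ι : Type*} (ν : Measure (ι → Bool))
    [IsProbabilityMeasure ν] (hν : IsStronglyRayleigh ν) :
    ∃ C : ℝ, 0 ≤ C ∧ ∀ (Λ : Finset ι) (y y' : ι → ℝ) (D : ℝ), (∀ i ∈ Λ, |y i - y' i| ≤ D) →
      ∀ v ∈ Λ, |mf (winW ν Λ) Λ y v - mf (winW ν Λ) Λ y' v| ≤ C * D := by
  classical
  refine ⟨6, by norm_num, ?_⟩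
  intro Λ y y' D h v hv
  have hD : 0 ≤ D := (abs_nonneg _).trans (h v hv)
  have hΛ : Λ = insert v (Λ.erase v) := (Finset.insert_erase hv).symm
  apply le_of_forall_pos_le_add
  intro ε hε
  have hmain := J3.mf_lip_pos ν hν (Λ.erase v) v (Finset.notMem_erase v Λ) y y' (D + ε / 6) (by positivity)
    (fun i hi => by
      have hi' : i ∈ Λ := by rw [hΛ]; convert hi
      linarith [h i hi'])
  have e : insert v (Λ.erase v) = Λ := Finset.insert_erase hv
  rw [e] at hmain
  linarith [hmain]

end Crest.Agent.Lib.Row168
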