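import Crest.Agent.Lib.Row168.Transport

/-!
Law of the flow: `W` at time `k / 2 ^ i` has, on the window, the law of the observation process.
-/

set_option autoImplicit false
open MeasureTheory Filter Topology ProbabilityTheory
open scoped ENNReal

namespace Crest.Agent.Lib.Row168

variable {ι : Type*}

lemma trig_C11 (Λ : Finset ι) (θ : ι → ℝ) (f f' : ℝ → ℝ)
    (hf : ∀ s d : ℝ, |f (s + d) - f s - f' s * d| ≤ d ^ 2) (hf' : ∀ s, |f' s| ≤ 1) :
    C11 Λ (fun w => f (∑ i ∈ Λ, θ i * w i)) (∑ i ∈ Λ, |θ i|) ((∑ i ∈ Λ, |θ i|) ^ 2) := by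
  constructor
  intro w
  refine ⟨fun i => f' (∑ i ∈ Λ, θ i * w i) * θ i, ?_, ?_⟩
  · refine Finset.sum_le_sum fun i _ => ?_
    rw [abs_mul]
    calc _ ≤ 1 * |θ i| := by gcongr; exact hf' _
      _ = |θ i| := one_mul _
  · intro u D hD hu
    have e1 : ∑ i ∈ Λ, θ i * (w i + u i) = ∑ i ∈ Λ, θ i * w i + ∑ i ∈ Λ, θ i * u i := by
      rw [← Finset.sum_add_distrib]
      exact Finset.sum_congr rfl fun i _ => by ring
    have e2 : ∑ i ∈ Λ, f' (∑ i ∈ Λ, θ i * w i) * θ i * u i =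
        f' (∑ i ∈ Λ, θ i * w i) * ∑ i ∈ Λ, θ i * u i := by
      rw [Finset.mul_sum]
      exact Finset.sum_congr rfl fun i _ => by ring
    rw [e1, e2]
    refine (hf _ _).trans ?_
    have h1 : |∑ i ∈ Λ, θ i * u i| ≤ (∑ i ∈ Λ, |θ i|) * D := by
      calc _ ≤ ∑ i ∈ Λ, |θ i * u i| := Finset.abs_sum_le_sum_abs _ _
        _ ≤ ∑ i ∈ Λ, |θ i| * D := Finset.sum_le_sum fun i hi => by
            rw [abs_mul]
            exact mul_le_mul_of_nonneg_left (hu i hi) (abs_nonneg _)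
        _ = _ := by rw [Finset.sum_mul]
    calc (∑ i ∈ Λ, θ i * u i) ^ 2 = |∑ i ∈ Λ, θ i * u i| ^ 2 := (sq_abs _).symm
      _ ≤ ((∑ i ∈ Λ, |θ i|) * D) ^ 2 := by gcongr
      _ = _ := by ring

lemma taylor_of_deriv (f f' f'' : ℝ → ℝ) (h1 : ∀ x, HasDerivAt f (f' x) x)
    (h2 : ∀ x, HasDerivAt f' (f'' x) x) (h3 : ∀ x, |f'' x| ≤ 1) (s d : ℝ) :
    |f (s + d) - f s - f' s * d| ≤ d ^ 2 := by
  have hlip : ∀ a b, |f' a - f' b| ≤ |a - b| := by
    intro a b
    have := Convex.norm_image_sub_le_of_norm_hasDerivWithin_le (f := f') (f' := f'') (C := 1)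
      (s := Set.univ) (x := b) (y := a) (fun x _ => (h2 x).hasDerivWithinAt)
      (fun x _ => by simpa using h3 x) convex_univ trivial trivial
    simpa using this
  have key : ∀ x ∈ Set.uIcc s (s + d), ‖f' x - f' s‖ ≤ |d| := by
    intro x hx
    have h1 := hlip x s
    have h2 : |x - s| ≤ |s + d - s| := Set.abs_sub_left_of_mem_uIcc hx
    rw [Real.norm_eq_abs]
    simpa using h1.trans h2
  have h := Convex.norm_image_sub_le_of_norm_hasDerivWithin_le (f := fun x => f x - f' s * x)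
    (f' := fun x => f' x - f' s) (C := |d|) (s := Set.uIcc s (s + d)) (x := s) (y := s + d)
    (fun x _ => ?_) key (convex_uIcc _ _) Set.left_mem_uIcc Set.right_mem_uIcc
  · have e : f (s + d) - f s - f' s * d = (f (s + d) - f' s * (s + d)) - (f s - f' s * s) := by
      ring
    rw [e]
    refine h.trans ?_
    simp [← sq, sq_abs]
  · have h2 : HasDerivAt (fun x : ℝ => f' s * x) (f' s) x := by
      simpa using (hasDerivAt_id x).const_mul (f' s)
    exact ((h1 x).sub h2).hasDerivWithinAt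

variable (ν : Measure (ι → Bool)) [IsProbabilityMeasure ν]

lemma integral_W_eq_of_C11 (Λ : Finset ι) {C : ℝ} (hV : Valid (winW ν Λ) Λ C) (i k : ℕ)
    {F : (ι → ℝ) → ℝ} (hFc : Continuous F) {M : ℝ} (hM : ∀ w, |F w| ≤ M) {K1 K2 : ℝ}
    (hK1 : 0 ≤ K1) (hK2 : 0 ≤ K2) (hF : C11 Λ F K1 K2) (hFm : Measurable F) :
    ∫ g, F (W (winW ν Λ) Λ i k g) ∂(PL ι) =
      ∫ p, F (Y (k * (1 / 2 : ℝ) ^ i) p) ∂(ν.prod (PL ι)) := by
  set q := winW ν Λ with hq
  have hC := hV.C_nonneg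
  set B1 : ℝ := 4 * Λ.card + 2 * C with hB1
  set B2 : ℝ := 72 * Λ.card ^ 2 + 4 * Λ.card with hB2
  have hB10 : 0 ≤ B1 := by positivity
  have hB20 : 0 ≤ B2 := by positivity
  set T : ℝ := k * (1 / 2 : ℝ) ^ i with hT
  have hT0 : 0 ≤ T := by positivity
  -- convergence of the Euler schemes
  have h1 : Tendsto (fun j : ℕ => ∫ g, F (eul q Λ (((1 / 2 : ℝ) ^ i) / (2 ^ j : ℕ)) (k * 2 ^ j) g)
      ∂(PL ι)) atTop (𝓝 (∫ g, F (W q Λ i k g) ∂(PL ι))) := by
    refine tendsto_integral_of_dominated_convergence (fun _ => M) (fun j => ?_)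
      (integrable_const M) (fun j => Eventually.of_forall fun g => hM _)
      (Eventually.of_forall fun g => ?_)
    · refine (hFm.comp (measurable_pi_lambda _ fun v => ?_)).aestronglyMeasurable
      exact measurable_eul' q Λ _ _ v
    · refine (hFc.tendsto _).comp ?_
      rw [tendsto_pi_nhds]
      exact fun v => hV.W_tendsto i k g v
  have h2 : Tendsto (fun j : ℕ => ∫ g, F (eul q Λ (((1 / 2 : ℝ) ^ i) / (2 ^ j : ℕ)) (k * 2 ^ j) g)
      ∂(PL ι)) atTop (𝓝 (∫ p, F (Y T p) ∂(ν.prod (PL ι)))) := by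
    rw [tendsto_iff_dist_tendsto_zero]
    set K : ℝ := 2 * T * Real.exp (2 * T * B1) * (K2 + T * B2 * K1) with hK
    have hbound : ∀ j : ℕ, dist (∫ g, F (eul q Λ (((1 / 2 : ℝ) ^ i) / (2 ^ j : ℕ)) (k * 2 ^ j) g)
        ∂(PL ι)) (∫ p, F (Y T p) ∂(ν.prod (PL ι))) ≤ K * (1 / 2 : ℝ) ^ j := by
      intro j
      set h : ℝ := ((1 / 2 : ℝ) ^ i) / (2 ^ j : ℕ) with hh
      have hh0 : 0 ≤ h := by positivity
      have hnh : ((k * 2 ^ j : ℕ) : ℝ) * h = T := by
        rw [hh, hT]; push_cast; field_simp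
      have h3 := many_steps ν Λ hV (B1 := B1) (B2 := B2) rfl rfl h hh0 (k * 2 ^ j) hFm hM hK1 hK2 hF
      rw [hnh] at h3
      rw [Real.dist_eq]
      refine h3.trans ?_
      have h4 : (1 + h * B1) ^ (2 * (k * 2 ^ j)) ≤ Real.exp (2 * T * B1) := by
        have : 1 + h * B1 ≤ Real.exp (h * B1) := by
          have := Real.add_one_le_exp (h * B1); linarith
        calc (1 + h * B1) ^ (2 * (k * 2 ^ j)) ≤ (Real.exp (h * B1)) ^ (2 * (k * 2 ^ j)) := by
              gcongr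
          _ = Real.exp (2 * T * B1) := by
              rw [← Real.exp_nat_mul, ← hnh]; push_cast; ring_nf
      have h5 : 0 ≤ K2 + T * B2 * K1 := by positivity
      have h6 : h ≤ (1 / 2 : ℝ) ^ j := by
        rw [hh, div_le_iff₀ (by positivity)]
        have : (1 / 2 : ℝ) ^ j * (2 ^ j : ℕ) = 1 := by
          push_cast; rw [← mul_pow]; norm_num
        rw [this]
        exact pow_le_one₀ (by norm_num) (by norm_num)
      calc 2 * h ^ 2 * ((k * 2 ^ j : ℕ) : ℝ) * (1 + h * B1) ^ (2 * (k * 2 ^ j)) * (K2 + T * B2 * K1)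
          = 2 * h * T * (1 + h * B1) ^ (2 * (k * 2 ^ j)) * (K2 + T * B2 * K1) := by
            rw [← hnh]; ring
        _ ≤ 2 * (1 / 2 : ℝ) ^ j * T * Real.exp (2 * T * B1) * (K2 + T * B2 * K1) := by
            gcongr
        _ = K * (1 / 2 : ℝ) ^ j := by rw [hK]; ring
    refine squeeze_zero (fun j => dist_nonneg) hbound ?_
    have := (tendsto_pow_atTop_nhds_zero_of_lt_one (r := (1 / 2 : ℝ)) (by norm_num)
      (by norm_num)).const_mul K
    simpa using this
  exact tendsto_nhds_unique h1 h2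

/-- the law identity -/
theorem map_W_eq (Λ : Finset ι) {C : ℝ} (hV : Valid (winW ν Λ) Λ C) (i k : ℕ) :
    (PL ι).map (fun g => Λ.restrict (W (winW ν Λ) Λ i k g)) =
      (ν.prod (PL ι)).map (fun p => Λ.restrict (Y (k * (1 / 2 : ℝ) ^ i) p)) := by
  classical
  set q := winW ν Λ with hq
  have hWm : Measurable (fun g : ι → ℝ => (W q Λ i k g : ι → ℝ)) :=
    measurable_pi_lambda _ fun v => measurable_W' q Λ i k v
  have hWr : Measurable (fun g : ι → ℝ => Λ.restrict (W q Λ i k g)) :=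
    (Finset.measurable_restrict Λ).comp hWm
  have hYr : Measurable (fun p : (ι → Bool) × (ι → ℝ) => Λ.restrict (Y (k * (1 / 2 : ℝ) ^ i) p)) :=
    (Finset.measurable_restrict Λ).comp (measurable_Y _)
  have hp1 : IsProbabilityMeasure ((PL ι).map (fun g => Λ.restrict (W q Λ i k g))) :=
    Measure.isProbabilityMeasure_map hWr.aemeasurable
  have hp2 : IsProbabilityMeasure
      ((ν.prod (PL ι)).map (fun p => Λ.restrict (Y (k * (1 / 2 : ℝ) ^ i) p))) :=
    Measure.isProbabilityMeasure_map hYr.aemeasurable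
  refine Measure.ext_of_charFunDual ?_
  ext L
  set θ : ι → ℝ := fun v => if h : v ∈ Λ then L (Pi.single ⟨v, h⟩ 1) else 0 with hθ
  have hL : ∀ w : ι → ℝ, L (Λ.restrict w) = ∑ v ∈ Λ, θ v * w v := by
    intro w
    have h1 : Λ.restrict w = ∑ v : Λ, (w v) • (Pi.single v (1 : ℝ) : Λ → ℝ) := by
      ext v
      simp [Finset.sum_apply, Pi.single_apply]
    rw [h1, map_sum]
    simp only [map_smul, smul_eq_mul]
    rw [← Finset.sum_coe_sort Λ (fun v => θ v * w v)]
    refine Finset.sum_congr rfl fun v _ => ?_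
    simp only [hθ, v.2, dif_pos]
    ring
  rw [charFunDual_apply, charFunDual_apply,
    integral_map hWr.aemeasurable (by fun_prop), integral_map hYr.aemeasurable (by fun_prop)]
  simp only [hL]
  have hcos : ∀ s d : ℝ, |Real.cos (s + d) - Real.cos s - (-Real.sin s) * d| ≤ d ^ 2 :=
    taylor_of_deriv Real.cos (fun x => -Real.sin x) (fun x => -Real.cos x)
      (fun x => Real.hasDerivAt_cos x) (fun x => (Real.hasDerivAt_sin x).neg)
      (fun x => by rw [abs_neg]; exact Real.abs_cos_le_one x)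
  have hsin : ∀ s d : ℝ, |Real.sin (s + d) - Real.sin s - (Real.cos s) * d| ≤ d ^ 2 :=
    taylor_of_deriv Real.sin Real.cos (fun x => -Real.sin x)
      (fun x => Real.hasDerivAt_sin x) (fun x => Real.hasDerivAt_cos x)
      (fun x => by rw [abs_neg]; exact Real.abs_sin_le_one x)
  have hsumc : Continuous fun w : ι → ℝ => ∑ v ∈ Λ, θ v * w v := by fun_prop
  have hsumm : Measurable fun w : ι → ℝ => ∑ v ∈ Λ, θ v * w v := by fun_prop
  have hS0 : 0 ≤ ∑ v ∈ Λ, |θ v| := Finset.sum_nonneg fun _ _ => abs_nonneg _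
  have hc := integral_W_eq_of_C11 ν Λ hV i k (F := fun w => Real.cos (∑ v ∈ Λ, θ v * w v))
    (Real.continuous_cos.comp hsumc) (M := 1) (fun w => Real.abs_cos_le_one _) hS0 (by positivity)
    (trig_C11 Λ θ Real.cos (fun x => -Real.sin x) hcos
      (fun s => by rw [abs_neg]; exact Real.abs_sin_le_one s)) (Real.measurable_cos.comp hsumm)
  have hs := integral_W_eq_of_C11 ν Λ hV i k (F := fun w => Real.sin (∑ v ∈ Λ, θ v * w v))
    (Real.continuous_sin.comp hsumc) (M := 1) (fun w => Real.abs_sin_le_one _) hS0 (by positivity)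
    (trig_C11 Λ θ Real.sin Real.cos hsin Real.abs_cos_le_one) (Real.measurable_sin.comp hsumm)
  have hsplit : ∀ {Ω : Type _} [MeasurableSpace Ω] (μ : Measure Ω) [IsProbabilityMeasure μ]
      (X : Ω → ℝ) (_ : Measurable X),
      ∫ x, Complex.exp (((X x : ℝ) : ℂ) * Complex.I) ∂μ =
        ((∫ x, Real.cos (X x) ∂μ : ℝ) : ℂ) + ((∫ x, Real.sin (X x) ∂μ : ℝ) : ℂ) * Complex.I := by
    intro Ω _ μ _ X hX
    have hci : Integrable (fun x => Real.cos (X x)) μ :=
      integrable_bdd μ _ (Real.measurable_cos.comp hX) 1 fun x => Real.abs_cos_le_one _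
    have hsi : Integrable (fun x => Real.sin (X x)) μ :=
      integrable_bdd μ _ (Real.measurable_sin.comp hX) 1 fun x => Real.abs_sin_le_one _
    have e : ∀ x, Complex.exp (((X x : ℝ) : ℂ) * Complex.I) =
        ((Real.cos (X x) : ℝ) : ℂ) + ((Real.sin (X x) : ℝ) : ℂ) * Complex.I := by
      intro x
      rw [Complex.exp_mul_I, Complex.ofReal_cos, Complex.ofReal_sin]
    simp_rw [e]
    rw [integral_add hci.ofReal (hsi.ofReal.mul_const _), integral_mul_const,
      integral_complex_ofReal, integral_complex_ofReal]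
  rw [hsplit (PL ι) (fun g => ∑ v ∈ Λ, θ v * W q Λ i k g v) (hsumm.comp hWm),
    hsplit (ν.prod (PL ι)) (fun p => ∑ v ∈ Λ, θ v * Y (k * (1 / 2 : ℝ) ^ i) p v)
      (hsumm.comp (measurable_Y _))]
  rw [hc, hs]

/-- integrals of window observables -/
lemma integral_W_eq (Λ : Finset ι) {C : ℝ} (hV : Valid (winW ν Λ) Λ C) (i k : ℕ)
    {Φ : (ι → ℝ) → ℝ} (hΦ : Measurable Φ) (hdep : DepOn Λ Φ) :
    ∫ g, Φ (W (winW ν Λ) Λ i k g) ∂(PL ι) =
      ∫ p, Φ (Y (k * (1 / 2 : ℝ) ^ i) p) ∂(ν.prod (PL ι)) := by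
  classical
  -- factor through the restriction
  set ext0 : (Λ → ℝ) → (ι → ℝ) := fun x v => if h : v ∈ Λ then x ⟨v, h⟩ else 0 with hext
  have hextm : Measurable ext0 := by
    refine measurable_pi_lambda _ fun v => ?_
    by_cases h : v ∈ Λ
    · simp only [hext, h, dif_pos]; fun_prop
    · simp only [hext, h, dif_neg, not_false_iff]; fun_prop
  have hfac : ∀ w : ι → ℝ, Φ w = Φ (ext0 (Λ.restrict w)) := by
    intro w
    refine hdep _ _ fun v hv => ?_
    simp [hext, hv]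
  have hWm : Measurable (fun g : ι → ℝ => (W (winW ν Λ) Λ i k g : ι → ℝ)) :=
    measurable_pi_lambda _ fun v => measurable_W' _ Λ i k v
  have hWr : Measurable (fun g : ι → ℝ => Λ.restrict (W (winW ν Λ) Λ i k g)) :=
    (Finset.measurable_restrict Λ).comp hWm
  have hYr : Measurable (fun p : (ι → Bool) × (ι → ℝ) => Λ.restrict (Y (k * (1 / 2 : ℝ) ^ i) p)) :=
    (Finset.measurable_restrict Λ).comp (measurable_Y _)
  have hm : Measurable fun x : Λ → ℝ => Φ (ext0 x) := hΦ.comp hextm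
  calc ∫ g, Φ (W (winW ν Λ) Λ i k g) ∂(PL ι)
      = ∫ g, Φ (ext0 (Λ.restrict (W (winW ν Λ) Λ i k g))) ∂(PL ι) :=
        integral_congr_ae (Eventually.of_forall fun g => hfac _)
    _ = ∫ x, Φ (ext0 x) ∂((PL ι).map (fun g => Λ.restrict (W (winW ν Λ) Λ i k g))) :=
        (integral_map hWr.aemeasurable hm.aestronglyMeasurable).symm
    _ = ∫ x, Φ (ext0 x) ∂((ν.prod (PL ι)).map
          (fun p => Λ.restrict (Y (k * (1 / 2 : ℝ) ^ i) p))) := by rw [map_W_eq ν Λ hV i k]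
    _ = ∫ p, Φ (ext0 (Λ.restrict (Y (k * (1 / 2 : ℝ) ^ i) p))) ∂(ν.prod (PL ι)) :=
        integral_map hYr.aemeasurable hm.aestronglyMeasurable
    _ = ∫ p, Φ (Y (k * (1 / 2 : ℝ) ^ i) p) ∂(ν.prod (PL ι)) :=
        integral_congr_ae (Eventually.of_forall fun p => (hfac _).symm)

/-- probabilities of window events -/
lemma measure_W_eq (Λ : Finset ι) {C : ℝ} (hV : Valid (winW ν Λ) Λ C) (i k : ℕ)
    {A : Set (ι → ℝ)} (hA : MeasurableSet A)
    (hdep : ∀ w w' : ι → ℝ, (∀ v ∈ Λ, w v = w' v) → (w ∈ A ↔ w' ∈ A)) :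
    (PL ι) {g | W (winW ν Λ) Λ i k g ∈ A} =
      (ν.prod (PL ι)) {p | Y (k * (1 / 2 : ℝ) ^ i) p ∈ A} := by
  have hWm : Measurable (fun g : ι → ℝ => (W (winW ν Λ) Λ i k g : ι → ℝ)) :=
    measurable_pi_lambda _ fun v => measurable_W' _ Λ i k v
  have h := integral_W_eq ν Λ hV i k (Φ := A.indicator 1) (measurable_one.indicator hA) (by
    intro w w' hw
    have := hdep w w' hw
    by_cases h : w ∈ A
    · rw [Set.indicator_of_mem h, Set.indicator_of_mem (this.1 h)]; rfl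
    · rw [Set.indicator_of_notMem h, Set.indicator_of_notMem (fun h' => h (this.2 h'))])
  have e1 : ∫ g, A.indicator (1 : (ι → ℝ) → ℝ) (W (winW ν Λ) Λ i k g) ∂(PL ι) =
      ((PL ι) {g | W (winW ν Λ) Λ i k g ∈ A}).toReal := by
    have : (fun g => A.indicator (1 : (ι → ℝ) → ℝ) (W (winW ν Λ) Λ i k g)) =
        ({g | W (winW ν Λ) Λ i k g ∈ A} : Set (ι → ℝ)).indicator 1 := by
      ext g; rfl
    have hmA : MeasurableSet ({g | W (winW ν Λ) Λ i k g ∈ A} : Set (ι → ℝ)) := hWm hA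
    rw [this, integral_indicator_one hmA]
    rfl
  have e2 : ∫ p, A.indicator (1 : (ι → ℝ) → ℝ) (Y (k * (1 / 2 : ℝ) ^ i) p) ∂(ν.prod (PL ι)) =
      ((ν.prod (PL ι)) {p | Y (k * (1 / 2 : ℝ) ^ i) p ∈ A}).toReal := by
    have : (fun p => A.indicator (1 : (ι → ℝ) → ℝ) (Y (k * (1 / 2 : ℝ) ^ i) p)) =
        ({p | Y (k * (1 / 2 : ℝ) ^ i) p ∈ A} : Set ((ι → Bool) × (ι → ℝ))).indicator 1 := by
      ext g; rfl
    have hmA : MeasurableSet ({p | Y (k * (1 / 2 : ℝ) ^ i) p ∈ A} : Set ((ι → Bool) × (ι → ℝ))) :=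
      (measurable_Y _) hA
    rw [this, integral_indicator_one hmA]
    rfl
  rw [e1, e2] at h
  exact (ENNReal.toReal_eq_toReal_iff' (measure_ne_top _ _) (measure_ne_top _ _)).1 h

end Crest.Agent.Lib.Row168
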