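import Crest.Agent.Lib.Row168.Defs

/-!
Logistic noise: log-density `lg`, field `psi`, law `logis`.
-/

set_option autoImplicit false
open MeasureTheory Filter Topology
open scoped ENNReal

namespace Crest.Agent.Lib.Row168

/-- `log` of the logistic density. -/
noncomputable def lg (w : ℝ) : ℝ := -2 * Real.log (Real.exp (w / 2) + Real.exp (-w / 2))

/-- the external field produced by the observation `w` of `t * x + noise`. -/
noncomputable def psi (t w : ℝ) : ℝ := lg (w - t) - lg w

/-- derivative of `lg`. -/
noncomputable def dlg (w : ℝ) : ℝ :=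
  -((Real.exp (w / 2) - Real.exp (-w / 2)) / (Real.exp (w / 2) + Real.exp (-w / 2)))

noncomputable def dpsi (t w : ℝ) : ℝ := dlg (w - t) - dlg w

lemma sumexp_pos (w : ℝ) : 0 < Real.exp (w / 2) + Real.exp (-w / 2) := by positivity

lemma hasDerivAt_lg (w : ℝ) : HasDerivAt lg (dlg w) w := by
  have h1 : HasDerivAt (fun w : ℝ => Real.exp (w / 2)) (Real.exp (w / 2) * (1 / 2)) w := by
    have := (hasDerivAt_id w).div_const 2
    exact this.exp
  have h2 : HasDerivAt (fun w : ℝ => Real.exp (-w / 2)) (Real.exp (-w / 2) * (-1 / 2)) w := by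
    have := (hasDerivAt_neg w).div_const 2
    exact this.exp
  have h3 := ((h1.add h2).log (sumexp_pos w).ne').const_mul (-2)
  have h4 : dlg w = -2 * ((Real.exp (w / 2) * (1 / 2) + Real.exp (-w / 2) * (-1 / 2)) /
      ((fun w : ℝ => Real.exp (w / 2)) w + (fun w : ℝ => Real.exp (-w / 2)) w)) := by
    have := sumexp_pos w
    simp only [dlg]
    field_simp
    ring
  rw [h4]
  exact h3

lemma abs_dlg_le (w : ℝ) : |dlg w| ≤ 1 := by
  have hp := sumexp_pos w
  have e1 := Real.exp_pos (w / 2)
  have e2 := Real.exp_pos (-w / 2)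
  rw [dlg, abs_neg, abs_div, abs_of_pos hp, div_le_one hp, abs_le]
  constructor <;> linarith

lemma hasDerivAt_dlg (w : ℝ) :
    HasDerivAt dlg (-(2 / (Real.exp (w / 2) + Real.exp (-w / 2)) ^ 2)) w := by
  have h1 : HasDerivAt (fun w : ℝ => Real.exp (w / 2)) (Real.exp (w / 2) * (1 / 2)) w := by
    have := (hasDerivAt_id w).div_const 2
    exact this.exp
  have h2 : HasDerivAt (fun w : ℝ => Real.exp (-w / 2)) (Real.exp (-w / 2) * (-1 / 2)) w := by
    have := (hasDerivAt_neg w).div_const 2
    exact this.exp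
  have h3 := ((h1.sub h2).div (h1.add h2) (sumexp_pos w).ne').neg
  have hmul : Real.exp (w / 2) * Real.exp (-w / 2) = 1 := by
    rw [← Real.exp_add]; simp [neg_div]
  refine HasDerivAt.congr_deriv h3 ?_
  have hp := (sumexp_pos w).ne'
  change -(((Real.exp (w / 2) * (1 / 2) - Real.exp (-w / 2) * (-1 / 2)) *
      (Real.exp (w / 2) + Real.exp (-w / 2)) - (Real.exp (w / 2) - Real.exp (-w / 2)) *
      (Real.exp (w / 2) * (1 / 2) + Real.exp (-w / 2) * (-1 / 2))) /
      (Real.exp (w / 2) + Real.exp (-w / 2)) ^ 2) =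
      -(2 / (Real.exp (w / 2) + Real.exp (-w / 2)) ^ 2)
  rw [neg_inj]
  congr 1
  linear_combination 2 * hmul

lemma abs_lg_sub_le (a b : ℝ) : |lg a - lg b| ≤ |a - b| := by
  have := Convex.norm_image_sub_le_of_norm_hasDerivWithin_le (f := lg) (f' := dlg) (C := 1)
    (s := Set.univ) (x := b) (y := a) (fun x _ => (hasDerivAt_lg x).hasDerivWithinAt)
    (fun x _ => by simpa using abs_dlg_le x) convex_univ trivial trivial
  simpa using this

lemma abs_dlg_sub_le (a b : ℝ) : |dlg a - dlg b| ≤ |a - b| := by
  have := Convex.norm_image_sub_le_of_norm_hasDerivWithin_le (f := dlg)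
    (f' := fun w => -(2 / (Real.exp (w / 2) + Real.exp (-w / 2)) ^ 2)) (C := 1)
    (s := Set.univ) (x := b) (y := a) (fun x _ => (hasDerivAt_dlg x).hasDerivWithinAt)
    (fun x _ => ?_) convex_univ trivial trivial
  · simpa using this
  · have hmul : Real.exp (x / 2) * Real.exp (-x / 2) = 1 := by
      rw [← Real.exp_add]; simp [neg_div]
    have hp := sumexp_pos x
    rw [norm_neg, Real.norm_eq_abs, abs_of_pos (by positivity), div_le_one (by positivity)]
    nlinarith [sq_nonneg (Real.exp (x / 2) - Real.exp (-x / 2)),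
      sq_nonneg (Real.exp (x / 2)), sq_nonneg (Real.exp (-x / 2))]

lemma abs_lg_taylor (w u : ℝ) : |lg (w + u) - lg w - dlg w * u| ≤ u ^ 2 := by
  -- mean value theorem for `x ↦ lg x - dlg w * x` on the segment
  have key : ∀ x ∈ Set.uIcc w (w + u), ‖dlg x - dlg w‖ ≤ |u| := by
    intro x hx
    have h1 := abs_dlg_sub_le x w
    have h2 : |x - w| ≤ |w + u - w| := Set.abs_sub_left_of_mem_uIcc hx
    rw [Real.norm_eq_abs]
    simpa using h1.trans h2
  have h := Convex.norm_image_sub_le_of_norm_hasDerivWithin_le (f := fun x => lg x - dlg w * x)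
    (f' := fun x => dlg x - dlg w) (C := |u|) (s := Set.uIcc w (w + u)) (x := w) (y := w + u)
    (fun x _ => ?_) key (convex_uIcc _ _) Set.left_mem_uIcc Set.right_mem_uIcc
  · have e : lg (w + u) - lg w - dlg w * u = (lg (w + u) - dlg w * (w + u)) - (lg w - dlg w * w) := by
      ring
    rw [e]
    refine h.trans ?_
    simp [← sq, sq_abs]
  · have h1 := hasDerivAt_lg x
    have h2 : HasDerivAt (fun x : ℝ => dlg w * x) (dlg w) x := by
      simpa using (hasDerivAt_id x).const_mul (dlg w)
    exact (h1.sub h2).hasDerivWithinAt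

lemma abs_psi_sub_le (t t' w w' : ℝ) : |psi t w - psi t' w'| ≤ |t - t'| + 2 * |w - w'| := by
  have h1 := abs_lg_sub_le (w - t) (w' - t')
  have h2 := abs_lg_sub_le w w'
  have h3 : |w - t - (w' - t')| ≤ |w - w'| + |t - t'| := by
    have : w - t - (w' - t') = (w - w') - (t - t') := by ring
    rw [this]; exact abs_sub _ _
  have h4 : psi t w - psi t' w' = (lg (w - t) - lg (w' - t')) - (lg w - lg w') := by
    simp only [psi]; ring
  rw [h4]
  have := abs_sub (lg (w - t) - lg (w' - t')) (lg w - lg w')
  linarith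

lemma abs_dpsi_le (t w : ℝ) : |dpsi t w| ≤ 2 := by
  have h1 := abs_dlg_le (w - t)
  have h2 := abs_dlg_le w
  have := abs_sub (dlg (w - t)) (dlg w)
  unfold dpsi; linarith

lemma abs_psi_taylor (t w u : ℝ) : |psi t (w + u) - psi t w - dpsi t w * u| ≤ 2 * u ^ 2 := by
  have h1 := abs_lg_taylor (w - t) u
  have h2 := abs_lg_taylor w u
  have e : psi t (w + u) - psi t w - dpsi t w * u =
      (lg (w - t + u) - lg (w - t) - dlg (w - t) * u) - (lg (w + u) - lg w - dlg w * u) := by
    simp only [psi, dpsi]
    have : w + u - t = w - t + u := by ring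
    rw [this]; ring
  rw [e]
  have := abs_sub (lg (w - t + u) - lg (w - t) - dlg (w - t) * u) (lg (w + u) - lg w - dlg w * u)
  linarith

lemma psi_zero (w : ℝ) : psi 0 w = 0 := by simp [psi]

lemma continuous_lg : Continuous lg := by
  rw [continuous_iff_continuousAt]
  exact fun x => (hasDerivAt_lg x).continuousAt

lemma measurable_lg : Measurable lg := continuous_lg.measurable

lemma measurable_psi (t : ℝ) : Measurable (psi t) := by
  unfold psi
  exact (measurable_lg.comp (measurable_id.sub_const t)).sub measurable_lg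

lemma continuous_psi (t : ℝ) : Continuous (psi t) := by
  unfold psi
  exact (continuous_lg.comp (continuous_id.sub continuous_const)).sub continuous_lg

/-- logistic density -/
lemma exp_lg (w : ℝ) : Real.exp (lg w) = 1 / (Real.exp (w / 2) + Real.exp (-w / 2)) ^ 2 := by
  have hp := sumexp_pos w
  rw [lg]
  have : -2 * Real.log (Real.exp (w / 2) + Real.exp (-w / 2)) =
      Real.log (1 / (Real.exp (w / 2) + Real.exp (-w / 2)) ^ 2) := by
    rw [Real.log_div one_ne_zero (by positivity), Real.log_one, Real.log_pow]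
    push_cast; ring
  rw [this, Real.exp_log (by positivity)]

/-- distribution function -/
noncomputable def cdfL (w : ℝ) : ℝ := Real.exp w / (Real.exp w + 1)

lemma hasDerivAt_cdfL (w : ℝ) : HasDerivAt cdfL (Real.exp (lg w)) w := by
  have h1 := Real.hasDerivAt_exp w
  have h2 : HasDerivAt (fun w => Real.exp w + 1) (Real.exp w) w := h1.add_const 1
  have hp : Real.exp w + 1 ≠ 0 := by positivity
  have h3 := h1.div h2 hp
  refine HasDerivAt.congr_deriv h3 ?_
  rw [exp_lg]
  have e1 : Real.exp w = Real.exp (w / 2) * Real.exp (w / 2) := by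
    rw [← Real.exp_add]; ring_nf
  have hmul : Real.exp (w / 2) * Real.exp (-w / 2) = 1 := by
    rw [← Real.exp_add]; simp [neg_div]
  have hp' := (sumexp_pos w).ne'
  set a := Real.exp (w / 2)
  set b := Real.exp (-w / 2)
  have ha : a ≠ 0 := (Real.exp_pos _).ne'
  rw [e1] at hp ⊢
  have h5 : (a * a + 1) = a * (a + b) := by rw [mul_add, hmul]
  rw [h5]
  have h6 : a * a * (a * (a + b)) - a * a * (a * a) = a ^ 2 * (a * b) := by ring
  rw [h6, hmul, mul_pow]
  field_simp

lemma tendsto_cdfL_atTop : Tendsto cdfL atTop (𝓝 1) := by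
  have h : cdfL = fun w => 1 - 1 / (Real.exp w + 1) := by
    ext w
    have : Real.exp w + 1 ≠ 0 := by positivity
    simp only [cdfL]; field_simp; ring
  rw [h]
  have h1 : Tendsto (fun w => Real.exp w + 1) atTop atTop :=
    tendsto_atTop_add_const_right _ _ Real.tendsto_exp_atTop
  have h2 : Tendsto (fun w => 1 / (Real.exp w + 1)) atTop (𝓝 0) := by
    simp only [one_div]
    exact h1.inv_tendsto_atTop
  simpa using (tendsto_const_nhds (x := (1 : ℝ))).sub h2

lemma tendsto_cdfL_atBot : Tendsto cdfL atBot (𝓝 0) := by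
  have h1 : Tendsto (fun w => Real.exp w + 1) atBot (𝓝 (0 + 1)) :=
    Real.tendsto_exp_atBot.add_const 1
  have h2 := Real.tendsto_exp_atBot.div h1 (by norm_num)
  rw [zero_div] at h2
  exact h2

lemma integrable_exp_lg : Integrable (fun w => Real.exp (lg w)) := by
  have h1 : IntegrableOn (fun w => Real.exp (lg w)) (Set.Ioi 0) :=
    integrableOn_Ioi_deriv_of_nonneg' (fun x _ => hasDerivAt_cdfL x)
      (fun x _ => (Real.exp_pos _).le) tendsto_cdfL_atTop
  have h2 : IntegrableOn (fun w => Real.exp (lg w)) (Set.Iic 0) := by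
    have := integrableOn_Ioi_deriv_of_nonneg' (a := 0) (g := fun x => - cdfL (-x))
      (g' := fun x => Real.exp (lg (-x))) (l := 0)
      (fun x _ => ?_) (fun x _ => (Real.exp_pos _).le) ?_
    · have h3 := this.comp_neg
      simp only [neg_neg] at h3
      rw [integrableOn_Iic_iff_integrableOn_Iio]
      simpa using h3
    · have := ((hasDerivAt_cdfL (-x)).comp x (hasDerivAt_neg x)).neg
      refine HasDerivAt.congr_deriv this ?_
      simp
    · have := (tendsto_cdfL_atBot.comp tendsto_neg_atTop_atBot).neg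
      simpa using this
  have := h2.union h1
  rwa [Set.Iic_union_Ioi, integrableOn_univ] at this

lemma integral_exp_lg : ∫ w, Real.exp (lg w) = 1 := by
  have := integral_of_hasDerivAt_of_tendsto (f := cdfL) (f' := fun w => Real.exp (lg w))
    (fun x => hasDerivAt_cdfL x) integrable_exp_lg tendsto_cdfL_atBot tendsto_cdfL_atTop
  simpa using this

/-- the logistic law -/
noncomputable def logis : Measure ℝ := volume.withDensity fun w => ENNReal.ofReal (Real.exp (lg w))

instance : IsProbabilityMeasure logis := by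
  constructor
  rw [logis, withDensity_apply _ MeasurableSet.univ, Measure.restrict_univ,
    ← ofReal_integral_eq_lintegral_ofReal integrable_exp_lg
      (Eventually.of_forall fun x => (Real.exp_pos _).le), integral_exp_lg, ENNReal.ofReal_one]

lemma measurable_density : Measurable fun w => ENNReal.ofReal (Real.exp (lg w)) :=
  (Real.measurable_exp.comp measurable_lg).ennreal_ofReal

/-- quasi-invariance of the logistic law. -/
lemma logis_map_add (t : ℝ) :
    logis.map (fun g => g + t) = logis.withDensity fun w => ENNReal.ofReal (Real.exp (psi t w)) := by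
  ext s hs
  rw [Measure.map_apply (measurable_add_const t) hs]
  rw [logis, withDensity_apply _ (hs.preimage (measurable_add_const t)),
    ← withDensity_mul _ measurable_density
      (g := fun w => ENNReal.ofReal (Real.exp (psi t w)))
      ((Real.measurable_exp.comp (measurable_psi t)).ennreal_ofReal),
    withDensity_apply _ hs]
  rw [← lintegral_indicator (hs.preimage (measurable_add_const t)), ← lintegral_indicator hs]
  rw [← lintegral_sub_right_eq_self _ t]
  apply lintegral_congr
  intro w
  by_cases hw : w ∈ s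
  · have : w - t ∈ (fun g => g + t) ⁻¹' s := by simpa using hw
    rw [Set.indicator_of_mem this, Set.indicator_of_mem hw, Pi.mul_apply,
      ← ENNReal.ofReal_mul (Real.exp_pos _).le, ← Real.exp_add]
    congr 2
    simp [psi]
  · have : w - t ∉ (fun g => g + t) ⁻¹' s := by simpa using hw
    rw [Set.indicator_of_notMem this, Set.indicator_of_notMem hw]

lemma exp_lg_le (w : ℝ) : Real.exp (lg w) ≤ Real.exp (-|w|) := by
  rw [exp_lg, div_le_iff₀ (by have := sumexp_pos w; positivity)]
  have e1 := Real.exp_pos (w / 2)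
  have e2 := Real.exp_pos (-w / 2)
  rcases abs_cases w with ⟨h, _⟩ | ⟨h, _⟩
  · rw [h]
    have : Real.exp (-w) * Real.exp (w / 2) ^ 2 = 1 := by
      rw [← Real.exp_nat_mul, ← Real.exp_add]; simp; ring
    calc (1 : ℝ) = Real.exp (-w) * Real.exp (w / 2) ^ 2 := this.symm
      _ ≤ _ := by gcongr; linarith
  · rw [h, neg_neg]
    have : Real.exp w * Real.exp (-w / 2) ^ 2 = 1 := by
      rw [← Real.exp_nat_mul, ← Real.exp_add]; simp; ring
    calc (1 : ℝ) = Real.exp w * Real.exp (-w / 2) ^ 2 := this.symm
      _ ≤ _ := by gcongr; linarith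

lemma exp_lg_le_quarter (w : ℝ) : Real.exp (lg w) ≤ 1 / 4 := by
  have hmul : Real.exp (w / 2) * Real.exp (-w / 2) = 1 := by
    rw [← Real.exp_add]; simp [neg_div]
  have hp := sumexp_pos w
  rw [exp_lg, div_le_div_iff₀ (by positivity) (by norm_num)]
  nlinarith [sq_nonneg (Real.exp (w / 2) - Real.exp (-w / 2))]

/-- anticoncentration -/
lemma logis_interval_le (c δ : ℝ) (hδ : 0 ≤ δ) :
    logis (Set.Icc (c - δ) (c + δ)) ≤ ENNReal.ofReal δ := by
  rw [logis, withDensity_apply _ measurableSet_Icc]
  calc ∫⁻ w in Set.Icc (c - δ) (c + δ), ENNReal.ofReal (Real.exp (lg w))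
      ≤ ∫⁻ _ in Set.Icc (c - δ) (c + δ), ENNReal.ofReal (1 / 4) :=
        lintegral_mono fun w => ENNReal.ofReal_le_ofReal (exp_lg_le_quarter w)
    _ = ENNReal.ofReal (1 / 4) * ENNReal.ofReal (2 * δ) := by
        rw [lintegral_const, Measure.restrict_apply MeasurableSet.univ, Set.univ_inter,
          Real.volume_Icc]
        congr 2; ring
    _ ≤ ENNReal.ofReal δ := by
        rw [← ENNReal.ofReal_mul (by norm_num)]
        apply ENNReal.ofReal_le_ofReal
        linarith

/-- tails -/
lemma logis_tail_le (a : ℝ) (ha : 0 ≤ a) :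
    logis {g | a ≤ |g|} ≤ ENNReal.ofReal (2 * Real.exp (-a)) := by
  have hms : MeasurableSet {g : ℝ | a ≤ |g|} := measurableSet_le measurable_const measurable_norm
  have h1 : {g : ℝ | a ≤ |g|} ⊆ Set.Ici a ∪ Set.Iic (-a) := by
    intro g hg
    rcases le_abs.1 (show a ≤ |g| from hg) with h | h
    · left; exact h
    · right; simp; linarith
  have hI : logis (Set.Ici a) ≤ ENNReal.ofReal (Real.exp (-a)) := by
    rw [logis, withDensity_apply _ measurableSet_Ici, ← restrict_Ioi_eq_restrict_Ici,
      ← ofReal_integral_eq_lintegral_ofReal integrable_exp_lg.integrableOn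
        (Eventually.of_forall fun x => (Real.exp_pos _).le)]
    apply ENNReal.ofReal_le_ofReal
    calc ∫ w in Set.Ioi a, Real.exp (lg w) ≤ ∫ w in Set.Ioi a, Real.exp (-w) := by
          apply setIntegral_mono_on integrable_exp_lg.integrableOn
            (integrableOn_exp_neg_Ioi a) measurableSet_Ioi
          intro x hx
          have : |x| = x := abs_of_nonneg (ha.trans (le_of_lt hx))
          simpa [this] using exp_lg_le x
      _ = Real.exp (-a) := integral_exp_neg_Ioi a
  have hJ : logis (Set.Iic (-a)) ≤ ENNReal.ofReal (Real.exp (-a)) := by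
    rw [logis, withDensity_apply _ measurableSet_Iic,
      ← ofReal_integral_eq_lintegral_ofReal integrable_exp_lg.integrableOn
        (Eventually.of_forall fun x => (Real.exp_pos _).le)]
    apply ENNReal.ofReal_le_ofReal
    calc ∫ w in Set.Iic (-a), Real.exp (lg w) ≤ ∫ w in Set.Iic (-a), Real.exp w := by
          apply setIntegral_mono_on integrable_exp_lg.integrableOn
            (integrableOn_exp_Iic (-a)) measurableSet_Iic
          intro x hx
          have : |x| = -x := abs_of_nonpos (by simp only [Set.mem_Iic] at hx; linarith)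
          simpa [this] using exp_lg_le x
      _ = Real.exp (-a) := integral_exp_Iic (-a)
  calc logis {g | a ≤ |g|} ≤ logis (Set.Ici a ∪ Set.Iic (-a)) := measure_mono h1
    _ ≤ logis (Set.Ici a) + logis (Set.Iic (-a)) := measure_union_le _ _
    _ ≤ ENNReal.ofReal (Real.exp (-a)) + ENNReal.ofReal (Real.exp (-a)) := add_le_add hI hJ
    _ = _ := by rw [← ENNReal.ofReal_add (Real.exp_pos _).le (Real.exp_pos _).le]; ring_nf

end Crest.Agent.Lib.Row168
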