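import Crest.Agent.Lib.Row168.Law

/-!
The finite-window flow transports the noise to the law of the observation process.
-/

set_option autoImplicit false
open MeasureTheory Filter Topology ProbabilityTheory
open scoped ENNReal

namespace Crest.Agent.Lib.Row168

variable {ι : Type*}

/-- functions with a first order Taylor expansion with uniform constants -/
structure C11 (Λ : Finset ι) (F : (ι → ℝ) → ℝ) (K1 K2 : ℝ) : Prop where
  taylor : ∀ w : ι → ℝ, ∃ c : ι → ℝ, (∑ i ∈ Λ, |c i| ≤ K1) ∧ ∀ (u : ι → ℝ) (D : ℝ),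
    0 ≤ D → (∀ i ∈ Λ, |u i| ≤ D) → |F (fun i => w i + u i) - F w - ∑ i ∈ Λ, c i * u i| ≤ K2 * D ^ 2

lemma C11.depOn {Λ : Finset ι} {F : (ι → ℝ) → ℝ} {K1 K2 : ℝ} (hF : C11 Λ F K1 K2) :
    DepOn Λ F := by
  intro w w' h
  obtain ⟨c, _, hc⟩ := hF.taylor w
  have h1 := hc (fun i => w' i - w i) 0 le_rfl (fun i hi => by simp [h i hi])
  have h2 : ∑ i ∈ Λ, c i * (w' i - w i) = 0 :=
    Finset.sum_eq_zero fun i hi => by simp [h i hi]
  have h3 : (fun i => w i + (w' i - w i)) = w' := by ext i; ring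
  rw [h2, h3] at h1
  have h4 : |F w' - F w| ≤ 0 := by simpa using h1
  have := abs_nonpos_iff.1 h4
  linarith

/-- Taylor expansion of the tilted mean -/
lemma mf_taylor {q : Finset ι → ℝ} {Λ : Finset ι} (h0 : ∀ S ∈ Λ.powerset, 0 ≤ q S)
    (h1 : ∑ S ∈ Λ.powerset, q S = 1) (y : ι → ℝ) (v : ι) :
    ∃ c : ι → ℝ, (∀ i, |c i| ≤ 2) ∧ ∀ (u : ι → ℝ) (D : ℝ), 0 ≤ D → (∀ i ∈ Λ, |u i| ≤ D) →
      |mf q Λ (fun i => y i + u i) v - mf q Λ y v - ∑ i ∈ Λ, c i * u i| ≤
        18 * (Λ.card * D) ^ 2 := by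
  classical
  set Z := zf q Λ y with hZ
  have hZpos : 0 < Z := zf_pos h0 h1 y
  set π : Finset ι → ℝ := fun S => q S * Real.exp (∑ i ∈ S, y i) / Z with hπ
  have hπ0 : ∀ S ∈ Λ.powerset, 0 ≤ π S := fun S hS =>
    div_nonneg (mul_nonneg (h0 S hS) (Real.exp_pos _).le) hZpos.le
  have hπ1 : ∑ S ∈ Λ.powerset, π S = 1 := by
    simp only [hπ]
    rw [← Finset.sum_div]
    exact div_self hZpos.ne'
  set m := mf q Λ y v with hm
  have hm_eq : m = ∑ S ∈ Λ.powerset with v ∈ S, π S := by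
    simp only [hm, mf, hπ, Finset.sum_div]
    rfl
  have hm0 : 0 ≤ m := mf_nonneg h0 y v
  have hm1 : m ≤ 1 := mf_le_one h0 h1 y v
  refine ⟨fun i => (∑ S ∈ Λ.powerset with v ∈ S, π S * (if i ∈ S then 1 else 0)) -
    m * ∑ S ∈ Λ.powerset, π S * (if i ∈ S then 1 else 0), ?_, ?_⟩
  · intro i
    have a1 : 0 ≤ ∑ S ∈ Λ.powerset, π S * (if i ∈ S then (1 : ℝ) else 0) :=
      Finset.sum_nonneg fun S hS => mul_nonneg (hπ0 S hS) (by split_ifs <;> norm_num)
    have a2 : ∑ S ∈ Λ.powerset, π S * (if i ∈ S then (1 : ℝ) else 0) ≤ 1 := by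
      refine le_trans (Finset.sum_le_sum fun S hS => ?_) hπ1.le
      have := hπ0 S hS
      split_ifs <;> linarith
    have a3 : 0 ≤ ∑ S ∈ Λ.powerset with v ∈ S, π S * (if i ∈ S then (1 : ℝ) else 0) :=
      Finset.sum_nonneg fun S hS =>
        mul_nonneg (hπ0 S (Finset.mem_filter.1 hS).1) (by split_ifs <;> norm_num)
    have a4 : ∑ S ∈ Λ.powerset with v ∈ S, π S * (if i ∈ S then (1 : ℝ) else 0) ≤ 1 := by
      refine le_trans ?_ a2
      refine Finset.sum_le_sum_of_subset_of_nonneg (Finset.filter_subset _ _) fun S hS _ => ?_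
      exact mul_nonneg (hπ0 S hS) (by split_ifs <;> norm_num)
    have a5 : m * ∑ S ∈ Λ.powerset, π S * (if i ∈ S then (1 : ℝ) else 0) ≤ 1 := by
      calc _ ≤ 1 * 1 := mul_le_mul hm1 a2 a1 zero_le_one
        _ = 1 := by norm_num
    have a6 := mul_nonneg hm0 a1
    rw [abs_le]
    constructor <;> linarith
  · intro u D hD hu
    set a : ℝ := Λ.card * D with ha
    have ha0 : 0 ≤ a := by positivity
    -- size of `u(S)`
    have husum : ∀ S ∈ Λ.powerset, |∑ i ∈ S, u i| ≤ a := by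
      intro S hS
      have hSΛ := Finset.mem_powerset.1 hS
      calc |∑ i ∈ S, u i| ≤ ∑ i ∈ S, |u i| := Finset.abs_sum_le_sum_abs _ _
        _ ≤ ∑ _i ∈ S, D := Finset.sum_le_sum fun i hi => hu i (hSΛ hi)
        _ = S.card * D := by simp
        _ ≤ Λ.card * D := by
          gcongr
    -- the linear term
    set m1 : ℝ := ∑ S ∈ Λ.powerset with v ∈ S, π S * ∑ i ∈ S, u i with hm1_def
    set z1 : ℝ := ∑ S ∈ Λ.powerset, π S * ∑ i ∈ S, u i with hz1_def
    have hswap : ∀ T : Finset (Finset ι), T ⊆ Λ.powerset →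
        ∑ S ∈ T, π S * ∑ i ∈ S, u i =
        ∑ i ∈ Λ, (∑ S ∈ T, π S * (if i ∈ S then 1 else 0)) * u i := by
      intro T hT
      simp_rw [Finset.sum_mul]
      rw [Finset.sum_comm]
      refine Finset.sum_congr rfl fun S hS => ?_
      have hSΛ := Finset.mem_powerset.1 (hT hS)
      have : ∑ i ∈ S, u i = ∑ i ∈ Λ, (if i ∈ S then 1 else 0) * u i := by
        simp only [ite_mul, one_mul, zero_mul]
        rw [Finset.sum_ite_mem, Finset.inter_eq_right.2 hSΛ]
      rw [this, Finset.mul_sum]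
      exact Finset.sum_congr rfl fun i _ => by ring
    have hlin : ∑ i ∈ Λ, ((∑ S ∈ Λ.powerset with v ∈ S, π S * (if i ∈ S then 1 else 0)) -
        m * ∑ S ∈ Λ.powerset, π S * (if i ∈ S then 1 else 0)) * u i = m1 - m * z1 := by
      rw [hm1_def, hz1_def, hswap _ (Finset.filter_subset _ _), hswap _ subset_rfl,
        Finset.mul_sum, ← Finset.sum_sub_distrib]
      exact Finset.sum_congr rfl fun i _ => by ring
    rw [hlin]
    have hz1b : |z1| ≤ a := by
      calc |z1| ≤ ∑ S ∈ Λ.powerset, |π S * ∑ i ∈ S, u i| := Finset.abs_sum_le_sum_abs _ _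
        _ ≤ ∑ S ∈ Λ.powerset, π S * a := Finset.sum_le_sum fun S hS => by
            rw [abs_mul, abs_of_nonneg (hπ0 S hS)]
            exact mul_le_mul_of_nonneg_left (husum S hS) (hπ0 S hS)
        _ = a := by rw [← Finset.sum_mul, hπ1, one_mul]
    have hm1b : |m1| ≤ a := by
      calc |m1| ≤ ∑ S ∈ Λ.powerset with v ∈ S, |π S * ∑ i ∈ S, u i| :=
            Finset.abs_sum_le_sum_abs _ _
        _ ≤ ∑ S ∈ Λ.powerset with v ∈ S, π S * a := Finset.sum_le_sum fun S hS => by
            have hS' := (Finset.mem_filter.1 hS).1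
            rw [abs_mul, abs_of_nonneg (hπ0 S hS')]
            exact mul_le_mul_of_nonneg_left (husum S hS') (hπ0 S hS')
        _ = m * a := by rw [← Finset.sum_mul, hm_eq]
        _ ≤ 1 * a := by gcongr
        _ = a := one_mul a
    set m' := mf q Λ (fun i => y i + u i) v with hm'_def
    have hm'0 : 0 ≤ m' := mf_nonneg h0 _ v
    have hm'1 : m' ≤ 1 := mf_le_one h0 h1 _ v
    by_cases ha1 : a ≤ 1
    · -- small increments
      set E : ℝ := ∑ S ∈ Λ.powerset, π S * Real.exp (∑ i ∈ S, u i) with hE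
      set N : ℝ := ∑ S ∈ Λ.powerset with v ∈ S, π S * Real.exp (∑ i ∈ S, u i) with hN
      have hm'eq : m' * E = N := by
        have e1 : zf q Λ (fun i => y i + u i) = Z * E := by
          simp only [zf, hE, hπ, Finset.mul_sum, Finset.sum_add_distrib, Real.exp_add]
          refine Finset.sum_congr rfl fun S _ => ?_
          field_simp
        have e2 : ∑ S ∈ Λ.powerset with v ∈ S, q S * Real.exp (∑ i ∈ S, (y i + u i)) = Z * N := by
          simp only [hN, hπ, Finset.mul_sum, Finset.sum_add_distrib, Real.exp_add]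
          refine Finset.sum_congr rfl fun S _ => ?_
          field_simp
        have hE0 : E ≠ 0 := by
          have := zf_pos h0 h1 (fun i => y i + u i)
          rw [e1] at this
          exact (pos_of_mul_pos_right this hZpos.le).ne' |> fun h => h
        simp only [hm'_def, mf, e1, e2]
        field_simp
      have hexp : ∀ S ∈ Λ.powerset, |Real.exp (∑ i ∈ S, u i) - 1 - ∑ i ∈ S, u i| ≤ a ^ 2 := by
        intro S hS
        have hb := husum S hS
        have h2 := Real.abs_exp_sub_one_sub_id_le (hb.trans ha1)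
        refine h2.trans ?_
        rw [← sq_abs]
        gcongr
      have hEr : |E - 1 - z1| ≤ a ^ 2 := by
        have : E - 1 - z1 = ∑ S ∈ Λ.powerset, π S * (Real.exp (∑ i ∈ S, u i) - 1 - ∑ i ∈ S, u i) := by
          simp only [mul_sub, Finset.sum_sub_distrib, mul_one, hπ1]
          rfl
        rw [this]
        calc _ ≤ ∑ S ∈ Λ.powerset, |π S * (Real.exp (∑ i ∈ S, u i) - 1 - ∑ i ∈ S, u i)| :=
              Finset.abs_sum_le_sum_abs _ _
          _ ≤ ∑ S ∈ Λ.powerset, π S * a ^ 2 := Finset.sum_le_sum fun S hS => by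
              rw [abs_mul, abs_of_nonneg (hπ0 S hS)]
              exact mul_le_mul_of_nonneg_left (hexp S hS) (hπ0 S hS)
          _ = a ^ 2 := by rw [← Finset.sum_mul, hπ1, one_mul]
      have hNr : |N - m - m1| ≤ a ^ 2 := by
        have : N - m - m1 = ∑ S ∈ Λ.powerset with v ∈ S,
            π S * (Real.exp (∑ i ∈ S, u i) - 1 - ∑ i ∈ S, u i) := by
          simp only [mul_sub, Finset.sum_sub_distrib, mul_one, ← hm_eq]
          rfl
        rw [this]
        calc _ ≤ ∑ S ∈ Λ.powerset with v ∈ S,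
                |π S * (Real.exp (∑ i ∈ S, u i) - 1 - ∑ i ∈ S, u i)| :=
              Finset.abs_sum_le_sum_abs _ _
          _ ≤ ∑ S ∈ Λ.powerset with v ∈ S, π S * a ^ 2 := Finset.sum_le_sum fun S hS => by
              have hS' := (Finset.mem_filter.1 hS).1
              rw [abs_mul, abs_of_nonneg (hπ0 S hS')]
              exact mul_le_mul_of_nonneg_left (hexp S hS') (hπ0 S hS')
          _ = m * a ^ 2 := by rw [← Finset.sum_mul, hm_eq]
          _ ≤ 1 * a ^ 2 := by gcongr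
          _ = a ^ 2 := one_mul _
      have hElow : 1 / 3 ≤ E := by
        have hex1 : (1 : ℝ) / 3 ≤ Real.exp (-1) := by
          rw [Real.exp_neg, one_div]
          exact inv_anti₀ (Real.exp_pos 1) (Real.exp_one_lt_d9.le.trans (by norm_num))
        calc (1 : ℝ) / 3 ≤ Real.exp (-1) := hex1
          _ = ∑ S ∈ Λ.powerset, π S * Real.exp (-1) := by rw [← Finset.sum_mul, hπ1, one_mul]
          _ ≤ E := Finset.sum_le_sum fun S hS => by
              refine mul_le_mul_of_nonneg_left (Real.exp_le_exp.2 ?_) (hπ0 S hS)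
              have := (abs_le.1 ((husum S hS).trans ha1)).1
              linarith
      have hkey : |(m' - m - (m1 - m * z1)) * E| ≤ 6 * a ^ 2 := by
        set r1 := N - m - m1 with hr1
        set r2 := E - 1 - z1 with hr2
        have e : (m' - m - (m1 - m * z1)) * E =
            r1 - (m1 - m * z1) * z1 - (m + m1 - m * z1) * r2 := by
          have : (m' - m - (m1 - m * z1)) * E = m' * E - (m + m1 - m * z1) * E := by ring
          rw [this, hm'eq]
          have hE' : E = 1 + z1 + r2 := by rw [hr2]; ring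
          have hN' : N = m + m1 + r1 := by rw [hr1]; ring
          rw [hE', hN']; ring
        rw [e]
        have hmz : |m * z1| ≤ a := by
          rw [abs_mul, abs_of_nonneg hm0]
          calc m * |z1| ≤ 1 * a := by gcongr
            _ = a := one_mul a
        have t1 : |(m1 - m * z1) * z1| ≤ (2 * a) * a := by
          rw [abs_mul]
          gcongr
          refine (abs_sub _ _).trans ?_
          linarith
        have t2 : |(m + m1 - m * z1) * r2| ≤ 3 * a ^ 2 := by
          rw [abs_mul]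
          gcongr
          have := abs_sub (m + m1) (m * z1)
          have h3 := abs_add_le m m1
          rw [abs_of_nonneg hm0] at h3
          linarith
        have t3 := abs_sub (r1 - (m1 - m * z1) * z1) ((m + m1 - m * z1) * r2)
        have t4 := abs_sub r1 ((m1 - m * z1) * z1)
        nlinarith [hNr]
      have hE0 : 0 < E := by linarith
      rw [abs_mul, abs_of_pos hE0] at hkey
      have : |m' - m - (m1 - m * z1)| * (1 / 3) ≤ 6 * a ^ 2 :=
        (mul_le_mul_of_nonneg_left hElow (abs_nonneg _)).trans hkey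
      linarith
    · -- large increments
      push Not at ha1
      have h3 : |m' - m - (m1 - m * z1)| ≤ 1 + 2 * a := by
        have hmz : |m * z1| ≤ a := by
          rw [abs_mul, abs_of_nonneg hm0]
          calc m * |z1| ≤ 1 * a := by gcongr
            _ = a := one_mul a
        have t1 := abs_sub (m' - m) (m1 - m * z1)
        have t2 := abs_sub m1 (m * z1)
        have t3 : |m' - m| ≤ 1 := abs_le.2 ⟨by linarith, by linarith⟩
        linarith
      nlinarith

/-- the drift is `C11` in the state -/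
lemma dr_C11 {q : Finset ι → ℝ} {Λ : Finset ι} (h0 : ∀ S ∈ Λ.powerset, 0 ≤ q S)
    (h1 : ∑ S ∈ Λ.powerset, q S = 1) (t : ℝ) (v : ι) :
    C11 Λ (fun w => dr q Λ t w v) (4 * Λ.card) (72 * Λ.card ^ 2 + 4 * Λ.card) := by
  constructor
  intro w
  obtain ⟨c, hc, hT⟩ := mf_taylor h0 h1 (fun i => psi t (w i)) v
  refine ⟨fun i => c i * dpsi t (w i), ?_, ?_⟩
  · calc ∑ i ∈ Λ, |c i * dpsi t (w i)| ≤ ∑ _i ∈ Λ, (4 : ℝ) := Finset.sum_le_sum fun i _ => by
          rw [abs_mul]
          calc |c i| * |dpsi t (w i)| ≤ 2 * 2 :=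
                mul_le_mul (hc i) (abs_dpsi_le _ _) (abs_nonneg _) (by norm_num)
            _ = 4 := by norm_num
      _ = 4 * Λ.card := by simp; ring
  · intro u D hD hu
    have h2 := hT (fun i => psi t (w i + u i) - psi t (w i)) (2 * D) (by positivity) (fun i hi => by
      have := abs_psi_sub_le t t (w i + u i) (w i)
      have hui := hu i hi
      simp only [sub_self, abs_zero, zero_add, add_sub_cancel_left] at this
      linarith)
    have e1 : (fun i => psi t (w i) + (psi t (w i + u i) - psi t (w i))) =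
        fun i => psi t (w i + u i) := by ext i; ring
    rw [e1] at h2
    have h3 : |∑ i ∈ Λ, c i * (psi t (w i + u i) - psi t (w i)) -
        ∑ i ∈ Λ, c i * dpsi t (w i) * u i| ≤ 4 * Λ.card * D ^ 2 := by
      rw [← Finset.sum_sub_distrib]
      calc _ ≤ ∑ i ∈ Λ, |c i * (psi t (w i + u i) - psi t (w i)) - c i * dpsi t (w i) * u i| :=
            Finset.abs_sum_le_sum_abs _ _
        _ ≤ ∑ _i ∈ Λ, 4 * D ^ 2 := Finset.sum_le_sum fun i hi => by
            have e : c i * (psi t (w i + u i) - psi t (w i)) - c i * dpsi t (w i) * u i =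
                c i * (psi t (w i + u i) - psi t (w i) - dpsi t (w i) * u i) := by ring
            rw [e, abs_mul]
            have h4 := abs_psi_taylor t (w i) (u i)
            have h5 : u i ^ 2 ≤ D ^ 2 := by
              rw [← sq_abs]
              exact pow_le_pow_left₀ (abs_nonneg _) (hu i hi) 2
            calc |c i| * |psi t (w i + u i) - psi t (w i) - dpsi t (w i) * u i| ≤ 2 * (2 * u i ^ 2) :=
                  mul_le_mul (hc i) h4 (abs_nonneg _) (by norm_num)
              _ ≤ 4 * D ^ 2 := by linarith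
        _ = 4 * Λ.card * D ^ 2 := by simp; ring
    have h6 := abs_add_le (mf q Λ (fun i => psi t (w i + u i)) v - mf q Λ (fun i => psi t (w i)) v -
      ∑ i ∈ Λ, c i * (psi t (w i + u i) - psi t (w i)))
      (∑ i ∈ Λ, c i * (psi t (w i + u i) - psi t (w i)) - ∑ i ∈ Λ, c i * dpsi t (w i) * u i)
    have e2 : (mf q Λ (fun i => psi t (w i + u i)) v - mf q Λ (fun i => psi t (w i)) v -
      ∑ i ∈ Λ, c i * (psi t (w i + u i) - psi t (w i))) +
      (∑ i ∈ Λ, c i * (psi t (w i + u i) - psi t (w i)) - ∑ i ∈ Λ, c i * dpsi t (w i) * u i) =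
      mf q Λ (fun i => psi t (w i + u i)) v - mf q Λ (fun i => psi t (w i)) v -
      ∑ i ∈ Λ, c i * dpsi t (w i) * u i := by ring
    rw [e2] at h6
    simp only [dr]
    refine h6.trans ?_
    nlinarith [h2, h3]

/-- one Euler step -/
noncomputable def stp (q : Finset ι → ℝ) (Λ : Finset ι) (h t : ℝ) (w : ι → ℝ) : ι → ℝ :=
  fun v => w v + h * dr q Λ t w v

lemma C11.comp_stp {q : Finset ι → ℝ} {Λ : Finset ι} {F : (ι → ℝ) → ℝ} {K1 K2 : ℝ}
    (hF : C11 Λ F K1 K2) (h t : ℝ) (hh : 0 ≤ h) {B1 B2 : ℝ} (hB1 : 0 ≤ B1) (hB2 : 0 ≤ B2)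
    (hB : ∀ v, C11 Λ (fun w => dr q Λ t w v) B1 B2)
    (hlip : ∀ (w w' : ι → ℝ) (D : ℝ), 0 ≤ D → (∀ i ∈ Λ, |w i - w' i| ≤ D) → ∀ v,
      |dr q Λ t w v - dr q Λ t w' v| ≤ B1 * D) :
    C11 Λ (fun w => F (stp q Λ h t w)) ((1 + h * B1) * K1)
      ((1 + h * B1) ^ 2 * K2 + h * B2 * K1) := by
  constructor
  intro w
  obtain ⟨c, hc, hT⟩ := hF.taylor (stp q Λ h t w)
  choose d hd hTd using fun v => (hB v).taylor w
  refine ⟨fun i => c i + h * ∑ v ∈ Λ, c v * d v i, ?_, ?_⟩
  · calc ∑ i ∈ Λ, |c i + h * ∑ v ∈ Λ, c v * d v i|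
        ≤ ∑ i ∈ Λ, (|c i| + h * ∑ v ∈ Λ, |c v| * |d v i|) := Finset.sum_le_sum fun i _ => by
          refine (abs_add_le _ _).trans ?_
          rw [abs_mul, abs_of_nonneg hh]
          gcongr
          refine (Finset.abs_sum_le_sum_abs _ _).trans (le_of_eq ?_)
          exact Finset.sum_congr rfl fun v _ => abs_mul _ _
      _ = ∑ i ∈ Λ, |c i| + h * ∑ v ∈ Λ, |c v| * ∑ i ∈ Λ, |d v i| := by
          rw [Finset.sum_add_distrib, ← Finset.mul_sum, Finset.sum_comm]
          simp only [Finset.mul_sum]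
      _ ≤ ∑ i ∈ Λ, |c i| + h * ∑ v ∈ Λ, |c v| * B1 := by
          gcongr with v hv
          exact hd v
      _ = (1 + h * B1) * ∑ i ∈ Λ, |c i| := by rw [← Finset.sum_mul]; ring
      _ ≤ (1 + h * B1) * K1 := by
          have : 0 ≤ 1 + h * B1 := by positivity
          gcongr
  · intro u D hD hu
    have hK1 : 0 ≤ K1 := (Finset.sum_nonneg fun i _ => abs_nonneg (c i)).trans hc
    set u' : ι → ℝ := fun v => u v + h * (dr q Λ t (fun i => w i + u i) v - dr q Λ t w v) with hu'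
    have e1 : stp q Λ h t (fun i => w i + u i) = fun v => stp q Λ h t w v + u' v := by
      ext v; simp only [stp, hu']; ring
    have hlip' : ∀ v, |dr q Λ t (fun i => w i + u i) v - dr q Λ t w v| ≤ B1 * D := fun v =>
      hlip _ _ D hD (fun i hi => by simpa using hu i hi) v
    have hub : ∀ i ∈ Λ, |u' i| ≤ (1 + h * B1) * D := by
      intro i hi
      simp only [hu']
      refine (abs_add_le _ _).trans ?_
      rw [abs_mul, abs_of_nonneg hh]
      have a1 := hu i hi
      have a2 := mul_le_mul_of_nonneg_left (hlip' i) hh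
      nlinarith
    have h2 := hT u' ((1 + h * B1) * D) (by positivity) hub
    have h3 : |∑ i ∈ Λ, c i * u' i - ∑ i ∈ Λ, (c i + h * ∑ v ∈ Λ, c v * d v i) * u i| ≤
        h * B2 * K1 * D ^ 2 := by
      have e2 : ∑ i ∈ Λ, c i * u' i - ∑ i ∈ Λ, (c i + h * ∑ v ∈ Λ, c v * d v i) * u i =
          ∑ v ∈ Λ, c v * (h * (dr q Λ t (fun i => w i + u i) v - dr q Λ t w v -
            ∑ i ∈ Λ, d v i * u i)) := by
        have e3 : ∑ i ∈ Λ, (c i + h * ∑ v ∈ Λ, c v * d v i) * u i =
            ∑ i ∈ Λ, c i * u i + ∑ v ∈ Λ, c v * (h * ∑ i ∈ Λ, d v i * u i) := by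
          simp only [add_mul, Finset.sum_add_distrib]
          congr 1
          simp only [Finset.mul_sum, Finset.sum_mul]
          rw [Finset.sum_comm]
          refine Finset.sum_congr rfl fun v _ => Finset.sum_congr rfl fun i _ => by ring
        rw [e3]
        simp only [hu', mul_add, mul_sub, Finset.sum_add_distrib, Finset.sum_sub_distrib]
        ring
      rw [e2]
      have hB2D : ∀ v, |dr q Λ t (fun i => w i + u i) v - dr q Λ t w v -
          ∑ i ∈ Λ, d v i * u i| ≤ B2 * D ^ 2 := fun v => hTd v u D hD hu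
      calc _ ≤ ∑ v ∈ Λ, |c v * (h * (dr q Λ t (fun i => w i + u i) v - dr q Λ t w v -
            ∑ i ∈ Λ, d v i * u i))| := Finset.abs_sum_le_sum_abs _ _
        _ ≤ ∑ v ∈ Λ, |c v| * (h * (B2 * D ^ 2)) := Finset.sum_le_sum fun v _ => by
            rw [abs_mul, abs_mul, abs_of_nonneg hh]
            gcongr
            exact hB2D v
        _ = (∑ v ∈ Λ, |c v|) * (h * (B2 * D ^ 2)) := by rw [Finset.sum_mul]
        _ ≤ K1 * (h * (B2 * D ^ 2)) := by
            gcongr
        _ = _ := by ring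
    have h6 := abs_add_le (F (fun v => stp q Λ h t w v + u' v) - F (stp q Λ h t w) -
      ∑ i ∈ Λ, c i * u' i)
      (∑ i ∈ Λ, c i * u' i - ∑ i ∈ Λ, (c i + h * ∑ v ∈ Λ, c v * d v i) * u i)
    have e4 : (F (fun v => stp q Λ h t w v + u' v) - F (stp q Λ h t w) -
      ∑ i ∈ Λ, c i * u' i) +
      (∑ i ∈ Λ, c i * u' i - ∑ i ∈ Λ, (c i + h * ∑ v ∈ Λ, c v * d v i) * u i) =
      F (fun v => stp q Λ h t w v + u' v) - F (stp q Λ h t w) -
      ∑ i ∈ Λ, (c i + h * ∑ v ∈ Λ, c v * d v i) * u i := by ring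
    rw [e4] at h6
    simp only [e1]
    refine h6.trans ?_
    calc _ ≤ K2 * ((1 + h * B1) * D) ^ 2 + h * B2 * K1 * D ^ 2 := add_le_add h2 h3
      _ = _ := by ring


variable (ν : Measure (ι → Bool)) [IsProbabilityMeasure ν]

lemma measurable_stp (q : Finset ι → ℝ) (Λ : Finset ι) (h t : ℝ) : Measurable (stp q Λ h t) := by
  refine measurable_pi_lambda _ fun v => ?_
  exact (measurable_pi_apply v).add ((measurable_dr' q Λ t v).const_mul h)

lemma one_step (Λ : Finset ι) {F : (ι → ℝ) → ℝ} (hFm : Measurable F) {M : ℝ}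
    (hM : ∀ w, |F w| ≤ M) {K1 K2 : ℝ} (hF : C11 Λ F K1 K2) (h t : ℝ) (hh : 0 ≤ h) :
    |∫ p, F (stp (winW ν Λ) Λ h t (Y t p)) ∂(ν.prod (PL ι)) -
      ∫ p, F (Y (t + h) p) ∂(ν.prod (PL ι))| ≤ 2 * K2 * h ^ 2 := by
  classical
  set q := winW ν Λ with hq
  have hq0 : ∀ S ∈ Λ.powerset, 0 ≤ q S := fun S _ => winW_nonneg ν Λ S
  have hq1 : ∑ S ∈ Λ.powerset, q S = 1 := winW_sum ν Λ
  have hdepF := hF.depOn
  have hstpdep : ∀ w w' : ι → ℝ, (∀ i ∈ Λ, w i = w' i) →
      F (stp q Λ h t w) = F (stp q Λ h t w') := by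
    intro w w' hw
    refine hdepF _ _ fun i hi => ?_
    simp only [stp]
    rw [hw i hi, dr_congr t hw]
  set Φ : Finset ι → (ι → ℝ) → ℝ := fun S w => F (shf h S w) - F (stp q Λ h t w) with hΦ
  have hΦm : ∀ S ∈ Λ.powerset, Measurable (Φ S) := fun S _ =>
    (hFm.comp (measurable_shf h S)).sub (hFm.comp (measurable_stp q Λ h t))
  have hΦd : ∀ S ∈ Λ.powerset, DepOn Λ (Φ S) := by
    intro S _ w w' hw
    simp only [hΦ]
    rw [hstpdep w w' hw, hdepF (shf h S w) (shf h S w') (fun i hi => by simp only [shf, hw i hi])]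
  have hΦb : ∀ S ∈ Λ.powerset, ∀ w, |Φ S w| ≤ 2 * M := by
    intro S _ w
    have := abs_sub (F (shf h S w)) (F (stp q Λ h t w))
    have h1 := hM (shf h S w)
    have h2 := hM (stp q Λ h t w)
    simp only [hΦ]
    linarith
  have hmaster := integral_master ν Λ t Φ hΦm hΦd (2 * M) hΦb
  have e1 : ∀ p : (ι → Bool) × (ι → ℝ),
      ∑ S ∈ Λ.powerset, (wev Λ S).indicator (fun _ => (1 : ℝ)) p.1 * Φ S (Y t p) =
      F (Y (t + h) p) - F (stp q Λ h t (Y t p)) := by
    intro p
    obtain ⟨S, hS, hω⟩ := wev_cover Λ p.1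
    rw [Finset.sum_eq_single S]
    · rw [Set.indicator_of_mem hω, one_mul]
      simp only [hΦ]
      congr 1
      refine hdepF _ _ fun i hi => ?_
      simp only [shf, Y]
      have := hω i hi
      by_cases h' : i ∈ S
      · simp [h', this.2 h']; ring
      · have h'' : ¬ (p.1 i = true) := fun h'' => h' (this.1 h'')
        rw [if_neg h', if_neg h'', if_neg h'']; ring
    · intro T hT hne
      rw [Set.indicator_of_notMem (fun hT' => hne (wev_disj Λ hT hS hT' hω)), zero_mul]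
    · intro h'; exact absurd hS h'
  simp_rw [e1] at hmaster
  have hint1 : Integrable (fun p => F (Y (t + h) p)) (ν.prod (PL ι)) :=
    integrable_bdd _ _ (hFm.comp (measurable_Y _)) M fun p => hM _
  have hint2 : Integrable (fun p => F (stp q Λ h t (Y t p))) (ν.prod (PL ι)) :=
    integrable_bdd _ _ (hFm.comp ((measurable_stp q Λ h t).comp (measurable_Y _))) M fun p => hM _
  rw [integral_sub hint1 hint2] at hmaster
  rw [abs_sub_comm, hmaster]
  -- pointwise bound
  have hpt : ∀ g : ι → ℝ, |∑ S ∈ Λ.powerset, q S * (Real.exp (∑ i ∈ S, psi t (g i)) * Φ S g)| ≤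
      zf q Λ (fun i => psi t (g i)) * (2 * K2 * h ^ 2) := by
    intro g
    obtain ⟨c, _, hT⟩ := hF.taylor g
    have hA : ∀ S : Finset ι, |F (shf h S g) - F g - ∑ i ∈ Λ, c i * (if i ∈ S then h else 0)| ≤
        K2 * h ^ 2 := by
      intro S
      have := hT (fun i => if i ∈ S then h else 0) h hh (fun i _ => by
        split_ifs
        · rw [abs_of_nonneg hh]
        · rw [abs_zero]; exact hh)
      exact this
    have hB : |F (stp q Λ h t g) - F g - ∑ i ∈ Λ, c i * (h * dr q Λ t g i)| ≤ K2 * h ^ 2 := by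
      have := hT (fun i => h * dr q Λ t g i) h hh (fun i _ => by
        have a1 : 0 ≤ dr q Λ t g i := mf_nonneg hq0 _ _
        have a2 : dr q Λ t g i ≤ 1 := mf_le_one hq0 hq1 _ _
        rw [abs_of_nonneg (mul_nonneg hh a1)]
        nlinarith)
      exact this
    set Z := zf q Λ (fun i => psi t (g i)) with hZ
    have hZ0 : 0 < Z := zf_pos hq0 hq1 _
    set wt : Finset ι → ℝ := fun S => q S * Real.exp (∑ i ∈ S, psi t (g i)) with hwt
    have hwt0 : ∀ S ∈ Λ.powerset, 0 ≤ wt S := fun S hS => mul_nonneg (hq0 S hS) (Real.exp_pos _).le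
    have hwtZ : ∑ S ∈ Λ.powerset, wt S = Z := rfl
    have hlin : ∑ S ∈ Λ.powerset, wt S * ((∑ i ∈ Λ, c i * (if i ∈ S then h else 0)) -
        ∑ i ∈ Λ, c i * (h * dr q Λ t g i)) = 0 := by
      simp only [mul_sub, Finset.sum_sub_distrib]
      rw [← Finset.sum_mul, hwtZ]
      have : ∑ S ∈ Λ.powerset, wt S * ∑ i ∈ Λ, c i * (if i ∈ S then h else 0) =
          ∑ i ∈ Λ, c i * (h * ∑ S ∈ Λ.powerset with i ∈ S, wt S) := by
        simp only [Finset.mul_sum, Finset.sum_filter]
        rw [Finset.sum_comm]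
        refine Finset.sum_congr rfl fun i _ => Finset.sum_congr rfl fun S _ => ?_
        split_ifs
        · ring
        · ring
      rw [this, Finset.mul_sum, ← Finset.sum_sub_distrib]
      refine Finset.sum_eq_zero fun i _ => ?_
      have : ∑ S ∈ Λ.powerset with i ∈ S, wt S = Z * dr q Λ t g i := by
        simp only [dr, mf, hwt, ← hZ]
        rw [mul_div_cancel₀ _ hZ0.ne']
      rw [this]; ring
    have hsplit : ∑ S ∈ Λ.powerset, q S * (Real.exp (∑ i ∈ S, psi t (g i)) * Φ S g) =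
        ∑ S ∈ Λ.powerset, wt S * ((F (shf h S g) - F g - ∑ i ∈ Λ, c i * (if i ∈ S then h else 0)) -
          (F (stp q Λ h t g) - F g - ∑ i ∈ Λ, c i * (h * dr q Λ t g i))) := by
      have hs : ∑ S ∈ Λ.powerset, q S * (Real.exp (∑ i ∈ S, psi t (g i)) * Φ S g) =
        ∑ S ∈ Λ.powerset, wt S * ((F (shf h S g) - F g - ∑ i ∈ Λ, c i * (if i ∈ S then h else 0)) -
          (F (stp q Λ h t g) - F g - ∑ i ∈ Λ, c i * (h * dr q Λ t g i))) +
        ∑ S ∈ Λ.powerset, wt S * ((∑ i ∈ Λ, c i * (if i ∈ S then h else 0)) -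
          ∑ i ∈ Λ, c i * (h * dr q Λ t g i)) := by
        rw [← Finset.sum_add_distrib]
        refine Finset.sum_congr rfl fun S _ => ?_
        simp only [hΦ, hwt]
        ring
      rw [hs, hlin, add_zero]
    rw [hsplit]
    calc _ ≤ ∑ S ∈ Λ.powerset, |wt S * ((F (shf h S g) - F g - ∑ i ∈ Λ, c i * (if i ∈ S then h else 0)) -
          (F (stp q Λ h t g) - F g - ∑ i ∈ Λ, c i * (h * dr q Λ t g i)))| :=
          Finset.abs_sum_le_sum_abs _ _
      _ ≤ ∑ S ∈ Λ.powerset, wt S * (2 * K2 * h ^ 2) := Finset.sum_le_sum fun S hS => by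
          rw [abs_mul, abs_of_nonneg (hwt0 S hS)]
          refine mul_le_mul_of_nonneg_left ?_ (hwt0 S hS)
          refine (abs_sub _ _).trans ?_
          have := hA S
          linarith
      _ = Z * (2 * K2 * h ^ 2) := by rw [← Finset.sum_mul, hwtZ]
  have hone := integral_Y ν Λ t (fun _ => 2 * K2 * h ^ 2) measurable_const (fun _ _ _ => rfl)
    |2 * K2 * h ^ 2| (fun _ => le_rfl)
  rw [integral_const] at hone
  rw [probReal_univ, one_smul] at hone
  have hintZ : Integrable (fun g => zf q Λ (fun i => psi t (g i)) * (2 * K2 * h ^ 2)) (PL ι) := by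
    refine Integrable.mul_const ?_ _
    simp only [zf]
    refine integrable_finsetSum _ fun S _ => ?_
    have := integrable_exp_mul (ι := ι) t S (fun _ => 1) measurable_const 1 (fun _ => by simp)
    simpa using this.const_mul (q S)
  calc |∫ g, ∑ S ∈ Λ.powerset, q S * (Real.exp (∑ i ∈ S, psi t (g i)) * Φ S g) ∂(PL ι)|
      ≤ ∫ g, |∑ S ∈ Λ.powerset, q S * (Real.exp (∑ i ∈ S, psi t (g i)) * Φ S g)| ∂(PL ι) :=
        abs_integral_le_integral_abs
    _ ≤ ∫ g, zf q Λ (fun i => psi t (g i)) * (2 * K2 * h ^ 2) ∂(PL ι) := by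
        refine integral_mono_of_nonneg (Eventually.of_forall fun g => abs_nonneg _) hintZ
          (Eventually.of_forall hpt)
    _ = 2 * K2 * h ^ 2 := hone.symm

lemma eul_eq_stp (q : Finset ι → ℝ) (Λ : Finset ι) (h : ℝ) (k : ℕ) (g : ι → ℝ) :
    eul q Λ h (k + 1) g = stp q Λ h (k * h) (eul q Λ h k g) := rfl

/-- telescoping -/
lemma many_steps (Λ : Finset ι) {C : ℝ} (hV : Valid (winW ν Λ) Λ C) {B1 B2 : ℝ}
    (hB1 : B1 = 4 * Λ.card + 2 * C) (hB2 : B2 = 72 * Λ.card ^ 2 + 4 * Λ.card)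
    (h : ℝ) (hh : 0 ≤ h) (n : ℕ) :
    ∀ {F : (ι → ℝ) → ℝ} (_ : Measurable F) {M : ℝ} (_ : ∀ w, |F w| ≤ M) {K1 K2 : ℝ}
      (_ : 0 ≤ K1) (_ : 0 ≤ K2) (_ : C11 Λ F K1 K2),
    |∫ g, F (eul (winW ν Λ) Λ h n g) ∂(PL ι) - ∫ p, F (Y (n * h) p) ∂(ν.prod (PL ι))| ≤
      2 * h ^ 2 * n * (1 + h * B1) ^ (2 * n) * (K2 + n * h * B2 * K1) := by
  have hC := hV.C_nonneg
  have hB10 : 0 ≤ B1 := by rw [hB1]; positivity
  have hB20 : 0 ≤ B2 := by rw [hB2]; positivity
  have hq0 : ∀ S ∈ Λ.powerset, 0 ≤ winW ν Λ S := fun S _ => winW_nonneg ν Λ S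
  have hq1 : ∑ S ∈ Λ.powerset, winW ν Λ S = 1 := winW_sum ν Λ
  induction n with
  | zero =>
    intro F hFm M hM K1 K2 hK1 hK2 hF
    have e : ∀ p : (ι → Bool) × (ι → ℝ), Y ((0 : ℕ) * h) p = p.2 := by
      intro p; ext v; simp [Y]
    simp_rw [e]
    have : ∫ p : (ι → Bool) × (ι → ℝ), F p.2 ∂(ν.prod (PL ι)) = ∫ g, F g ∂(PL ι) := by
      have := integral_fun_snd (μ := ν) (ν := PL ι) F
      simpa using this
    rw [this]
    simp [eul_zero]
  | succ n ih =>
    intro F hFm M hM K1 K2 hK1 hK2 hF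
    set q := winW ν Λ with hq
    have hdrC : ∀ v, C11 Λ (fun w => dr q Λ (n * h) w v) B1 B2 := by
      intro v
      constructor
      intro w
      obtain ⟨c, hc, hT⟩ := (dr_C11 hq0 hq1 (n * h) v).taylor w
      refine ⟨c, hc.trans ?_, fun u D hD hu => (hT u D hD hu).trans (le_of_eq ?_)⟩
      · rw [hB1]; linarith
      · rw [hB2]
    have hlip : ∀ (w w' : ι → ℝ) (D : ℝ), 0 ≤ D → (∀ i ∈ Λ, |w i - w' i| ≤ D) → ∀ v,
        |dr q Λ (n * h) w v - dr q Λ (n * h) w' v| ≤ B1 * D := by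
      intro w w' D hD hw v
      have := hV.dr_lip (t := n * h) (t' := n * h) hD hw v
      rw [sub_self, abs_zero, zero_add] at this
      refine this.trans ?_
      rw [hB1]
      have : 0 ≤ 4 * (Λ.card : ℝ) * D := by positivity
      nlinarith
    have hF' := hF.comp_stp h (n * h) hh hB10 hB20 hdrC hlip
    have h1 := ih (F := fun w => F (stp q Λ h (n * h) w)) (hFm.comp (measurable_stp q Λ h (n * h)))
      (M := M) (fun w => hM _) (K1 := (1 + h * B1) * K1)
      (K2 := (1 + h * B1) ^ 2 * K2 + h * B2 * K1) (by positivity) (by positivity) hF'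
    have h2 := one_step ν Λ hFm hM hF h (n * h) hh
    have e1 : (n * h + h : ℝ) = ((n + 1 : ℕ) : ℝ) * h := by push_cast; ring
    rw [e1] at h2
    simp only [← eul_eq_stp] at h1
    have h3 := abs_add_le (∫ g, F (eul q Λ h (n + 1) g) ∂(PL ι) -
      ∫ p, F (stp q Λ h (n * h) (Y (n * h) p)) ∂(ν.prod (PL ι)))
      (∫ p, F (stp q Λ h (n * h) (Y (n * h) p)) ∂(ν.prod (PL ι)) -
      ∫ p, F (Y (((n + 1 : ℕ) : ℝ) * h) p) ∂(ν.prod (PL ι)))
    rw [sub_add_sub_cancel] at h3
    refine h3.trans ((add_le_add h1 h2).trans ?_)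
    have hr : (1 : ℝ) ≤ 1 + h * B1 := by
      have := mul_nonneg hh hB10
      linarith
    set r := 1 + h * B1 with hrdef
    have hr0 : 0 < r := by linarith
    have p1 : r ^ (2 * n) * (r ^ 2 * K2 + h * B2 * K1 + n * h * B2 * (r * K1)) ≤
        r ^ (2 * (n + 1)) * (K2 + ((n + 1 : ℕ) : ℝ) * h * B2 * K1) := by
      have e : r ^ (2 * (n + 1)) * (K2 + ((n + 1 : ℕ) : ℝ) * h * B2 * K1) =
          r ^ (2 * n) * (r ^ 2 * (K2 + ((n + 1 : ℕ) : ℝ) * h * B2 * K1)) := by ring
      have hrn : 0 ≤ r ^ (2 * n) := by positivity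
      rw [e]
      refine mul_le_mul_of_nonneg_left ?_ hrn
      have a1 : 0 ≤ h * B2 * K1 := by positivity
      have a2 : r ≤ r ^ 2 := by nlinarith
      have a3 : 1 ≤ r ^ 2 := by nlinarith
      have a4 : 0 ≤ n * (h * B2 * K1) := by positivity
      push_cast
      nlinarith [mul_le_mul_of_nonneg_right a3 a1, mul_le_mul_of_nonneg_right a2 a4]
    have p2 : K2 ≤ r ^ (2 * (n + 1)) * (K2 + ((n + 1 : ℕ) : ℝ) * h * B2 * K1) := by
      have a0 : (1 : ℝ) ≤ r ^ (2 * (n + 1)) := one_le_pow₀ hr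
      have a1 : 0 ≤ ((n + 1 : ℕ) : ℝ) * h * B2 * K1 := by positivity
      nlinarith
    have h2n : 0 ≤ 2 * h ^ 2 * n := by positivity
    have q1 := mul_le_mul_of_nonneg_left p1 h2n
    have h2h : 0 ≤ 2 * h ^ 2 := by positivity
    have q2 := mul_le_mul_of_nonneg_left p2 h2h
    calc _ = 2 * h ^ 2 * n * (r ^ (2 * n) * (r ^ 2 * K2 + h * B2 * K1 + n * h * B2 * (r * K1))) +
          2 * h ^ 2 * K2 := by ring
      _ ≤ 2 * h ^ 2 * n * (r ^ (2 * (n + 1)) * (K2 + ((n + 1 : ℕ) : ℝ) * h * B2 * K1)) +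
          2 * h ^ 2 * (r ^ (2 * (n + 1)) * (K2 + ((n + 1 : ℕ) : ℝ) * h * B2 * K1)) :=
          add_le_add q1 q2
      _ = _ := by push_cast; ring

end Crest.Agent.Lib.Row168
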